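import Vale.Agent.Tri.Final

/-!
# P075 / Tri / AE: from Borel measurable to Lebesgue measurable functions
-/

namespace Tri

open MeasureTheory

theorem qmp01 : Measure.QuasiMeasurePreserving (fun x : ℝ × ℝ × ℝ => (x.1, x.2.1))
    (volume : Measure (ℝ × ℝ × ℝ)) (volume : Measure (ℝ × ℝ)) := by
  have h1 := (measurePreserving_prodAssoc (volume : Measure ℝ) (volume : Measure ℝ)
    (volume : Measure ℝ)).symm.quasiMeasurePreserving
  have h2 : Measure.QuasiMeasurePreserving (Prod.fst : (ℝ × ℝ) × ℝ → ℝ × ℝ)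
    ((volume : Measure (ℝ × ℝ)).prod (volume : Measure ℝ)) volume :=
    Measure.quasiMeasurePreserving_fst
  exact h2.comp h1

theorem qmp12 : Measure.QuasiMeasurePreserving (fun x : ℝ × ℝ × ℝ => (x.2.1, x.2.2))
    (volume : Measure (ℝ × ℝ × ℝ)) (volume : Measure (ℝ × ℝ)) := by
  have h2 : Measure.QuasiMeasurePreserving (Prod.snd : ℝ × (ℝ × ℝ) → ℝ × ℝ)
    ((volume : Measure ℝ).prod (volume : Measure (ℝ × ℝ))) volume :=
    Measure.quasiMeasurePreserving_snd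
  exact h2

theorem qmp20 : Measure.QuasiMeasurePreserving (fun x : ℝ × ℝ × ℝ => (x.2.2, x.1))
    (volume : Measure (ℝ × ℝ × ℝ)) (volume : Measure (ℝ × ℝ)) := by
  have h0 := (Measure.measurePreserving_swap (μ := (volume : Measure ℝ))
    (ν := (volume : Measure (ℝ × ℝ)))).quasiMeasurePreserving
  have h1 := (measurePreserving_prodAssoc (volume : Measure ℝ) (volume : Measure ℝ)
    (volume : Measure ℝ)).quasiMeasurePreserving
  exact qmp12.comp (h1.comp h0)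

theorem LI_congr {F0 F1 F2 G0 G1 G2 : ℝ × ℝ → ℝ} (e0 : F0 =ᵐ[volume] G0) (e1 : F1 =ᵐ[volume] G1)
    (e2 : F2 =ᵐ[volume] G2) (k : ℤ) (n0 n1 n2 : ℕ) :
    LI F0 F1 F2 k n0 n1 n2 = LI G0 G1 G2 k n0 n1 n2 := by
  unfold LI
  congr 1
  refine integral_congr_ae (ae_restrict_of_ae ?_)
  filter_upwards [qmp01.ae_eq e0, qmp12.ae_eq e1, qmp20.ae_eq e2] with x h0 h1 h2
  simp only [Function.comp_apply] at h0 h1 h2
  rw [h0, h1, h2]

theorem Lam_congr {F0 F1 F2 G0 G1 G2 : ℝ × ℝ → ℝ} (e0 : F0 =ᵐ[volume] G0)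
    (e1 : F1 =ᵐ[volume] G1) (e2 : F2 =ᵐ[volume] G2) (S : Finset ℤ) (ε : ℤ → ℝ) :
    Lam S ε F0 F1 F2 = Lam S ε G0 G1 G2 := by
  unfold Lam
  simp only [LI_congr e0 e1 e2]

theorem cube_congr {F G : ℝ × ℝ → ℝ} (e : F =ᵐ[volume] G) :
    ∫ p in Set.Ici (0 : ℝ) ×ˢ Set.Ici (0 : ℝ), |F p| ^ 3 =
      ∫ p in Set.Ici (0 : ℝ) ×ˢ Set.Ici (0 : ℝ), |G p| ^ 3 := by
  refine integral_congr_ae (ae_restrict_of_ae ?_)
  filter_upwards [e] with p h
  rw [h]

/-- a Lebesgue measurable bounded compactly supported function agrees almost everywhere with a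
Borel measurable one with the same bound -/
theorem exists_borel {F : ℝ × ℝ → ℝ} (h : AEMeasurable F) {B : ℝ} (b : ∀ p, |F p| ≤ B)
    (c : HasCompactSupport F) :
    ∃ G : ℝ × ℝ → ℝ, Measurable G ∧ (∀ p, |G p| ≤ B) ∧ HasCompactSupport G ∧
      F =ᵐ[volume] G := by
  have hB : 0 ≤ B := (abs_nonneg _).trans (b (0, 0))
  refine ⟨(tsupport F).indicator fun p => max (-B) (min B (h.mk F p)), ?_, ?_, ?_, ?_⟩
  · exact (measurable_const.max (measurable_const.min h.measurable_mk)).indicator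
      (isClosed_tsupport F).measurableSet
  · intro p
    by_cases hp : p ∈ tsupport F
    · rw [Set.indicator_of_mem hp, abs_le]
      exact ⟨le_max_left _ _, max_le (by linarith) (min_le_left _ _)⟩
    · rw [Set.indicator_of_notMem hp, abs_zero]
      exact hB
  · exact HasCompactSupport.of_support_subset_isCompact c.isCompact Set.support_indicator_subset
  · filter_upwards [h.ae_eq_mk] with p hp
    by_cases hq : p ∈ tsupport F
    · rw [Set.indicator_of_mem hq, ← hp]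
      have h1 := abs_le.mp (b p)
      rw [min_eq_right h1.2, max_eq_right h1.1]
    · rw [Set.indicator_of_notMem hq]
      exact image_eq_zero_of_notMem_tsupport hq

/-- Q2 for Lebesgue measurable functions -/
theorem final {F0 F1 F2 : ℝ × ℝ → ℝ} (h0 : AEMeasurable F0) (h1 : AEMeasurable F1)
    (h2 : AEMeasurable F2) {B : ℝ} (b0 : ∀ p, |F0 p| ≤ B) (b1 : ∀ p, |F1 p| ≤ B)
    (b2 : ∀ p, |F2 p| ≤ B) (c0 : HasCompactSupport F0) (c1 : HasCompactSupport F1)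
    (c2 : HasCompactSupport F2) :
    (∀ k : ℤ, Summable fun n : AA => |LI F0 F1 F2 k n.1.1 n.1.2.1 n.1.2.2|) ∧
    (∀ S : Finset ℤ, ∑ k ∈ S, ∑' n : AA, |LI F0 F1 F2 k n.1.1 n.1.2.1 n.1.2.2| ≤
      864 * ((∫ p in Set.Ici 0 ×ˢ Set.Ici 0, |F0 p| ^ 3) ^ (1 / 3 : ℝ) *
        (∫ p in Set.Ici 0 ×ˢ Set.Ici 0, |F1 p| ^ 3) ^ (1 / 3 : ℝ) *
        (∫ p in Set.Ici 0 ×ˢ Set.Ici 0, |F2 p| ^ 3) ^ (1 / 3 : ℝ))) ∧
    (∀ (S : Finset ℤ) (ε : ℤ → ℝ), (∀ k ∈ S, |ε k| ≤ 1) → |Lam S ε F0 F1 F2| ≤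
      864 * ((∫ p in Set.Ici 0 ×ˢ Set.Ici 0, |F0 p| ^ 3) ^ (1 / 3 : ℝ) *
        (∫ p in Set.Ici 0 ×ˢ Set.Ici 0, |F1 p| ^ 3) ^ (1 / 3 : ℝ) *
        (∫ p in Set.Ici 0 ×ˢ Set.Ici 0, |F2 p| ^ 3) ^ (1 / 3 : ℝ))) := by
  obtain ⟨G0, g0, bG0, cG0, e0⟩ := exists_borel h0 b0 c0
  obtain ⟨G1, g1, bG1, cG1, e1⟩ := exists_borel h1 b1 c1
  obtain ⟨G2, g2, bG2, cG2, e2⟩ := exists_borel h2 b2 c2
  simp only [LI_congr e0 e1 e2, Lam_congr e0 e1 e2, cube_congr e0, cube_congr e1, cube_congr e2]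
  refine ⟨(sum_bound g0 g1 g2 bG0 bG1 bG2 cG0 cG1 cG2 ∅).1,
    fun S => sum_bound_prod g0 g1 g2 bG0 bG1 bG2 cG0 cG1 cG2 S, fun S ε hε => ?_⟩
  classical
  have key := main S (fun k => if k ∈ S then ε k else 0)
    (fun k => by
      by_cases hk : k ∈ S
      · simpa [hk] using hε k hk
      · simp [hk]) g0 g1 g2 bG0 bG1 bG2 cG0 cG1 cG2
  have e : Lam S (fun k => if k ∈ S then ε k else 0) G0 G1 G2 = Lam S ε G0 G1 G2 := by
    unfold Lam
    exact Finset.sum_congr rfl fun k hk => by simp [hk]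
  rw [e] at key
  exact key

end Tri
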