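import Vale.Agent.Tri.StepA

/-!
# P075 / Tri / ApproxA: approximation by step functions
-/

namespace Tri

open MeasureTheory Matrix

/-- snap to the grid of mesh `h` -/
noncomputable def snap (h x : ℝ) : ℝ := h * ⌊x / h⌋

lemma measurable_snap (h : ℝ) : Measurable (snap h) := by
  unfold snap
  exact measurable_const.mul
    ((measurable_from_top (f := fun n : ℤ => (n : ℝ))).comp
      (Int.measurable_floor.comp (measurable_id.div_const h)))

lemma snap_le {h : ℝ} (hh : 0 < h) (x : ℝ) : snap h x ≤ x := by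
  unfold snap
  have := Int.floor_le (x / h)
  calc h * ⌊x / h⌋ ≤ h * (x / h) := by gcongr
    _ = x := by field_simp

lemma lt_snap {h : ℝ} (hh : 0 < h) (x : ℝ) : x < snap h x + h := by
  unfold snap
  have := Int.lt_floor_add_one (x / h)
  calc x = h * (x / h) := by field_simp
    _ < h * (⌊x / h⌋ + 1) := by gcongr
    _ = _ := by ring

lemma dist_snap {h : ℝ} (hh : 0 < h) (x : ℝ) : dist x (snap h x) < h := by
  rw [Real.dist_eq, abs_of_nonneg (by linarith [snap_le hh x])]
  linarith [lt_snap hh x]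

lemma snap_of_mem {e : ℤ} {n : ℕ} {x : ℝ} (hx : x ∈ DI e n) :
    snap ((2 : ℝ) ^ e) x = (2 : ℝ) ^ e * n := by
  have h2 : (0 : ℝ) < (2 : ℝ) ^ e := zpow_pos (by norm_num) e
  unfold snap
  have : ⌊x / (2 : ℝ) ^ e⌋ = (n : ℤ) := by
    rw [Int.floor_eq_iff]
    constructor
    · rw [le_div_iff₀ h2]
      have := hx.1
      push_cast
      linarith
    · rw [div_lt_iff₀ h2]
      have := hx.2
      push_cast
      linarith
  rw [this]
  push_cast
  ring

lemma snap_grid (e : ℤ) (n : ℕ) : snap ((2 : ℝ) ^ e) ((2 : ℝ) ^ e * n) = (2 : ℝ) ^ e * n := by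
  apply snap_of_mem
  have h2 : (0 : ℝ) < (2 : ℝ) ^ e := zpow_pos (by norm_num) e
  constructor
  · exact le_rfl
  · gcongr
    linarith

/-- clip to `[-B, B]` -/
noncomputable def clip (B y : ℝ) : ℝ := max (-B) (min y B)

lemma abs_clip_le {B : ℝ} (hB : 0 ≤ B) (y : ℝ) : |clip B y| ≤ B := by
  unfold clip
  rw [abs_le]
  exact ⟨le_max_left _ _, max_le (by linarith) (min_le_right _ _)⟩

lemma abs_clip_sub_le (B y z : ℝ) : |clip B y - clip B z| ≤ |y - z| := by
  unfold clip
  refine (abs_max_sub_max_le_max _ _ _ _).trans ?_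
  rw [sub_self, abs_zero]
  refine max_le (abs_nonneg _) ?_
  refine (abs_min_sub_min_le_max _ _ _ _).trans ?_
  rw [sub_self, abs_zero]
  exact max_le le_rfl (abs_nonneg _)

lemma clip_of_abs_le {B y : ℝ} (hy : |y| ≤ B) : clip B y = y := by
  unfold clip
  rw [abs_le] at hy
  rw [min_eq_left hy.2, max_eq_right hy.1]

/-- Density -/
theorem exists_step_approx {F : ℝ × ℝ → ℝ} (hF : Measurable F) {B : ℝ} (hB : ∀ p, |F p| ≤ B)
    (k : ℤ) {ε : ℝ} (hε : 0 < ε) :
    ∃ D0 : ℕ, ∀ D : ℕ, D0 ≤ D → ∃ G : ℝ × ℝ → ℝ, Measurable G ∧ (∀ p, |G p| ≤ B) ∧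
      IsStep (k - D) G ∧ ∫ p in DI k 0 ×ˢ DI k 0, |F p - G p| ≤ ε := by
  have hB0 : 0 ≤ B := (abs_nonneg _).trans (hB 0)
  set Q : Set (ℝ × ℝ) := DI k 0 ×ˢ DI k 0 with hQ
  have hQm : MeasurableSet Q := (measurableSet_DI k 0).prod (measurableSet_DI k 0)
  have hQv : volume Q = ENNReal.ofReal ((2 : ℝ) ^ k) * ENNReal.ofReal ((2 : ℝ) ^ k) := by
    rw [hQ, Measure.volume_eq_prod, Measure.prod_prod, volume_DI]
  have hQt : volume Q ≠ ⊤ := by
    rw [hQv]; exact ENNReal.mul_ne_top ENNReal.ofReal_ne_top ENNReal.ofReal_ne_top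
  have : IsFiniteMeasure (volume.restrict Q) := ⟨by
    rw [Measure.restrict_apply_univ]; exact lt_top_iff_ne_top.mpr hQt⟩
  have bddInt : ∀ H : ℝ × ℝ → ℝ, Measurable H → ∀ C, (∀ p, |H p| ≤ C) → IntegrableOn H Q := by
    intro H hH C hC
    exact Integrable.of_bound hH.aestronglyMeasurable C
      (Filter.Eventually.of_forall fun p => by rw [Real.norm_eq_abs]; exact hC p)
  have hFi : Integrable (Q.indicator F) := (integrable_indicator_iff hQm).mpr (bddInt F hF B hB)
  obtain ⟨g, hgc, hg1, hgcont, hgi⟩ :=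
    hFi.exists_hasCompactSupport_integral_sub_le (half_pos hε)
  have hgu : UniformContinuous g := hgcont.uniformContinuous_of_tendsto_cocompact
    hgc.is_zero_at_infty
  set V : ℝ := volume.real Q with hV
  have hV0 : 0 ≤ V := measureReal_nonneg
  set η : ℝ := ε / (2 * (V + 1)) with hη
  have hη0 : 0 < η := by positivity
  rw [Metric.uniformContinuous_iff] at hgu
  obtain ⟨δ, hδ, hδ'⟩ := hgu η hη0
  have hlim : Filter.Tendsto (fun D : ℕ => (2 : ℝ) ^ k * (1 / 2 : ℝ) ^ D) Filter.atTop
      (nhds 0) := by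
    have := (tendsto_pow_atTop_nhds_zero_of_lt_one (r := (1 / 2 : ℝ)) (by norm_num)
      (by norm_num)).const_mul ((2 : ℝ) ^ k)
    simpa using this
  have hev := hlim.eventually (gt_mem_nhds hδ)
  rw [Filter.eventually_atTop] at hev
  obtain ⟨D0, hD0⟩ := hev
  refine ⟨D0, fun D hD => ?_⟩
  have hh : (2 : ℝ) ^ (k - (D : ℤ)) < δ := by
    have h1 := hD0 D hD
    rwa [show (2 : ℝ) ^ (k - (D : ℤ)) = (2 : ℝ) ^ k * (1 / 2 : ℝ) ^ D by
      rw [zpow_sub₀ (by norm_num), zpow_natCast, one_div, inv_pow]; rfl]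
  set h : ℝ := (2 : ℝ) ^ (k - (D : ℤ)) with hhdef
  have hh0 : 0 < h := zpow_pos (by norm_num) _
  have hclip : Measurable (clip B) := by
    unfold clip
    exact measurable_const.max (measurable_id.min measurable_const)
  set G : ℝ × ℝ → ℝ := fun p => clip B (g (snap h p.1, snap h p.2)) with hG
  have hGm : Measurable G := hclip.comp (hgcont.measurable.comp
    (((measurable_snap h).comp measurable_fst).prodMk ((measurable_snap h).comp measurable_snd)))
  have hGb : ∀ p, |G p| ≤ B := fun p => abs_clip_le hB0 _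
  refine ⟨G, hGm, hGb, ?_, ?_⟩
  · intro n n' x hx y hy
    simp only [hG]
    rw [snap_of_mem hx, snap_of_mem hy, snap_grid, snap_grid]
  · have hgm : Measurable g := hgcont.measurable
    have hpt : ∀ p, |F p - G p| ≤ |F p - g p| + η := by
      intro p
      have h1 : |g p - g (snap h p.1, snap h p.2)| < η := by
        rw [← Real.dist_eq]
        apply hδ'
        rw [Prod.dist_eq]
        exact max_lt ((dist_snap hh0 _).trans hh) ((dist_snap hh0 _).trans hh)
      have h2 : |F p - G p| ≤ |F p - g (snap h p.1, snap h p.2)| := by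
        have := abs_clip_sub_le B (F p) (g (snap h p.1, snap h p.2))
        rwa [clip_of_abs_le (hB p)] at this
      have h3 : |F p - g (snap h p.1, snap h p.2)| ≤
          |F p - g p| + |g p - g (snap h p.1, snap h p.2)| := abs_sub_le _ _ _
      linarith
    have hFg : IntegrableOn (fun p => |F p - g p|) Q :=
      ((bddInt F hF B hB).sub hgi.integrableOn).abs
    have hFG : IntegrableOn (fun p => |F p - G p|) Q :=
      ((bddInt F hF B hB).sub (bddInt G hGm B hGb)).abs
    have hle1 : ∫ p in Q, |F p - G p| ≤ ∫ p in Q, (|F p - g p| + η) := by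
      apply setIntegral_mono hFG (hFg.add (integrable_const η))
      exact hpt
    have hle2 : ∫ p in Q, |F p - g p| ≤ ε / 2 := by
      refine le_trans ?_ hg1
      have h4 : ∫ p in Q, |F p - g p| = ∫ p in Q, ‖Q.indicator F p - g p‖ := by
        apply setIntegral_congr_fun hQm
        intro p hp
        simp only [Real.norm_eq_abs, Set.indicator_of_mem hp]
      rw [h4]
      exact setIntegral_le_integral (hFi.sub hgi).norm
        (Filter.Eventually.of_forall fun p => norm_nonneg _)
    have hle3 : ∫ p in Q, (|F p - g p| + η) = (∫ p in Q, |F p - g p|) + V * η := by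
      rw [integral_add hFg (integrable_const η)]
      congr 1
      rw [integral_const]
      simp [hV]
    have hle4 : V * η ≤ ε / 2 := by
      rw [hη]
      rw [mul_div_assoc', div_le_div_iff₀ (by positivity) (by norm_num)]
      nlinarith
    linarith

end Tri
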