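import Vale.Agent.Tri.Form

/-!
# P075 / Tri / ApproxB: stability of the form and of the cubes under `L^1` perturbations
-/

namespace Tri

open MeasureTheory

theorem measurableSet_DI (k : ℤ) (n : ℕ) : MeasurableSet (DI k n) := measurableSet_Ico

theorem volume_DI (k : ℤ) (n : ℕ) : volume (DI k n) = ENNReal.ofReal ((2 : ℝ) ^ k) := by
  unfold DI
  rw [Real.volume_Ico]
  congr 1
  ring

instance isFinite_DI (k : ℤ) (n : ℕ) : IsFiniteMeasure (volume.restrict (DI k n)) := by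
  refine ⟨?_⟩
  rw [Measure.restrict_apply_univ, volume_DI]
  exact ENNReal.ofReal_lt_top

theorem real_DI (k : ℤ) (n : ℕ) : (volume.restrict (DI k n)).real Set.univ = (2 : ℝ) ^ k := by
  rw [Measure.real, Measure.restrict_apply_univ, volume_DI,
    ENNReal.toReal_ofReal (by positivity)]

theorem DI_subset (k : ℤ) (j n : ℕ) (hn : n < 2 ^ j) : DI (k - j) n ⊆ DI k 0 := by
  intro x hx
  have h1 : (2 : ℝ) ^ (k - j) * n ≤ x := hx.1
  have h2 : x < (2 : ℝ) ^ (k - j) * (n + 1) := hx.2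
  have h3 : (2 : ℝ) ^ k = (2 : ℝ) ^ (k - j) * 2 ^ j := by
    rw [zpow_sub₀ (by norm_num), zpow_natCast]
    field_simp
  have h4 : ((n + 1 : ℕ) : ℝ) ≤ ((2 ^ j : ℕ) : ℝ) := by exact_mod_cast hn
  push_cast at h4
  have hpos : (0 : ℝ) < (2 : ℝ) ^ (k - j) := by positivity
  refine ⟨?_, ?_⟩
  · have : 0 ≤ (2 : ℝ) ^ (k - j) * n := by positivity
    simpa using this.trans h1
  · have h5 : (2 : ℝ) ^ (k - j) * (n + 1) ≤ (2 : ℝ) ^ (k - j) * 2 ^ j :=
      mul_le_mul_of_nonneg_left h4 hpos.le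
    simp only [Nat.cast_zero, zero_add, mul_one]
    rw [h3]
    exact h2.trans_le h5

theorem abs_haar_le (k : ℤ) (n : ℕ) (x : ℝ) : |haar k n x| ≤ 1 := by
  unfold haar
  by_cases h1 : x ∈ DL k n <;> by_cases h2 : x ∈ DR k n <;> simp [h1, h2]

theorem measurable_haar (k : ℤ) (n : ℕ) : Measurable (haar k n) := by
  unfold haar
  exact (measurable_const.indicator measurableSet_Ico).sub
    (measurable_const.indicator measurableSet_Ico)

theorem integrable_bdd {α : Type*} [MeasurableSpace α] {μ : Measure α} [IsFiniteMeasure μ]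
    {f : α → ℝ} (hf : Measurable f) {B : ℝ} (hB : ∀ x, |f x| ≤ B) : Integrable f μ :=
  Integrable.of_bound hf.aestronglyMeasurable B (ae_of_all _ hB)

section three

variable {μ0 μ1 μ2 : Measure ℝ} [IsFiniteMeasure μ0] [IsFiniteMeasure μ1] [IsFiniteMeasure μ2]
  {u : ℝ × ℝ → ℝ} (hu : Measurable u) {B : ℝ} (hB : ∀ p, |u p| ≤ B)

include hu hB

theorem int_a : ∫ x, u (x.1, x.2.1) ∂(μ0.prod (μ1.prod μ2)) =
    μ2.real Set.univ * ∫ p, u p ∂(μ0.prod μ1) := by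
  have hm : Measurable fun x : ℝ × ℝ × ℝ => u (x.1, x.2.1) := by fun_prop
  rw [integral_prod _ (integrable_bdd hm fun x => hB _), integral_prod _ (integrable_bdd hu hB),
    ← integral_const_mul]
  congr 1
  ext x
  rw [integral_fun_fst (fun y => u (x, y)), smul_eq_mul]

omit hu hB in
theorem int_b : ∫ x, u (x.2.1, x.2.2) ∂(μ0.prod (μ1.prod μ2)) =
    μ0.real Set.univ * ∫ p, u p ∂(μ1.prod μ2) := by
  rw [integral_fun_snd (μ := μ0) (ν := μ1.prod μ2) (fun q => u (q.1, q.2)), smul_eq_mul]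

theorem int_c : ∫ x, u (x.2.2, x.1) ∂(μ0.prod (μ1.prod μ2)) =
    μ1.real Set.univ * ∫ p, u p ∂(μ2.prod μ0) := by
  have hm : Measurable fun x : ℝ × ℝ × ℝ => u (x.2.2, x.1) := by fun_prop
  rw [integral_prod _ (integrable_bdd hm fun x => hB _),
    integral_prod_symm _ (integrable_bdd hu hB), ← integral_const_mul]
  congr 1
  ext x
  rw [integral_fun_snd (fun z => u (z, x)), smul_eq_mul]

end three

theorem prod_mono_int {u : ℝ × ℝ → ℝ} (hu : Measurable u) {B : ℝ} (hB : ∀ p, |u p| ≤ B)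
    (h0 : ∀ p, 0 ≤ u p) (k : ℤ) (j n0 n1 : ℕ) (hn0 : n0 < 2 ^ j) (hn1 : n1 < 2 ^ j) :
    ∫ p, u p ∂((volume.restrict (DI (k - j) n0)).prod (volume.restrict (DI (k - j) n1))) ≤
      ∫ p in DI k 0 ×ˢ DI k 0, u p := by
  rw [Measure.prod_restrict, ← Measure.volume_eq_prod]
  refine setIntegral_mono_set ?_ (ae_of_all _ h0) ?_
  · have : IntegrableOn u (DI k 0 ×ˢ DI k 0) (volume.prod volume) := by
      rw [IntegrableOn, ← Measure.prod_restrict]
      exact integrable_bdd hu hB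
    rwa [← Measure.volume_eq_prod] at this
  · exact (Set.prod_mono (DI_subset k j n0 hn0) (DI_subset k j n1 hn1)).eventuallyLE

/-- `|F0F1F2 - G0G1G2| ≤ B^2 (|F0-G0| + |F1-G1| + |F2-G2|)` and Fubini on the box -/
theorem LI_sub_le {F0 F1 F2 G0 G1 G2 : ℝ × ℝ → ℝ} (hF0 : Measurable F0) (hF1 : Measurable F1)
    (hF2 : Measurable F2) (hG0 : Measurable G0) (hG1 : Measurable G1) (hG2 : Measurable G2)
    {B : ℝ} (bF0 : ∀ p, |F0 p| ≤ B) (bF1 : ∀ p, |F1 p| ≤ B) (bF2 : ∀ p, |F2 p| ≤ B)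
    (bG0 : ∀ p, |G0 p| ≤ B) (bG1 : ∀ p, |G1 p| ≤ B) (bG2 : ∀ p, |G2 p| ≤ B)
    (k : ℤ) (j n0 n1 n2 : ℕ) (hn0 : n0 < 2 ^ j) (hn1 : n1 < 2 ^ j) (hn2 : n2 < 2 ^ j) :
    |LI F0 F1 F2 (k - j) n0 n1 n2 - LI G0 G1 G2 (k - j) n0 n1 n2| ≤
      B ^ 2 * ((∫ p in DI k 0 ×ˢ DI k 0, |F0 p - G0 p|) +
        (∫ p in DI k 0 ×ˢ DI k 0, |F1 p - G1 p|) + ∫ p in DI k 0 ×ˢ DI k 0, |F2 p - G2 p|) := by
  have hB : 0 ≤ B := (abs_nonneg _).trans (bF0 (0, 0))
  set μ0 := volume.restrict (DI (k - j) n0) with hμ0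
  set μ1 := volume.restrict (DI (k - j) n1) with hμ1
  set μ2 := volume.restrict (DI (k - j) n2) with hμ2
  have hrestr : (volume : Measure (ℝ × ℝ × ℝ)).restrict
      (DI (k - j) n0 ×ˢ DI (k - j) n1 ×ˢ DI (k - j) n2) = μ0.prod (μ1.prod μ2) := by
    rw [Measure.volume_eq_prod, Measure.volume_eq_prod, ← Measure.prod_restrict,
      ← Measure.prod_restrict]
  set hh : ℝ × ℝ × ℝ → ℝ := fun x => haar (k - j) n0 x.1 * haar (k - j) n1 x.2.1 *
    haar (k - j) n2 x.2.2 with hhh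
  have hhm : Measurable hh := by
    have m0 := measurable_haar (k - j) n0
    have m1 := measurable_haar (k - j) n1
    have m2 := measurable_haar (k - j) n2
    exact ((m0.comp measurable_fst).mul (m1.comp (measurable_fst.comp measurable_snd))).mul
      (m2.comp (measurable_snd.comp measurable_snd))
  have hh1 : ∀ x, |hh x| ≤ 1 := by
    intro x
    rw [hhh]
    simp only [abs_mul]
    have a0 := abs_haar_le (k - j) n0 x.1
    have a1 := abs_haar_le (k - j) n1 x.2.1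
    have a2 := abs_haar_le (k - j) n2 x.2.2
    have b0 := abs_nonneg (haar (k - j) n0 x.1)
    have b1 := abs_nonneg (haar (k - j) n1 x.2.1)
    have b2 := abs_nonneg (haar (k - j) n2 x.2.2)
    exact mul_le_one₀ (mul_le_one₀ a0 b1 a1) b2 a2
  have mf : ∀ {A0 A1 A2 : ℝ × ℝ → ℝ}, Measurable A0 → Measurable A1 → Measurable A2 →
      Measurable fun x : ℝ × ℝ × ℝ => A0 (x.1, x.2.1) * A1 (x.2.1, x.2.2) * A2 (x.2.2, x.1) *
        hh x := by
    intro A0 A1 A2 m0 m1 m2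
    have e0 : Measurable fun x : ℝ × ℝ × ℝ => A0 (x.1, x.2.1) := m0.comp (by fun_prop)
    have e1 : Measurable fun x : ℝ × ℝ × ℝ => A1 (x.2.1, x.2.2) := m1.comp (by fun_prop)
    have e2 : Measurable fun x : ℝ × ℝ × ℝ => A2 (x.2.2, x.1) := m2.comp (by fun_prop)
    exact ((e0.mul e1).mul e2).mul hhm
  have bf : ∀ {A0 A1 A2 : ℝ × ℝ → ℝ}, (∀ p, |A0 p| ≤ B) → (∀ p, |A1 p| ≤ B) →
      (∀ p, |A2 p| ≤ B) → ∀ x : ℝ × ℝ × ℝ,
      |A0 (x.1, x.2.1) * A1 (x.2.1, x.2.2) * A2 (x.2.2, x.1) * hh x| ≤ B ^ 3 := by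
    intro A0 A1 A2 c0 c1 c2 x
    simp only [abs_mul]
    have := c0 (x.1, x.2.1)
    have := c1 (x.2.1, x.2.2)
    have := c2 (x.2.2, x.1)
    have := hh1 x
    calc |A0 (x.1, x.2.1)| * |A1 (x.2.1, x.2.2)| * |A2 (x.2.2, x.1)| * |hh x|
        ≤ B * B * B * 1 := by gcongr
      _ = B ^ 3 := by ring
  have iF : Integrable (fun x : ℝ × ℝ × ℝ => F0 (x.1, x.2.1) * F1 (x.2.1, x.2.2) *
      F2 (x.2.2, x.1) * hh x) (μ0.prod (μ1.prod μ2)) :=
    integrable_bdd (mf hF0 hF1 hF2) (bf bF0 bF1 bF2)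
  have iG : Integrable (fun x : ℝ × ℝ × ℝ => G0 (x.1, x.2.1) * G1 (x.2.1, x.2.2) *
      G2 (x.2.2, x.1) * hh x) (μ0.prod (μ1.prod μ2)) :=
    integrable_bdd (mf hG0 hG1 hG2) (bf bG0 bG1 bG2)
  have hsub : LI F0 F1 F2 (k - j) n0 n1 n2 - LI G0 G1 G2 (k - j) n0 n1 n2 =
      (2 : ℝ) ^ (-(k - j)) * ∫ x, (F0 (x.1, x.2.1) * F1 (x.2.1, x.2.2) * F2 (x.2.2, x.1) * hh x -
        G0 (x.1, x.2.1) * G1 (x.2.1, x.2.2) * G2 (x.2.2, x.1) * hh x)
        ∂(μ0.prod (μ1.prod μ2)) := by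
    rw [integral_sub iF iG, mul_sub]
    unfold LI
    rw [hrestr]
  -- the three difference functions
  have md : ∀ {A C : ℝ × ℝ → ℝ}, Measurable A → Measurable C →
      Measurable fun p => |A p - C p| := fun hA hC => (hA.sub hC).norm
  have bd : ∀ {A C : ℝ × ℝ → ℝ}, (∀ p, |A p| ≤ B) → (∀ p, |C p| ≤ B) →
      ∀ p, |(|A p - C p|)| ≤ 2 * B := by
    intro A C hA hC p
    rw [abs_abs]
    have h1 := abs_sub (A p) (C p)
    have h2 := hA p
    have h3 := hC p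
    linarith
  have i0 : Integrable (fun x : ℝ × ℝ × ℝ => |F0 (x.1, x.2.1) - G0 (x.1, x.2.1)|)
      (μ0.prod (μ1.prod μ2)) :=
    integrable_bdd ((md hF0 hG0).comp (by fun_prop : Measurable fun x : ℝ × ℝ × ℝ =>
      (x.1, x.2.1))) fun x => bd bF0 bG0 _
  have i1 : Integrable (fun x : ℝ × ℝ × ℝ => |F1 (x.2.1, x.2.2) - G1 (x.2.1, x.2.2)|)
      (μ0.prod (μ1.prod μ2)) :=
    integrable_bdd ((md hF1 hG1).comp (by fun_prop : Measurable fun x : ℝ × ℝ × ℝ =>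
      (x.2.1, x.2.2))) fun x => bd bF1 bG1 _
  have i2 : Integrable (fun x : ℝ × ℝ × ℝ => |F2 (x.2.2, x.1) - G2 (x.2.2, x.1)|)
      (μ0.prod (μ1.prod μ2)) :=
    integrable_bdd ((md hF2 hG2).comp (by fun_prop : Measurable fun x : ℝ × ℝ × ℝ =>
      (x.2.2, x.1))) fun x => bd bF2 bG2 _
  have hpt : ∀ x : ℝ × ℝ × ℝ,
      |F0 (x.1, x.2.1) * F1 (x.2.1, x.2.2) * F2 (x.2.2, x.1) * hh x -
        G0 (x.1, x.2.1) * G1 (x.2.1, x.2.2) * G2 (x.2.2, x.1) * hh x| ≤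
      B ^ 2 * (|F0 (x.1, x.2.1) - G0 (x.1, x.2.1)| + |F1 (x.2.1, x.2.2) - G1 (x.2.1, x.2.2)| +
        |F2 (x.2.2, x.1) - G2 (x.2.2, x.1)|) := by
    intro x
    have c0 := bF0 (x.1, x.2.1)
    have c1 := bF1 (x.2.1, x.2.2)
    have c2 := bF2 (x.2.2, x.1)
    have d0 := bG0 (x.1, x.2.1)
    have d1 := bG1 (x.2.1, x.2.2)
    have d2 := bG2 (x.2.2, x.1)
    have hx := hh1 x
    generalize F0 (x.1, x.2.1) = f0 at *
    generalize F1 (x.2.1, x.2.2) = f1 at *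
    generalize F2 (x.2.2, x.1) = f2 at *
    generalize G0 (x.1, x.2.1) = g0 at *
    generalize G1 (x.2.1, x.2.2) = g1 at *
    generalize G2 (x.2.2, x.1) = g2 at *
    generalize hh x = y at *
    have e : f0 * f1 * f2 * y - g0 * g1 * g2 * y =
        ((f0 - g0) * f1 * f2 + g0 * (f1 - g1) * f2 + g0 * g1 * (f2 - g2)) * y := by ring
    rw [e, abs_mul]
    have t : |(f0 - g0) * f1 * f2 + g0 * (f1 - g1) * f2 + g0 * g1 * (f2 - g2)| ≤
        B ^ 2 * (|f0 - g0| + |f1 - g1| + |f2 - g2|) := by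
      refine (abs_add_three _ _ _).trans ?_
      simp only [abs_mul]
      have z0 := abs_nonneg (f0 - g0)
      have z1 := abs_nonneg (f1 - g1)
      have z2 := abs_nonneg (f2 - g2)
      have s0 : |f0 - g0| * |f1| * |f2| ≤ |f0 - g0| * B * B := by gcongr
      have s1 : |g0| * |f1 - g1| * |f2| ≤ B * |f1 - g1| * B := by gcongr
      have s2 : |g0| * |g1| * |f2 - g2| ≤ B * B * |f2 - g2| := by gcongr
      nlinarith
    calc |(f0 - g0) * f1 * f2 + g0 * (f1 - g1) * f2 + g0 * g1 * (f2 - g2)| * |y|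
        ≤ (B ^ 2 * (|f0 - g0| + |f1 - g1| + |f2 - g2|)) * 1 := by
          refine mul_le_mul t hx (abs_nonneg _) (by positivity)
      _ = _ := mul_one _
  have hint := norm_integral_le_of_norm_le (μ := μ0.prod (μ1.prod μ2))
    (((i0.add i1).add i2).const_mul (B ^ 2)) (ae_of_all _ fun x => by
      rw [Real.norm_eq_abs]
      exact hpt x)
  have hval : ∫ x, B ^ 2 * (((fun x : ℝ × ℝ × ℝ => |F0 (x.1, x.2.1) - G0 (x.1, x.2.1)|) +
      (fun x : ℝ × ℝ × ℝ => |F1 (x.2.1, x.2.2) - G1 (x.2.1, x.2.2)|) +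
      (fun x : ℝ × ℝ × ℝ => |F2 (x.2.2, x.1) - G2 (x.2.2, x.1)|)) x)
      ∂(μ0.prod (μ1.prod μ2)) =
      B ^ 2 * ((2 : ℝ) ^ (k - j) * (∫ p, |F0 p - G0 p| ∂(μ0.prod μ1)) +
        (2 : ℝ) ^ (k - j) * (∫ p, |F1 p - G1 p| ∂(μ1.prod μ2)) +
        (2 : ℝ) ^ (k - j) * ∫ p, |F2 p - G2 p| ∂(μ2.prod μ0)) := by
    rw [integral_const_mul]
    congr 1
    have e1 := integral_add (i0.add i1) i2
    have e2 := integral_add i0 i1
    simp only [Pi.add_apply] at e1 e2 ⊢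
    rw [e1, e2, int_a (md hF0 hG0) (bd bF0 bG0), int_b (u := fun p => |F1 p - G1 p|),
      int_c (md hF2 hG2) (bd bF2 bG2), hμ0, hμ1, hμ2, real_DI, real_DI, real_DI]
  rw [hsub, abs_mul, abs_of_pos (by positivity : (0 : ℝ) < (2 : ℝ) ^ (-(k - (j : ℤ))))]
  have hp0 := prod_mono_int (md hF0 hG0) (bd bF0 bG0) (fun p => abs_nonneg _) k j n0 n1 hn0 hn1
  have hp1 := prod_mono_int (md hF1 hG1) (bd bF1 bG1) (fun p => abs_nonneg _) k j n1 n2 hn1 hn2
  have hp2 := prod_mono_int (md hF2 hG2) (bd bF2 bG2) (fun p => abs_nonneg _) k j n2 n0 hn2 hn0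
  rw [Real.norm_eq_abs] at hint
  have h2 : (2 : ℝ) ^ (-(k - (j : ℤ))) * (2 : ℝ) ^ (k - (j : ℤ)) = 1 := by
    rw [← zpow_add₀ (by norm_num)]
    simp
  calc (2 : ℝ) ^ (-(k - (j : ℤ))) * |∫ x, (F0 (x.1, x.2.1) * F1 (x.2.1, x.2.2) *
          F2 (x.2.2, x.1) * hh x - G0 (x.1, x.2.1) * G1 (x.2.1, x.2.2) * G2 (x.2.2, x.1) * hh x)
          ∂(μ0.prod (μ1.prod μ2))|
      ≤ (2 : ℝ) ^ (-(k - (j : ℤ))) *
        (B ^ 2 * ((2 : ℝ) ^ (k - j) * (∫ p, |F0 p - G0 p| ∂(μ0.prod μ1)) +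
        (2 : ℝ) ^ (k - j) * (∫ p, |F1 p - G1 p| ∂(μ1.prod μ2)) +
        (2 : ℝ) ^ (k - j) * ∫ p, |F2 p - G2 p| ∂(μ2.prod μ0))) := by
        rw [← hval]
        exact mul_le_mul_of_nonneg_left hint (by positivity)
    _ = ((2 : ℝ) ^ (-(k - (j : ℤ))) * (2 : ℝ) ^ (k - (j : ℤ))) *
        (B ^ 2 * ((∫ p, |F0 p - G0 p| ∂(μ0.prod μ1)) + (∫ p, |F1 p - G1 p| ∂(μ1.prod μ2)) +
        ∫ p, |F2 p - G2 p| ∂(μ2.prod μ0))) := by ring
    _ ≤ _ := by
        rw [h2, one_mul]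
        refine mul_le_mul_of_nonneg_left ?_ (by positivity)
        linarith

theorem cube_sub_le {F G : ℝ × ℝ → ℝ} (hF : Measurable F) (hG : Measurable G)
    {B : ℝ} (bF : ∀ p, |F p| ≤ B) (bG : ∀ p, |G p| ≤ B) (k : ℤ) :
    ∫ p in DI k 0 ×ˢ DI k 0, |G p| ^ 3 ≤ (∫ p in DI k 0 ×ˢ DI k 0, |F p| ^ 3) +
      3 * B ^ 2 * ∫ p in DI k 0 ×ˢ DI k 0, |F p - G p| := by
  have hB : 0 ≤ B := (abs_nonneg _).trans (bF (0, 0))
  have hrestr : (volume : Measure (ℝ × ℝ)).restrict (DI k 0 ×ˢ DI k 0) =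
      (volume.restrict (DI k 0)).prod (volume.restrict (DI k 0)) := by
    rw [Measure.volume_eq_prod, ← Measure.prod_restrict]
  rw [hrestr]
  have c3 : ∀ {A : ℝ × ℝ → ℝ}, (∀ p, |A p| ≤ B) → ∀ p, |(|A p| ^ 3)| ≤ B ^ 3 := by
    intro A hA p
    rw [abs_of_nonneg (by positivity)]
    exact pow_le_pow_left₀ (abs_nonneg _) (hA p) 3
  have iF : Integrable (fun p => |F p| ^ 3)
      ((volume.restrict (DI k 0)).prod (volume.restrict (DI k 0))) :=
    integrable_bdd (hF.norm.pow_const 3) (c3 bF)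
  have iG : Integrable (fun p => |G p| ^ 3)
      ((volume.restrict (DI k 0)).prod (volume.restrict (DI k 0))) :=
    integrable_bdd (hG.norm.pow_const 3) (c3 bG)
  have iD : Integrable (fun p => |F p - G p|)
      ((volume.restrict (DI k 0)).prod (volume.restrict (DI k 0))) := by
    refine integrable_bdd (hF.sub hG).norm (B := 2 * B) fun p => ?_
    rw [abs_abs]
    have h1 := abs_sub (F p) (G p)
    have h2 := bF p
    have h3 := bG p
    linarith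
  rw [← integral_const_mul, ← integral_add iF (iD.const_mul _)]
  refine integral_mono iG (iF.add (iD.const_mul _)) fun p => ?_
  have h1 : |G p| - |F p| ≤ |F p - G p| := by
    have := abs_sub_abs_le_abs_sub (G p) (F p)
    rwa [abs_sub_comm] at this
  have h2 := bF p
  have h3 := bG p
  have h4 := abs_nonneg (F p)
  have h5 := abs_nonneg (G p)
  have h6 := abs_nonneg (F p - G p)
  generalize |F p - G p| = d at *
  generalize |F p| = f at *
  generalize |G p| = g at *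
  have e : g ^ 3 - f ^ 3 = (g - f) * (g ^ 2 + g * f + f ^ 2) := by ring
  have hq : g ^ 2 + g * f + f ^ 2 ≤ 3 * B ^ 2 := by nlinarith
  have hq0 : 0 ≤ g ^ 2 + g * f + f ^ 2 := by positivity
  have h7 : (g - f) * (g ^ 2 + g * f + f ^ 2) ≤ d * (3 * B ^ 2) :=
    (mul_le_mul_of_nonneg_right h1 hq0).trans (mul_le_mul_of_nonneg_left hq h6)
  linarith

end Tri
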