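import Vale.Agent.Tri.StepThm
import Vale.Agent.Tri.ApproxA
import Vale.Agent.Tri.ApproxB

/-!
# P075 / Tri / Approx: from step functions to bounded measurable functions
-/

namespace Tri

open MeasureTheory Matrix

/-- the bound for bounded measurable functions -/
theorem bdd_bound (d : ℕ) (k : ℤ) {F0 F1 F2 : ℝ × ℝ → ℝ} (h0 : Measurable F0) (h1 : Measurable F1)
    (h2 : Measurable F2) {B : ℝ} (b0 : ∀ p, |F0 p| ≤ B) (b1 : ∀ p, |F1 p| ≤ B)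
    (b2 : ∀ p, |F2 p| ≤ B) :
    ∑ j ∈ Finset.range d, ∑ n0 ∈ Finset.range (2 ^ j), ∑ n1 ∈ Finset.range (2 ^ j),
      |LI F0 F1 F2 (k - j) n0 n1 (n0 ^^^ n1)| ≤
      288 * ((∫ p in DI k 0 ×ˢ DI k 0, |F0 p| ^ 3) + (∫ p in DI k 0 ×ˢ DI k 0, |F1 p| ^ 3) +
        ∫ p in DI k 0 ×ˢ DI k 0, |F2 p| ^ 3) := by
  set M : ℝ := (∑ j ∈ Finset.range d, ∑ n0 ∈ Finset.range (2 ^ j), ∑ n1 ∈ Finset.range (2 ^ j),
    3 * B ^ 2) + 288 * (9 * B ^ 2) + 1 with hM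
  have hM0 : 0 < M := by rw [hM]; positivity
  refine le_of_forall_pos_le_add fun δ hδ => ?_
  set ε : ℝ := δ / M with hε
  have hε0 : 0 < ε := div_pos hδ hM0
  obtain ⟨D0, H0⟩ := exists_step_approx h0 b0 k hε0
  obtain ⟨D1, H1⟩ := exists_step_approx h1 b1 k hε0
  obtain ⟨D2, H2⟩ := exists_step_approx h2 b2 k hε0
  set D : ℕ := max (max D0 D1) (max D2 d) with hD
  obtain ⟨G0, g0, bG0, s0, a0⟩ := H0 D (le_trans (le_max_left _ _) (le_max_left _ _))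
  obtain ⟨G1, g1, bG1, s1, a1⟩ := H1 D (le_trans (le_max_right _ _) (le_max_left _ _))
  obtain ⟨G2, g2, bG2, s2, a2⟩ := H2 D (le_trans (le_max_left _ _) (le_max_right _ _))
  have hdD : d ≤ D := le_trans (le_max_right _ _) (le_max_right _ _)
  have hstep := step_bound D k s0 s1 s2
  have hB2 : 0 ≤ B ^ 2 := sq_nonneg B
  -- comparison of the sums
  have hsum : ∑ j ∈ Finset.range d, ∑ n0 ∈ Finset.range (2 ^ j), ∑ n1 ∈ Finset.range (2 ^ j),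
      |LI F0 F1 F2 (k - j) n0 n1 (n0 ^^^ n1)| ≤
      (∑ j ∈ Finset.range d, ∑ n0 ∈ Finset.range (2 ^ j), ∑ n1 ∈ Finset.range (2 ^ j),
        |LI G0 G1 G2 (k - j) n0 n1 (n0 ^^^ n1)|) +
      (∑ j ∈ Finset.range d, ∑ n0 ∈ Finset.range (2 ^ j), ∑ n1 ∈ Finset.range (2 ^ j),
        3 * B ^ 2) * ε := by
    rw [Finset.sum_mul, ← Finset.sum_add_distrib]
    refine Finset.sum_le_sum fun j hj => ?_
    rw [Finset.sum_mul, ← Finset.sum_add_distrib]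
    refine Finset.sum_le_sum fun n0 hn0 => ?_
    rw [Finset.sum_mul, ← Finset.sum_add_distrib]
    refine Finset.sum_le_sum fun n1 hn1 => ?_
    have hn0' := Finset.mem_range.mp hn0
    have hn1' := Finset.mem_range.mp hn1
    have h3 := LI_sub_le h0 h1 h2 g0 g1 g2 b0 b1 b2 bG0 bG1 bG2 k j n0 n1 (n0 ^^^ n1) hn0' hn1'
      (Nat.xor_lt_two_pow hn0' hn1')
    have h4 : |LI F0 F1 F2 (k - j) n0 n1 (n0 ^^^ n1)| - |LI G0 G1 G2 (k - j) n0 n1 (n0 ^^^ n1)| ≤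
        |LI F0 F1 F2 (k - j) n0 n1 (n0 ^^^ n1) - LI G0 G1 G2 (k - j) n0 n1 (n0 ^^^ n1)| :=
      abs_sub_abs_le_abs_sub _ _
    have h5 : B ^ 2 * ((∫ p in DI k 0 ×ˢ DI k 0, |F0 p - G0 p|) +
        (∫ p in DI k 0 ×ˢ DI k 0, |F1 p - G1 p|) + ∫ p in DI k 0 ×ˢ DI k 0, |F2 p - G2 p|) ≤
        B ^ 2 * (ε + ε + ε) := by gcongr
    linarith
  have hmono : (∑ j ∈ Finset.range d, ∑ n0 ∈ Finset.range (2 ^ j), ∑ n1 ∈ Finset.range (2 ^ j),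
        |LI G0 G1 G2 (k - j) n0 n1 (n0 ^^^ n1)|) ≤
      ∑ j ∈ Finset.range D, ∑ n0 ∈ Finset.range (2 ^ j), ∑ n1 ∈ Finset.range (2 ^ j),
        |LI G0 G1 G2 (k - j) n0 n1 (n0 ^^^ n1)| := by
    apply Finset.sum_le_sum_of_subset_of_nonneg
    · exact Finset.range_subset_range.mpr hdD
    · intro j _ _
      positivity
  have c0 := cube_sub_le h0 g0 b0 bG0 k
  have c1 := cube_sub_le h1 g1 b1 bG1 k
  have c2 := cube_sub_le h2 g2 b2 bG2 k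
  have e0 : 3 * B ^ 2 * ∫ p in DI k 0 ×ˢ DI k 0, |F0 p - G0 p| ≤ 3 * B ^ 2 * ε := by gcongr
  have e1 : 3 * B ^ 2 * ∫ p in DI k 0 ×ˢ DI k 0, |F1 p - G1 p| ≤ 3 * B ^ 2 * ε := by gcongr
  have e2 : 3 * B ^ 2 * ∫ p in DI k 0 ×ˢ DI k 0, |F2 p - G2 p| ≤ 3 * B ^ 2 * ε := by gcongr
  have hfin : ((∑ j ∈ Finset.range d, ∑ n0 ∈ Finset.range (2 ^ j), ∑ n1 ∈ Finset.range (2 ^ j),
        3 * B ^ 2) + 288 * (9 * B ^ 2)) * ε ≤ δ := by
    calc _ ≤ M * ε := by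
          apply mul_le_mul_of_nonneg_right _ hε0.le
          rw [hM]; linarith
      _ = δ := by rw [hε]; field_simp
  nlinarith

end Tri
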