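import Vale.Agent.Tri.BlkA

/-!
# P075 / Tri / BlkB: the one-step inequality, combinatorial part (helper22)
-/

namespace Tri

open Matrix

variable {W : Type*} [Fintype W] [DecidableEq W]

/-- the diagonal block is the sum over the two children -/
theorem blk_Mm (F G : Matrix (Bool × W) (Bool × W) ℝ) (a : Bool) :
    blk a a (Mm F G) = ∑ b : Bool, Mm (blk a b F) (blk (xor a b) a G) := by
  ext i j
  have e1 : (F * Fᵀ) (a, i) (a, j) = ∑ b : Bool, ((blk a b F) * (blk a b F)ᵀ) i j := by
    rw [Matrix.mul_apply, Fintype.sum_prod_type]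
    rfl
  have e2 : (Gᵀ * G) (a, i) (a, j) =
      ∑ b : Bool, ((blk (xor a b) a G)ᵀ * (blk (xor a b) a G)) i j := by
    rw [Matrix.mul_apply, Fintype.sum_prod_type]
    cases a <;> simp [Fintype.sum_bool, Matrix.mul_apply, blk, add_comm]
  have e3 : blk a a (Mm F G) i j = (F * Fᵀ) (a, i) (a, j) + (Gᵀ * G) (a, i) (a, j) := rfl
  rw [e3, e1, e2, Matrix.sum_apply, ← Finset.sum_add_distrib]
  rfl

theorem blk_smul (a b : Bool) (c : ℝ) (F : Matrix (Bool × W) (Bool × W) ℝ) :
    blk a b (c • F) = c • blk a b F := rfl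

/-- one-step inequality at one vertex, from the pinching inequality -/
theorem LL_step_of (F G : Matrix (Bool × W) (Bool × W) ℝ) {t : ℝ} (ht : 0 < t)
    (hp : LL ((2 : ℝ) • blk false false (t • Mm F G)) +
      LL ((2 : ℝ) • blk true true (t • Mm F G)) +
      (gg (t • Mm F G) * ZZ W * gg (t • Mm F G) * ZZ W).trace ≤ 2 * LL (t • Mm F G)) :
    (1 / 4 : ℝ) * ∑ a : Bool, ∑ b : Bool, LL ((4 * t) • Mm (blk a b F) (blk (xor a b) a G)) +
      (1 / 2 : ℝ) * (gg (t • Mm F G) * ZZ W * gg (t • Mm F G) * ZZ W).trace ≤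
      LL (t • Mm F G) := by
  have key : ∀ a : Bool, (1 / 2 : ℝ) * ∑ b : Bool,
      LL ((4 * t) • Mm (blk a b F) (blk (xor a b) a G)) ≤
      LL ((2 : ℝ) • blk a a (t • Mm F G)) := by
    intro a
    have h1 := LL_add_ge (A := (2 * t) • Mm (blk a true F) (blk (xor a true) a G))
      (B := (2 * t) • Mm (blk a false F) (blk (xor a false) a G))
      ((Mm_psd _ _).smul (by positivity)) ((Mm_psd _ _).smul (by positivity))
    have e : (2 : ℝ) • blk a a (t • Mm F G) =
        (2 * t) • Mm (blk a true F) (blk (xor a true) a G) +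
        (2 * t) • Mm (blk a false F) (blk (xor a false) a G) := by
      rw [blk_smul, blk_Mm, Fintype.sum_bool, smul_smul, smul_add]
    rw [e]
    rw [smul_smul, smul_smul, show (2 : ℝ) * (2 * t) = 4 * t by ring] at h1
    rw [Fintype.sum_bool]
    exact h1
  have kt := key true
  have kf := key false
  rw [Fintype.sum_bool]
  linarith

/-- the gain dominates the vertex energy -/
theorem ph_le (F G : Matrix (Bool × W) (Bool × W) ℝ) {t : ℝ} (ht : 0 < t) :
    ph (ZZ W) F G t ≤ (gg (t • Mm F G) * ZZ W * gg (t • Mm F G) * ZZ W).trace := by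
  have h1 : (F * Fᵀ).PosSemidef := by
    have := Matrix.posSemidef_self_mul_conjTranspose F
    rwa [Matrix.conjTranspose_eq_transpose_of_trivial] at this
  have h2 : (Gᵀ * G).PosSemidef := by
    have := Matrix.posSemidef_conjTranspose_mul_self G
    rwa [Matrix.conjTranspose_eq_transpose_of_trivial] at this
  have h1' := h1.smul ht.le
  have h2' := h2.smul ht.le
  have hZ : (ZZ W)ᵀ = ZZ W := by rw [ZZ, Matrix.diagonal_transpose]
  have hd1 : (t • Mm F G - t • (F * Fᵀ)).PosSemidef := by
    have : t • Mm F G - t • (F * Fᵀ) = t • (Gᵀ * G) := by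
      rw [Mm, smul_add, add_sub_cancel_left]
    rw [this]
    exact h2'
  have hd2 : (t • Mm F G - t • (Gᵀ * G)).PosSemidef := by
    have : t • Mm F G - t • (Gᵀ * G) = t • (F * Fᵀ) := by
      rw [Mm, smul_add, add_sub_cancel_right]
    rw [this]
    exact h1'
  exact trace_mono hZ (gg_posSemidef h2') (gg_mono h2' hd2) (gg_posSemidef h1') (gg_mono h1' hd1)

end Tri
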