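import Vale.Agent.Tri.BlkA
import Vale.Agent.Tri.BlkB

/-!
# P075 / Tri / Blk: the one-step inequality for `log det (1 + t M)`
-/

namespace Tri

open Matrix

variable {W : Type*} [Fintype W] [DecidableEq W]

/-- one-step inequality at one vertex: `LL_pinch`, `blk_Mm`, `LL_add_ge` -/
theorem LL_step (F G : Matrix (Bool × W) (Bool × W) ℝ) {t : ℝ} (ht : 0 < t) :
    (1 / 4 : ℝ) * ∑ a : Bool, ∑ b : Bool, LL ((4 * t) • Mm (blk a b F) (blk (xor a b) a G)) +
      (1 / 2 : ℝ) * (gg (t • Mm F G) * ZZ W * gg (t • Mm F G) * ZZ W).trace ≤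
      LL (t • Mm F G) := LL_step_of F G ht (LL_pinch F G ht)

/-- sum over the three vertices of `log det (1 + t M_v)` -/
noncomputable def UU {n : Type*} [Fintype n] [DecidableEq n] (t : ℝ) (F0 F1 F2 : Matrix n n ℝ) : ℝ :=
  LL (t • Mm F0 F2) + LL (t • Mm F1 F0) + LL (t • Mm F2 F1)

/-- one-step inequality for the three vertices (reindex the sums over the children: the children of
`(F0,F1,F2)` are `(F0^{ab}, F1^{bc}, F2^{ca})` with `c = xor a b`; for the vertex 1 the pair
`(b, c)` runs over all pairs and `a = xor b c`, etc.) -/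
theorem UU_step (F0 F1 F2 : Matrix (Bool × W) (Bool × W) ℝ) {t : ℝ} (ht : 0 < t) :
    (1 / 4 : ℝ) * ∑ a : Bool, ∑ b : Bool,
        UU (4 * t) (blk a b F0) (blk b (xor a b) F1) (blk (xor a b) a F2) +
      (1 / 2 : ℝ) * (ph (ZZ W) F0 F2 t + ph (ZZ W) F1 F0 t + ph (ZZ W) F2 F1 t) ≤
      UU t F0 F1 F2 := by
  have s0 := LL_step F0 F2 ht
  have s1 := LL_step F1 F0 ht
  have s2 := LL_step F2 F1 ht
  have p0 := ph_le F0 F2 ht
  have p1 := ph_le F1 F0 ht
  have p2 := ph_le F2 F1 ht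
  simp only [Fintype.sum_bool, Bool.xor_false, Bool.xor_true, Bool.not_true, Bool.not_false] at s0 s1 s2
  simp only [UU, Fintype.sum_bool, Bool.xor_false, Bool.xor_true, Bool.not_true, Bool.not_false]
  linarith

end Tri
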