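import Vale.Agent.Tri.LA

/-!
# P075 / Tri / BlkA: pinching with gain
-/

namespace Tri

set_option linter.unusedSectionVars false

open Matrix

variable {W : Type*} [Fintype W] [DecidableEq W]

theorem ZZ_transpose : (ZZ W)ᵀ = ZZ W := by
  unfold ZZ
  exact diagonal_transpose _

theorem ZZ_mul_self : ZZ W * ZZ W = 1 := by
  unfold ZZ
  rw [diagonal_mul_diagonal, ← diagonal_one]
  congr 1
  funext x
  rcases x with ⟨a, i⟩
  cases a <;> simp [sg]

/-- `M + Z M Z = 2 (M_00 ⊕ M_11)`, hence `LL (M + Z M Z) = LL (2 M_00) + LL (2 M_11)` -/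
theorem LL_add_conj (M : Matrix (Bool × W) (Bool × W) ℝ) (hM : M.PosSemidef) :
    LL (M + ZZ W * M * ZZ W) =
      LL ((2 : ℝ) • blk false false M) + LL ((2 : ℝ) • blk true true M) := by
  have hb : ∀ a : Bool, (blk a a M).PosSemidef := fun a =>
    hM.submatrix (fun i : W => (a, i))
  have hp : ∀ a : Bool, 0 < (1 + (2 : ℝ) • blk a a M).det := fun a =>
    (posDef_one_add ((hb a).smul (by norm_num : (0 : ℝ) ≤ 2))).det_pos
  have e : 1 + (M + ZZ W * M * ZZ W) =
      (blockDiagonal fun b : Bool => (1 : Matrix W W ℝ) + (2 : ℝ) • blk b b M).submatrix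
        (Equiv.prodComm Bool W) (Equiv.prodComm Bool W) := by
    ext ⟨a, i⟩ ⟨b, j⟩
    simp only [ZZ, Matrix.add_apply, submatrix_apply, Equiv.prodComm_apply, Prod.swap_prod_mk,
      blockDiagonal_apply, diagonal_mul, mul_diagonal, Matrix.smul_apply, blk, smul_eq_mul]
    cases a <;> cases b <;> simp [sg, Matrix.one_apply, Prod.ext_iff] <;> ring
  unfold LL
  rw [e, det_submatrix_equiv_self, det_blockDiagonal, Fintype.prod_bool, mul_comm,
    Real.log_mul (hp false).ne' (hp true).ne']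

theorem LL_conj (M : Matrix (Bool × W) (Bool × W) ℝ) : LL (ZZ W * M * ZZ W) = LL M := by
  unfold LL
  have e : 1 + ZZ W * M * ZZ W = ZZ W * (1 + M) * ZZ W := by
    rw [Matrix.mul_add, Matrix.add_mul, Matrix.mul_one, ZZ_mul_self]
  rw [e, det_mul, det_mul, mul_comm (ZZ W).det, mul_assoc, ← det_mul, ZZ_mul_self, det_one,
    mul_one]

theorem gg_conj (M : Matrix (Bool × W) (Bool × W) ℝ) :
    gg (ZZ W * M * ZZ W) = ZZ W * gg M * ZZ W := by
  unfold gg
  have e : 1 + ZZ W * M * ZZ W = ZZ W * (1 + M) * ZZ W := by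
    rw [Matrix.mul_add, Matrix.add_mul, Matrix.mul_one, ZZ_mul_self]
  have hZ : (ZZ W)⁻¹ = ZZ W := inv_eq_right_inv ZZ_mul_self
  rw [e, Matrix.mul_inv_rev, Matrix.mul_inv_rev, hZ]
  calc ZZ W * M * ZZ W * (ZZ W * ((1 + M)⁻¹ * ZZ W))
      = ZZ W * M * (ZZ W * ZZ W) * (1 + M)⁻¹ * ZZ W := by simp only [Matrix.mul_assoc]
    _ = ZZ W * (M * (1 + M)⁻¹) * ZZ W := by
        rw [ZZ_mul_self, Matrix.mul_one]
        simp only [Matrix.mul_assoc]

/-- general pinching with gain for a positive semidefinite matrix -/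
theorem LL_pinch_psd (M : Matrix (Bool × W) (Bool × W) ℝ) (hM : M.PosSemidef) :
    LL ((2 : ℝ) • blk false false M) + LL ((2 : ℝ) • blk true true M) +
      (gg M * ZZ W * gg M * ZZ W).trace ≤ 2 * LL M := by
  obtain ⟨B, hB⟩ := psd_factor hM
  have h := LL_gain hM (ZZ W * Bᵀ)
  have e : ZZ W * Bᵀ * (ZZ W * Bᵀ)ᵀ = ZZ W * M * ZZ W := by
    rw [transpose_mul, transpose_transpose, ZZ_transpose, hB]
    simp only [Matrix.mul_assoc]
  rw [e, LL_conj, gg_conj, LL_add_conj M hM] at h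
  have e2 : gg M * (ZZ W * gg M * ZZ W) = gg M * ZZ W * gg M * ZZ W := by
    simp only [Matrix.mul_assoc]
  rw [e2] at h
  linarith

theorem Mm_psd {n : Type*} [Fintype n] [DecidableEq n] (F G : Matrix n n ℝ) :
    (Mm F G).PosSemidef := (psd_mul_transpose F).add (psd_transpose_mul G)

/-- pinching with gain: `LL_gain` with `A = M = F Fᵀ + Gᵀ G = C Cᵀ`, `C = [F, Gᵀ]`
(`Matrix.fromCols`) and `Z M Z = (Z C) (Z C)ᵀ`; `LL (Z M Z) = LL M`, `gg (Z M Z) = Z gg M Z` -/
theorem LL_pinch (F G : Matrix (Bool × W) (Bool × W) ℝ) {t : ℝ} (ht : 0 < t) :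
    LL ((2 : ℝ) • blk false false (t • Mm F G)) + LL ((2 : ℝ) • blk true true (t • Mm F G)) +
      (gg (t • Mm F G) * ZZ W * gg (t • Mm F G) * ZZ W).trace ≤ 2 * LL (t • Mm F G) :=
  LL_pinch_psd _ ((Mm_psd F G).smul ht.le)

end Tri
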