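import Mathlib

/-!
# P075 / Tri / Defs: the discrete dyadic triangular form (matrix level)

* `V m`: the `2^m` cells of a dyadic interval (coarsest digit first)
* `LL A = log det (1 + A)`, `gg A = A (1 + A)^{-1}`
* `Mm F G = F Fᵀ + Gᵀ G`
* `blk a b F`: the `(a, b)` block of a matrix on `Bool × V`
* `TV m F0 F1 F2`: the sum of `|L_I|` over all block triples of all scales
-/

namespace Tri

open Matrix

section Gen
variable {n r : Type*} [Fintype n] [DecidableEq n] [Fintype r] [DecidableEq r]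

/-- `log det (1 + A)` -/
noncomputable def LL (A : Matrix n n ℝ) : ℝ := Real.log (1 + A).det

/-- `A (1 + A)^{-1}` -/
noncomputable def gg (A : Matrix n n ℝ) : Matrix n n ℝ := A * (1 + A)⁻¹

/-- `F Fᵀ + Gᵀ G` -/
def Mm (F G : Matrix n n ℝ) : Matrix n n ℝ := F * Fᵀ + Gᵀ * G

/-- the trilinear form `tr (H F0 H F1 H F2)` -/
def NN (H F0 F1 F2 : Matrix n n ℝ) : ℝ := (H * F0 * H * F1 * H * F2).trace

/-- the vertex energy at scale `t`: `tr (g(t Gᵀ G) H g(t F Fᵀ) H)` -/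
noncomputable def ph (H F G : Matrix n n ℝ) (t : ℝ) : ℝ :=
  (gg (t • (Gᵀ * G)) * H * gg (t • (F * Fᵀ)) * H).trace

/-- `F (1 + t Fᵀ F)^{-1}` -/
noncomputable def trunc (t : ℝ) (F : Matrix n n ℝ) : Matrix n n ℝ := F * (1 + t • (Fᵀ * F))⁻¹

end Gen

/-- the `(a, b)` block -/
def blk {W : Type*} (a b : Bool) (F : Matrix (Bool × W) (Bool × W) ℝ) : Matrix W W ℝ :=
  fun i j => F (a, i) (b, j)

/-- the sign of the first digit -/
def sg (a : Bool) : ℝ := if a then -1 else 1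

/-- the diagonal sign matrix of the first digit -/
def ZZ (W : Type*) [DecidableEq W] : Matrix (Bool × W) (Bool × W) ℝ :=
  Matrix.diagonal fun x => sg x.1

/-- the cells of a dyadic interval divided `m` times -/
def V : ℕ → Type
  | 0 => Unit
  | m + 1 => Bool × V m

instance instFintypeV : ∀ m, Fintype (V m)
  | 0 => inferInstanceAs (Fintype Unit)
  | m + 1 => by
    have := instFintypeV m
    exact inferInstanceAs (Fintype (Bool × V m))

instance instDecidableEqV : ∀ m, DecidableEq (V m)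
  | 0 => inferInstanceAs (DecidableEq Unit)
  | m + 1 => by
    have := instDecidableEqV m
    exact inferInstanceAs (DecidableEq (Bool × V m))

/-- total variation: `∑` over all levels `j = 1..m` and block triples of `2^{-j} |tr (Z F0 Z F1 Z F2)|` -/
noncomputable def TV : (m : ℕ) → Matrix (V m) (V m) ℝ → Matrix (V m) (V m) ℝ →
    Matrix (V m) (V m) ℝ → ℝ
  | 0, _, _, _ => 0
  | m + 1, F0, F1, F2 =>
      (1 / 2 : ℝ) ^ (m + 1) * |NN (ZZ (V m)) F0 F1 F2| +
      ∑ a : Bool, ∑ b : Bool,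
        TV m (blk a b F0) (blk b (xor a b) F1) (blk (xor a b) a F2)

/-- sum of `f (x, y, z)` over the leaves (cell triples with `x0 + x1 + x2 = 0`) -/
noncomputable def LS : (m : ℕ) → (ℝ → ℝ → ℝ → ℝ) → Matrix (V m) (V m) ℝ → Matrix (V m) (V m) ℝ →
    Matrix (V m) (V m) ℝ → ℝ
  | 0, f, F0, F1, F2 => f (F0 () ()) (F1 () ()) (F2 () ())
  | m + 1, f, F0, F1, F2 =>
      ∑ a : Bool, ∑ b : Bool,
        LS m f (blk a b F0) (blk b (xor a b) F1) (blk (xor a b) a F2)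

theorem TV_nil (F0 F1 F2 : Matrix (V 0) (V 0) ℝ) : TV 0 F0 F1 F2 = 0 := rfl

theorem TV_cons (m : ℕ) (F0 F1 F2 : Matrix (V (m + 1)) (V (m + 1)) ℝ) :
    TV (m + 1) F0 F1 F2 = (1 / 2 : ℝ) ^ (m + 1) * |NN (ZZ (V m)) F0 F1 F2| +
      ∑ a : Bool, ∑ b : Bool,
        TV m (blk a b F0) (blk b (xor a b) F1) (blk (xor a b) a F2) := rfl

theorem LS_nil (f : ℝ → ℝ → ℝ → ℝ) (F0 F1 F2 : Matrix (V 0) (V 0) ℝ) :
    LS 0 f F0 F1 F2 = f (F0 () ()) (F1 () ()) (F2 () ()) := rfl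

theorem LS_cons (m : ℕ) (f : ℝ → ℝ → ℝ → ℝ) (F0 F1 F2 : Matrix (V (m + 1)) (V (m + 1)) ℝ) :
    LS (m + 1) f F0 F1 F2 = ∑ a : Bool, ∑ b : Bool,
        LS m f (blk a b F0) (blk b (xor a b) F1) (blk (xor a b) a F2) := rfl

end Tri
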