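import Vale.Agent.Tri.Defs

/-!
# P075 / Tri / DiscB: leaf sums
-/

namespace Tri

open Matrix

theorem LS_add (m : ℕ) (f g : ℝ → ℝ → ℝ → ℝ) : ∀ (F0 F1 F2 : Matrix (V m) (V m) ℝ),
    LS m (fun x y z => f x y z + g x y z) F0 F1 F2 = LS m f F0 F1 F2 + LS m g F0 F1 F2 := by
  induction m with
  | zero => intro F0 F1 F2; rfl
  | succ m ih =>
    intro F0 F1 F2
    simp only [LS_cons, ih, Finset.sum_add_distrib]

theorem LS_mul (m : ℕ) (c : ℝ) (f : ℝ → ℝ → ℝ → ℝ) : ∀ (F0 F1 F2 : Matrix (V m) (V m) ℝ),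
    LS m (fun x y z => c * f x y z) F0 F1 F2 = c * LS m f F0 F1 F2 := by
  induction m with
  | zero => intro F0 F1 F2; rfl
  | succ m ih =>
    intro F0 F1 F2
    simp only [LS_cons, ih, Finset.mul_sum]

theorem LS_zero (m : ℕ) : ∀ (F0 F1 F2 : Matrix (V m) (V m) ℝ),
    LS m (fun _ _ _ => 0) F0 F1 F2 = 0 := by
  induction m with
  | zero => intro F0 F1 F2; rfl
  | succ m ih =>
    intro F0 F1 F2
    simp only [LS_cons, ih, Finset.sum_const_zero]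

theorem LS_sum {ι : Type*} (s : Finset ι) (m : ℕ) (f : ι → ℝ → ℝ → ℝ → ℝ)
    (F0 F1 F2 : Matrix (V m) (V m) ℝ) :
    LS m (fun x y z => ∑ i ∈ s, f i x y z) F0 F1 F2 = ∑ i ∈ s, LS m (f i) F0 F1 F2 := by
  classical
  induction s using Finset.induction_on with
  | empty => simp only [Finset.sum_empty]; exact LS_zero m F0 F1 F2
  | insert a s ha ih =>
    simp only [Finset.sum_insert ha]
    rw [LS_add, ih]

theorem LS_mono (m : ℕ) {f g : ℝ → ℝ → ℝ → ℝ} (h : ∀ x y z, f x y z ≤ g x y z) :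
    ∀ (F0 F1 F2 : Matrix (V m) (V m) ℝ), LS m f F0 F1 F2 ≤ LS m g F0 F1 F2 := by
  induction m with
  | zero => intro F0 F1 F2; exact h _ _ _
  | succ m ih =>
    intro F0 F1 F2
    simp only [LS_cons]
    exact Finset.sum_le_sum fun a _ => Finset.sum_le_sum fun b _ => ih _ _ _

theorem sum_blk {W : Type*} [Fintype W] (f : ℝ → ℝ) (F : Matrix (Bool × W) (Bool × W) ℝ) :
    ∑ a : Bool, ∑ b : Bool, ∑ i, ∑ j, f (blk a b F i j) = ∑ i, ∑ j, f (F i j) := by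
  rw [Fintype.sum_prod_type]
  refine Finset.sum_congr rfl fun a _ => ?_
  rw [Finset.sum_comm]
  refine Finset.sum_congr rfl fun i _ => ?_
  rw [Fintype.sum_prod_type]
  rfl

/-- every entry of `F0` is visited exactly once, the same for `F1`, `F2` -/
theorem LS_entries (m : ℕ) (f0 f1 f2 : ℝ → ℝ) : ∀ (F0 F1 F2 : Matrix (V m) (V m) ℝ),
    LS m (fun x y z => f0 x + f1 y + f2 z) F0 F1 F2 =
      (∑ i, ∑ j, f0 (F0 i j)) + (∑ i, ∑ j, f1 (F1 i j)) + ∑ i, ∑ j, f2 (F2 i j) := by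
  induction m with
  | zero =>
    intro F0 F1 F2
    have h : ∀ (f : ℝ → ℝ) (F : Matrix Unit Unit ℝ), ∑ i, ∑ j, f (F i j) = f (F () ()) := by
      intro f F
      simp
    have h0 : ∑ i, ∑ j, f0 (F0 i j) = f0 (F0 () ()) := h f0 F0
    have h1 : ∑ i, ∑ j, f1 (F1 i j) = f1 (F1 () ()) := h f1 F1
    have h2 : ∑ i, ∑ j, f2 (F2 i j) = f2 (F2 () ()) := h f2 F2
    rw [h0, h1, h2]
    rfl
  | succ m ih =>
    intro F0 F1 F2
    have e0 : ∑ i, ∑ j, f0 (F0 i j) = ∑ a : Bool, ∑ b : Bool, ∑ i : V m, ∑ j : V m,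
        f0 (blk a b F0 i j) := (sum_blk (W := V m) f0 F0).symm
    have e1 : ∑ i, ∑ j, f1 (F1 i j) = ∑ a : Bool, ∑ b : Bool, ∑ i : V m, ∑ j : V m,
        f1 (blk a b F1 i j) := (sum_blk (W := V m) f1 F1).symm
    have e2 : ∑ i, ∑ j, f2 (F2 i j) = ∑ a : Bool, ∑ b : Bool, ∑ i : V m, ∑ j : V m,
        f2 (blk a b F2 i j) := (sum_blk (W := V m) f2 F2).symm
    rw [e0, e1, e2]
    simp only [LS_cons, ih, Finset.sum_add_distrib, Fintype.sum_bool, Bool.xor_false, Bool.xor_true,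
      Bool.not_true, Bool.not_false]
    ring

theorem trace_mul_transpose_sum {n : Type*} [Fintype n] (F : Matrix n n ℝ) :
    (F * Fᵀ).trace = ∑ i, ∑ j, (F i j) ^ 2 := by
  simp only [Matrix.trace, Matrix.diag_apply, Matrix.mul_apply, Matrix.transpose_apply, sq]

theorem trace_Mm_sum {n : Type*} [Fintype n] (F G : Matrix n n ℝ) :
    (Mm F G).trace = (∑ i, ∑ j, (F i j) ^ 2) + ∑ i, ∑ j, (G i j) ^ 2 := by
  rw [Mm, Matrix.trace_add, Matrix.trace_mul_comm Gᵀ G, trace_mul_transpose_sum,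
    trace_mul_transpose_sum]

theorem trace_Mm (m : ℕ) (F0 F1 F2 : Matrix (V m) (V m) ℝ) :
    (Mm F0 F2).trace + (Mm F1 F0).trace + (Mm F2 F1).trace =
      LS m (fun x y z => 2 * x ^ 2 + 2 * y ^ 2 + 2 * z ^ 2) F0 F1 F2 := by
  rw [LS_entries m (fun x => 2 * x ^ 2) (fun x => 2 * x ^ 2) (fun x => 2 * x ^ 2),
    trace_Mm_sum, trace_Mm_sum, trace_Mm_sum]
  simp only [← Finset.mul_sum]
  ring

end Tri
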