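import Mathlib

/-!
# P075 / Tri / Scal: the scalar inequality

`ψ(x) = x - log (1+x) ≤ min (x, x^2/2)`. With `t = a / 2^q`: `8^q ψ(t^2) ≤ a^3 min (1/t, t/2)` and the sum
over `q` of `min (1/t, t/2)` is at most `2 + 1` (geometric series with ratio 2 on both sides of `t = 1`).
-/

namespace Tri

theorem psi_nonneg {x : ℝ} (hx : 0 ≤ x) : 0 ≤ x - Real.log (1 + x) := by
  have := Real.log_le_sub_one_of_pos (by linarith : 0 < 1 + x)
  linarith

theorem psi_mono {x y : ℝ} (hx : 0 ≤ x) (hxy : x ≤ y) :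
    x - Real.log (1 + x) ≤ y - Real.log (1 + y) := by
  have h1 : 0 < 1 + x := by linarith
  have h2 : 0 < 1 + y := by linarith
  have h3 := Real.log_le_sub_one_of_pos (div_pos h2 h1)
  rw [Real.log_div h2.ne' h1.ne'] at h3
  have h4 : (1 + y) / (1 + x) - 1 = (y - x) / (1 + x) := by field_simp; ring
  have h5 : (y - x) / (1 + x) ≤ y - x := by
    rw [div_le_iff₀ h1]
    nlinarith
  linarith

theorem psi_le {x : ℝ} (hx : 0 ≤ x) : x - Real.log (1 + x) ≤ x := by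
  have := Real.log_nonneg (by linarith : (1 : ℝ) ≤ 1 + x)
  linarith

theorem psi_le_sq {x : ℝ} (hx : 0 ≤ x) : x - Real.log (1 + x) ≤ x ^ 2 / 2 := by
  have h : ∀ y ∈ Set.Ici (0 : ℝ), HasDerivAt (fun y => y ^ 2 / 2 - (y - Real.log (1 + y)))
      (y - (1 - 1 / (1 + y))) y := by
    intro y hy
    have hy' : (0 : ℝ) ≤ y := hy
    have h1 : HasDerivAt (fun y : ℝ => y ^ 2 / 2) y y := by
      have h0 := (hasDerivAt_pow 2 y).div_const 2
      have e : ((2 : ℕ) : ℝ) * y ^ (2 - 1) / 2 = y := by norm_num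
      rwa [e] at h0
    have h2 : HasDerivAt (fun y : ℝ => Real.log (1 + y)) (1 / (1 + y)) y := by
      have h3 : HasDerivAt (fun y : ℝ => 1 + y) 1 y := by
        simpa using (hasDerivAt_id y).const_add 1
      exact h3.log (by linarith)
    exact h1.sub ((hasDerivAt_id y).sub h2)
  have hmono : MonotoneOn (fun y => y ^ 2 / 2 - (y - Real.log (1 + y))) (Set.Ici (0 : ℝ)) := by
    apply monotoneOn_of_deriv_nonneg (convex_Ici 0)
    · intro y hy
      exact (h y hy).continuousAt.continuousWithinAt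
    · intro y hy
      rw [interior_Ici] at hy
      have hy' : (0 : ℝ) < y := hy
      exact (h y (Set.mem_Ici.mpr hy'.le)).differentiableAt.differentiableWithinAt
    · intro y hy
      rw [interior_Ici] at hy
      have hy' : (0 : ℝ) < y := hy
      rw [(h y (Set.mem_Ici.mpr hy'.le)).deriv]
      have : 1 - 1 / (1 + y) = y / (1 + y) := by field_simp; ring
      rw [this]
      have h5 : y / (1 + y) ≤ y := by
        rw [div_le_iff₀ (by linarith)]
        nlinarith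
      linarith
  have := hmono (Set.self_mem_Ici) (Set.mem_Ici.mpr hx) hx
  simp only [add_zero, Real.log_one] at this
  norm_num at this
  linarith

theorem Ico_succ_eq (K : ℕ) : Finset.Ico (-((K + 1 : ℕ) : ℤ)) ((K + 1 : ℕ) : ℤ) =
    insert (-((K + 1 : ℕ) : ℤ)) (insert (K : ℤ) (Finset.Ico (-(K : ℤ)) K)) := by
  ext q
  simp only [Finset.mem_Ico, Finset.mem_insert]
  push_cast
  omega

/-- telescoping bound -/
theorem sum_Ico_le {g G : ℤ → ℝ} (h : ∀ q, g q ≤ G (q + 1) - G q) (K : ℕ) :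
    ∑ q ∈ Finset.Ico (-(K : ℤ)) K, g q ≤ G K - G (-K) := by
  induction K with
  | zero => simp
  | succ K ih =>
    rw [Ico_succ_eq, Finset.sum_insert, Finset.sum_insert]
    · have h1 := h (-((K + 1 : ℕ) : ℤ))
      have h2 := h (K : ℤ)
      have e1 : -((K + 1 : ℕ) : ℤ) + 1 = -(K : ℤ) := by push_cast; ring
      have e2 : (K : ℤ) + 1 = ((K + 1 : ℕ) : ℤ) := by push_cast; ring
      rw [e1] at h1
      rw [e2] at h2
      linarith
    · simp
    · simp only [Finset.mem_insert, Finset.mem_Ico]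
      push_cast
      omega

/-- main scalar bound -/
theorem psi_sum {a : ℝ} (ha : 0 ≤ a) (K : ℕ) :
    ∑ q ∈ Finset.Ico (-(K : ℤ)) K,
      (8 : ℝ) ^ q * ((4 : ℝ) ^ (-q) * a ^ 2 - Real.log (1 + (4 : ℝ) ^ (-q) * a ^ 2)) ≤
      3 * a ^ 3 := by
  rcases ha.eq_or_lt with h0 | h0
  · subst h0
    simp
  obtain ⟨n, hn1, hn2⟩ := exists_mem_Ico_zpow h0 (by norm_num : (1 : ℝ) < 2)
  have hp : ∀ q : ℤ, (0 : ℝ) < (2 : ℝ) ^ q := fun q => zpow_pos (by norm_num) q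
  have h84 : ∀ q : ℤ, (8 : ℝ) ^ q * (4 : ℝ) ^ (-q) = (2 : ℝ) ^ q := by
    intro q
    rw [zpow_neg, ← div_eq_mul_inv, ← div_zpow]
    norm_num
  have h844 : ∀ q : ℤ, (8 : ℝ) ^ q * ((4 : ℝ) ^ (-q)) ^ 2 = (2 : ℝ) ^ (-q) := by
    intro q
    rw [sq, ← mul_assoc, h84, zpow_neg, zpow_neg, ← div_eq_mul_inv, ← div_zpow, ← inv_zpow]
    norm_num
  set G : ℤ → ℝ := fun p => if p ≤ n + 1 then (2 : ℝ) ^ p * a ^ 2 else
    (2 : ℝ) ^ (n + 1) * a ^ 2 + a ^ 4 / 2 * ((2 : ℝ) ^ (-n) - 2 * (2 : ℝ) ^ (-p)) with hG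
  have key := sum_Ico_le (g := fun q => (8 : ℝ) ^ q *
    ((4 : ℝ) ^ (-q) * a ^ 2 - Real.log (1 + (4 : ℝ) ^ (-q) * a ^ 2))) (G := G) (by
      intro q
      have h4 : (0 : ℝ) < (4 : ℝ) ^ (-q) := zpow_pos (by norm_num) _
      have h8 : (0 : ℝ) < (8 : ℝ) ^ q := zpow_pos (by norm_num) _
      have hx : 0 ≤ (4 : ℝ) ^ (-q) * a ^ 2 := by positivity
      rcases le_or_gt q n with hq | hq
      · have e : G (q + 1) - G q = (2 : ℝ) ^ q * a ^ 2 := by
          simp only [hG]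
          rw [if_pos (by omega), if_pos (by omega), zpow_add_one₀ (by norm_num)]
          ring
        rw [e]
        calc _ ≤ (8 : ℝ) ^ q * ((4 : ℝ) ^ (-q) * a ^ 2) :=
              mul_le_mul_of_nonneg_left (psi_le hx) h8.le
          _ = _ := by rw [← mul_assoc, h84]
      · have e : G (q + 1) - G q = a ^ 4 / 2 * (2 : ℝ) ^ (-q) := by
          simp only [hG]
          rw [if_neg (by omega)]
          have e2 : (2 : ℝ) ^ (-(q + 1)) = (2 : ℝ) ^ (-q) / 2 := by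
            rw [neg_add, ← sub_eq_add_neg, zpow_sub_one₀ (by norm_num)]
            ring
          rw [e2]
          split_ifs with h
          · have hq' : q = n + 1 := by omega
            subst hq'
            have e3 : (2 : ℝ) ^ (-n) = 2 * (2 : ℝ) ^ (-(n + 1)) := by
              rw [neg_add, ← sub_eq_add_neg, zpow_sub_one₀ (by norm_num)]
              ring
            rw [e3]
            ring
          · ring
        rw [e]
        calc _ ≤ (8 : ℝ) ^ q * (((4 : ℝ) ^ (-q) * a ^ 2) ^ 2 / 2) :=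
              mul_le_mul_of_nonneg_left (psi_le_sq hx) h8.le
          _ = a ^ 4 / 2 * ((8 : ℝ) ^ q * ((4 : ℝ) ^ (-q)) ^ 2) := by ring
          _ = _ := by rw [h844]) K
  refine key.trans ?_
  have hGnn : 0 ≤ G (-K) := by
    simp only [hG]
    split_ifs with h
    · have := hp (-K : ℤ)
      positivity
    · have h1 : 2 * (2 : ℝ) ^ (-(-(K : ℤ))) ≤ (2 : ℝ) ^ (-n) := by
        have : 2 * (2 : ℝ) ^ (-(-(K : ℤ))) = (2 : ℝ) ^ (-(-(K : ℤ)) + 1) := by
          rw [zpow_add_one₀ (by norm_num)]; ring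
        rw [this]
        apply zpow_le_zpow_right₀ (by norm_num)
        omega
      have h2 := hp (n + 1)
      have h3 : 0 ≤ a ^ 4 / 2 * ((2 : ℝ) ^ (-n) - 2 * (2 : ℝ) ^ (-(-(K : ℤ)))) :=
        mul_nonneg (by positivity) (by linarith)
      have h4 : 0 ≤ (2 : ℝ) ^ (n + 1) * a ^ 2 := by positivity
      linarith
  have e1 : (2 : ℝ) ^ (n + 1) = 2 * (2 : ℝ) ^ n := by rw [zpow_add_one₀ (by norm_num)]; ring
  have hb1 : (2 : ℝ) ^ (n + 1) * a ^ 2 ≤ 2 * a ^ 3 := by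
    rw [e1]
    nlinarith [mul_le_mul_of_nonneg_right hn1 (sq_nonneg a)]
  have hb2 : a ^ 4 / 2 * (2 : ℝ) ^ (-n) ≤ a ^ 3 := by
    have h5 : (2 : ℝ) ^ (-n) * a ≤ 2 := by
      rw [zpow_neg, inv_mul_le_iff₀ (hp n)]
      rw [e1] at hn2
      linarith
    calc a ^ 4 / 2 * (2 : ℝ) ^ (-n) = a ^ 3 / 2 * ((2 : ℝ) ^ (-n) * a) := by ring
      _ ≤ a ^ 3 / 2 * 2 := by gcongr
      _ = a ^ 3 := by ring
  have hGK : G K ≤ 3 * a ^ 3 := by
    simp only [hG]
    split_ifs with h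
    · have h6 : (2 : ℝ) ^ (K : ℤ) ≤ (2 : ℝ) ^ (n + 1) := zpow_le_zpow_right₀ (by norm_num) h
      have h7 : (2 : ℝ) ^ (K : ℤ) * a ^ 2 ≤ (2 : ℝ) ^ (n + 1) * a ^ 2 := by gcongr
      have h8 : 0 ≤ a ^ 3 := by positivity
      linarith
    · have h9 := hp (-(K : ℤ))
      have h10 : a ^ 4 / 2 * ((2 : ℝ) ^ (-n) - 2 * (2 : ℝ) ^ (-(K : ℤ))) ≤
          a ^ 4 / 2 * (2 : ℝ) ^ (-n) := by
        gcongr
        linarith
      linarith
  linarith

/-- with `x^2 + z^2 ≤ (|x| + |z|)^2` and `(|x| + |z|)^3 ≤ 4 (|x|^3 + |z|^3)` -/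
theorem psi_sum2 (x z : ℝ) (K : ℕ) :
    ∑ q ∈ Finset.Ico (-(K : ℤ)) K,
      (8 : ℝ) ^ q * ((4 : ℝ) ^ (-q) * (x ^ 2 + z ^ 2) -
        Real.log (1 + (4 : ℝ) ^ (-q) * (x ^ 2 + z ^ 2))) ≤
      12 * (|x| ^ 3 + |z| ^ 3) := by
  have hx := abs_nonneg x
  have hz := abs_nonneg z
  have h1 : x ^ 2 + z ^ 2 ≤ (|x| + |z|) ^ 2 := by
    rw [← sq_abs x, ← sq_abs z]
    nlinarith [mul_nonneg hx hz]
  calc _ ≤ ∑ q ∈ Finset.Ico (-(K : ℤ)) K,
      (8 : ℝ) ^ q * ((4 : ℝ) ^ (-q) * (|x| + |z|) ^ 2 -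
        Real.log (1 + (4 : ℝ) ^ (-q) * (|x| + |z|) ^ 2)) := by
        refine Finset.sum_le_sum fun q _ => ?_
        have h4 : (0 : ℝ) < (4 : ℝ) ^ (-q) := zpow_pos (by norm_num) _
        have h8 : (0 : ℝ) < (8 : ℝ) ^ q := zpow_pos (by norm_num) _
        exact mul_le_mul_of_nonneg_left (psi_mono (by positivity) (by gcongr)) h8.le
    _ ≤ 3 * (|x| + |z|) ^ 3 := psi_sum (by positivity) K
    _ ≤ 12 * (|x| ^ 3 + |z| ^ 3) := by
        nlinarith [mul_nonneg (add_nonneg hx hz) (sq_nonneg (|x| - |z|))]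

end Tri
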