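import Vale.Agent.Tri.DiscA
import Vale.Agent.Tri.DiscB
import Vale.Agent.Tri.Scal

/-!
# P075 / Tri / Disc: the discrete theorem

`4^m UU (4^{-(q+m)}) F ≤ 4^{-q} (tr M_0 + tr M_1 + tr M_2) = LS m (4^{-q} 2 (x²+y²+z²))` (`LL_le_trace`,
`trace_Mm`) and `psi_sum2` on every leaf; `ER_tendsto` removes the error (`ge_of_tendsto` or `le_of_tendsto`).
-/

namespace Tri

open Matrix

theorem Mm_posSemidef {n : Type*} [Fintype n] (F G : Matrix n n ℝ) : (Mm F G).PosSemidef := by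
  have h1 : (F * Fᵀ).PosSemidef := by
    have := Matrix.posSemidef_self_mul_conjTranspose F
    rwa [Matrix.conjTranspose_eq_transpose_of_trivial] at this
  have h2 : (Gᵀ * G).PosSemidef := by
    have := Matrix.posSemidef_conjTranspose_mul_self G
    rwa [Matrix.conjTranspose_eq_transpose_of_trivial] at this
  exact h1.add h2

theorem UU_le {n : Type*} [Fintype n] [DecidableEq n] {t : ℝ} (ht : 0 ≤ t)
    (F0 F1 F2 : Matrix n n ℝ) :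
    UU t F0 F1 F2 ≤ t * ((Mm F0 F2).trace + (Mm F1 F0).trace + (Mm F2 F1).trace) := by
  have h : ∀ F G : Matrix n n ℝ, LL (t • Mm F G) ≤ t * (Mm F G).trace := by
    intro F G
    have := LL_le_trace ((Mm_posSemidef F G).smul ht)
    rwa [Matrix.trace_smul, smul_eq_mul] at this
  have h1 := h F0 F2
  have h2 := h F1 F0
  have h3 := h F2 F1
  rw [UU]
  linarith

theorem leaf_sum (K : ℕ) (x y z : ℝ) :
    ∑ q ∈ Finset.Ico (-(K : ℤ)) K, (8 : ℝ) ^ q * (12 *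
      ((4 : ℝ) ^ (-q) * (2 * x ^ 2 + 2 * y ^ 2 + 2 * z ^ 2) - leaf q x y z)) ≤
      288 * |x| ^ 3 + 288 * |y| ^ 3 + 288 * |z| ^ 3 := by
  have h1 := psi_sum2 x z K
  have h2 := psi_sum2 y x K
  have h3 := psi_sum2 z y K
  have e : ∑ q ∈ Finset.Ico (-(K : ℤ)) K, (8 : ℝ) ^ q * (12 *
      ((4 : ℝ) ^ (-q) * (2 * x ^ 2 + 2 * y ^ 2 + 2 * z ^ 2) - leaf q x y z)) =
      12 * (∑ q ∈ Finset.Ico (-(K : ℤ)) K,
      (8 : ℝ) ^ q * ((4 : ℝ) ^ (-q) * (x ^ 2 + z ^ 2) -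
        Real.log (1 + (4 : ℝ) ^ (-q) * (x ^ 2 + z ^ 2)))) +
      12 * (∑ q ∈ Finset.Ico (-(K : ℤ)) K,
      (8 : ℝ) ^ q * ((4 : ℝ) ^ (-q) * (y ^ 2 + x ^ 2) -
        Real.log (1 + (4 : ℝ) ^ (-q) * (y ^ 2 + x ^ 2)))) +
      12 * ∑ q ∈ Finset.Ico (-(K : ℤ)) K,
      (8 : ℝ) ^ q * ((4 : ℝ) ^ (-q) * (z ^ 2 + y ^ 2) -
        Real.log (1 + (4 : ℝ) ^ (-q) * (z ^ 2 + y ^ 2))) := by
    rw [Finset.mul_sum, Finset.mul_sum, Finset.mul_sum, ← Finset.sum_add_distrib,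
      ← Finset.sum_add_distrib]
    refine Finset.sum_congr rfl fun q _ => ?_
    unfold leaf
    ring
  rw [e]
  linarith

/-- the discrete theorem -/
theorem TV_le (m : ℕ) (F0 F1 F2 : Matrix (V m) (V m) ℝ) :
    TV m F0 F1 F2 ≤ 288 * ((∑ i, ∑ j, |F0 i j| ^ 3) + (∑ i, ∑ j, |F1 i j| ^ 3) +
      ∑ i, ∑ j, |F2 i j| ^ 3) := by
  have key : ∀ K : ℕ, TV m F0 F1 F2 ≤ 288 * ((∑ i, ∑ j, |F0 i j| ^ 3) +
      (∑ i, ∑ j, |F1 i j| ^ 3) + ∑ i, ∑ j, |F2 i j| ^ 3) + ER m K F0 F1 F2 := by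
    intro K
    refine (TV_le_aux m K F0 F1 F2).trans ?_
    refine add_le_add ?_ le_rfl
    have h1 : ∀ q ∈ Finset.Ico (-(K : ℤ)) K, (8 : ℝ) ^ q * (12 *
        ((4 : ℝ) ^ m * UU ((4 : ℝ) ^ (-(q + m))) F0 F1 F2 - LS m (leaf q) F0 F1 F2)) ≤
        (8 : ℝ) ^ q * (12 * LS m (fun x y z =>
          (4 : ℝ) ^ (-q) * (2 * x ^ 2 + 2 * y ^ 2 + 2 * z ^ 2) + (-1) * leaf q x y z) F0 F1 F2) := by
      intro q _
      have hU := UU_le (t := (4 : ℝ) ^ (-(q + (m : ℤ)))) (by positivity) F0 F1 F2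
      rw [trace_Mm] at hU
      rw [LS_add m (fun x y z => (4 : ℝ) ^ (-q) * (2 * x ^ 2 + 2 * y ^ 2 + 2 * z ^ 2))
        (fun x y z => (-1) * leaf q x y z), LS_mul, LS_mul]
      have e : (4 : ℝ) ^ m * (4 : ℝ) ^ (-(q + (m : ℤ))) = (4 : ℝ) ^ (-q) := by
        rw [← zpow_natCast, ← zpow_add₀ (by norm_num : (4 : ℝ) ≠ 0)]
        congr 1
        ring
      have h4 : (4 : ℝ) ^ m * UU ((4 : ℝ) ^ (-(q + (m : ℤ)))) F0 F1 F2 ≤
          (4 : ℝ) ^ (-q) * LS m (fun x y z => 2 * x ^ 2 + 2 * y ^ 2 + 2 * z ^ 2) F0 F1 F2 := by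
        calc _ ≤ (4 : ℝ) ^ m * ((4 : ℝ) ^ (-(q + (m : ℤ))) *
              LS m (fun x y z => 2 * x ^ 2 + 2 * y ^ 2 + 2 * z ^ 2) F0 F1 F2) :=
              mul_le_mul_of_nonneg_left hU (by positivity)
          _ = _ := by rw [← mul_assoc, e]
      refine mul_le_mul_of_nonneg_left ?_ (by positivity)
      linarith
    refine (Finset.sum_le_sum h1).trans ?_
    have h2 : ∑ q ∈ Finset.Ico (-(K : ℤ)) K, (8 : ℝ) ^ q * (12 * LS m (fun x y z =>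
          (4 : ℝ) ^ (-q) * (2 * x ^ 2 + 2 * y ^ 2 + 2 * z ^ 2) + (-1) * leaf q x y z) F0 F1 F2) =
        LS m (fun x y z => ∑ q ∈ Finset.Ico (-(K : ℤ)) K, ((8 : ℝ) ^ q * 12) *
          ((4 : ℝ) ^ (-q) * (2 * x ^ 2 + 2 * y ^ 2 + 2 * z ^ 2) + (-1) * leaf q x y z)) F0 F1 F2 := by
      rw [LS_sum (Finset.Ico (-(K : ℤ)) K) m (fun q x y z => ((8 : ℝ) ^ q * 12) *
          ((4 : ℝ) ^ (-q) * (2 * x ^ 2 + 2 * y ^ 2 + 2 * z ^ 2) + (-1) * leaf q x y z))]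
      refine Finset.sum_congr rfl fun q _ => ?_
      rw [LS_mul m ((8 : ℝ) ^ q * 12)]
      ring
    rw [h2]
    have h3 : LS m (fun x y z => ∑ q ∈ Finset.Ico (-(K : ℤ)) K, ((8 : ℝ) ^ q * 12) *
          ((4 : ℝ) ^ (-q) * (2 * x ^ 2 + 2 * y ^ 2 + 2 * z ^ 2) + (-1) * leaf q x y z)) F0 F1 F2 ≤
        LS m (fun x y z => 288 * |x| ^ 3 + 288 * |y| ^ 3 + 288 * |z| ^ 3) F0 F1 F2 := by
      refine LS_mono m (fun x y z => ?_) F0 F1 F2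
      refine le_trans (le_of_eq ?_) (leaf_sum K x y z)
      refine Finset.sum_congr rfl fun q _ => ?_
      ring
    refine h3.trans (le_of_eq ?_)
    rw [LS_entries m (fun x => 288 * |x| ^ 3) (fun x => 288 * |x| ^ 3) (fun x => 288 * |x| ^ 3)]
    simp only [← Finset.mul_sum]
    ring
  have hlim : Filter.Tendsto (fun K : ℕ => 288 * ((∑ i, ∑ j, |F0 i j| ^ 3) +
      (∑ i, ∑ j, |F1 i j| ^ 3) + ∑ i, ∑ j, |F2 i j| ^ 3) + ER m K F0 F1 F2) Filter.atTop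
      (nhds (288 * ((∑ i, ∑ j, |F0 i j| ^ 3) +
      (∑ i, ∑ j, |F1 i j| ^ 3) + ∑ i, ∑ j, |F2 i j| ^ 3) + 0)) :=
    tendsto_const_nhds.add (ER_tendsto m F0 F1 F2)
  rw [add_zero] at hlim
  exact ge_of_tendsto' hlim key

end Tri
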