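import Vale.Agent.Tri.Blk
import Vale.Agent.Tri.TB

/-!
# P075 / Tri / DiscA: induction over the levels (helper22)
-/

namespace Tri

open Matrix

/-- the error in `TV` -/
noncomputable def ER : (m : ℕ) → ℕ → Matrix (V m) (V m) ℝ → Matrix (V m) (V m) ℝ →
    Matrix (V m) (V m) ℝ → ℝ
  | 0, _, _, _, _ => 0
  | m + 1, K, F0, F1, F2 =>
      (1 / 2 : ℝ) ^ (m + 1) * er (ZZ (V m)) F0 F1 F2 ((m + 1 : ℕ) - K) ((m + 1 : ℕ) + K) +
      ∑ a : Bool, ∑ b : Bool,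
        ER m K (blk a b F0) (blk b (xor a b) F1) (blk (xor a b) a F2)

theorem ER_tendsto (m : ℕ) : ∀ (F0 F1 F2 : Matrix (V m) (V m) ℝ),
    Filter.Tendsto (fun K : ℕ => ER m K F0 F1 F2) Filter.atTop (nhds 0) := by
  induction m with
  | zero => intro F0 F1 F2; exact tendsto_const_nhds
  | succ m ih =>
    intro F0 F1 F2
    have h1 := (er_tendsto (ZZ (V m)) F0 F1 F2 ((m + 1 : ℕ) : ℤ)).const_mul ((1 / 2 : ℝ) ^ (m + 1))
    have h2 : Filter.Tendsto (fun K : ℕ => ∑ a : Bool, ∑ b : Bool,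
        ER m K (blk a b F0) (blk b (xor a b) F1) (blk (xor a b) a F2)) Filter.atTop (nhds 0) := by
      have := tendsto_finsetSum (Finset.univ : Finset Bool) (fun a _ =>
        tendsto_finsetSum (Finset.univ : Finset Bool) (fun b _ =>
          ih (blk a b F0) (blk b (xor a b) F1) (blk (xor a b) a F2)))
      simpa using this
    have h3 := h1.add h2
    rw [mul_zero, add_zero] at h3
    exact h3

/-- the leaf function -/
noncomputable def leaf (q : ℤ) (x y z : ℝ) : ℝ :=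
  Real.log (1 + (4 : ℝ) ^ (-q) * (x ^ 2 + z ^ 2)) +
  Real.log (1 + (4 : ℝ) ^ (-q) * (y ^ 2 + x ^ 2)) +
  Real.log (1 + (4 : ℝ) ^ (-q) * (z ^ 2 + y ^ 2))

theorem LL_unit (A : Matrix Unit Unit ℝ) : LL A = Real.log (1 + A () ()) := by
  unfold LL
  congr 1
  rw [Matrix.det_unique, Matrix.add_apply]
  rfl

theorem UU_unit (t : ℝ) (F0 F1 F2 : Matrix Unit Unit ℝ) :
    UU t F0 F1 F2 = Real.log (1 + t * ((F0 () ()) ^ 2 + (F2 () ()) ^ 2)) +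
      Real.log (1 + t * ((F1 () ()) ^ 2 + (F0 () ()) ^ 2)) +
      Real.log (1 + t * ((F2 () ()) ^ 2 + (F1 () ()) ^ 2)) := by
  have hM : ∀ F G : Matrix Unit Unit ℝ, (Mm F G) () () = (F () ()) ^ 2 + (G () ()) ^ 2 := by
    intro F G
    rw [Mm, Matrix.add_apply, Matrix.mul_apply, Matrix.mul_apply]
    simp
    ring
  simp only [UU, LL_unit, Matrix.smul_apply, hM, smul_eq_mul]

theorem TV_le_aux_zero (F0 F1 F2 : Matrix (V 0) (V 0) ℝ) (q : ℤ) :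
    (4 : ℝ) ^ 0 * UU ((4 : ℝ) ^ (-(q + (0 : ℕ)))) F0 F1 F2 = LS 0 (leaf q) F0 F1 F2 := by
  have h := UU_unit ((4 : ℝ) ^ (-(q + (0 : ℕ)))) F0 F1 F2
  have h2 : UU ((4 : ℝ) ^ (-(q + (0 : ℕ)))) F0 F1 F2 =
    Real.log (1 + (4 : ℝ) ^ (-(q + (0 : ℕ))) * ((F0 () ()) ^ 2 + (F2 () ()) ^ 2)) +
      Real.log (1 + (4 : ℝ) ^ (-(q + (0 : ℕ))) * ((F1 () ()) ^ 2 + (F0 () ()) ^ 2)) +
      Real.log (1 + (4 : ℝ) ^ (-(q + (0 : ℕ))) * ((F2 () ()) ^ 2 + (F1 () ()) ^ 2)) := h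
  rw [h2, LS_nil, leaf, pow_zero, one_mul, Nat.cast_zero, add_zero]

theorem TV_le_aux (m K : ℕ) : ∀ (F0 F1 F2 : Matrix (V m) (V m) ℝ),
    TV m F0 F1 F2 ≤
      ∑ q ∈ Finset.Ico (-(K : ℤ)) K, (8 : ℝ) ^ q * (12 *
        ((4 : ℝ) ^ m * UU ((4 : ℝ) ^ (-(q + m))) F0 F1 F2 - LS m (leaf q) F0 F1 F2)) +
      ER m K F0 F1 F2 := by
  induction m with
  | zero =>
    intro F0 F1 F2
    have : ∀ q : ℤ, (8 : ℝ) ^ q * (12 *
        ((4 : ℝ) ^ 0 * UU ((4 : ℝ) ^ (-(q + (0 : ℕ)))) F0 F1 F2 - LS 0 (leaf q) F0 F1 F2)) = 0 := by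
      intro q
      rw [TV_le_aux_zero]
      ring
    rw [Finset.sum_congr rfl (fun q _ => this q)]
    simp [TV_nil, ER]
  | succ m ih =>
    intro F0 F1 F2
    have hb := NN_bound (H := ZZ (V m)) ZZ_transpose ZZ_mul_self F0 F1 F2 ((m + 1 : ℕ) : ℤ) K
    have hih : ∑ a : Bool, ∑ b : Bool,
        TV m (blk a b F0) (blk b (xor a b) F1) (blk (xor a b) a F2) ≤
        ∑ a : Bool, ∑ b : Bool, (∑ q ∈ Finset.Ico (-(K : ℤ)) K, (8 : ℝ) ^ q * (12 *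
        ((4 : ℝ) ^ m * UU ((4 : ℝ) ^ (-(q + m))) (blk a b F0) (blk b (xor a b) F1)
          (blk (xor a b) a F2) - LS m (leaf q) (blk a b F0) (blk b (xor a b) F1)
          (blk (xor a b) a F2))) +
        ER m K (blk a b F0) (blk b (xor a b) F1) (blk (xor a b) a F2)) :=
      Finset.sum_le_sum fun a _ => Finset.sum_le_sum fun b _ => ih _ _ _
    have hsw : ∑ a : Bool, ∑ b : Bool, (∑ q ∈ Finset.Ico (-(K : ℤ)) K, (8 : ℝ) ^ q * (12 *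
        ((4 : ℝ) ^ m * UU ((4 : ℝ) ^ (-(q + m))) (blk a b F0) (blk b (xor a b) F1)
          (blk (xor a b) a F2) - LS m (leaf q) (blk a b F0) (blk b (xor a b) F1)
          (blk (xor a b) a F2))) +
        ER m K (blk a b F0) (blk b (xor a b) F1) (blk (xor a b) a F2)) =
        ∑ q ∈ Finset.Ico (-(K : ℤ)) K, (8 : ℝ) ^ q * (12 *
          ((4 : ℝ) ^ m * (∑ a : Bool, ∑ b : Bool,
            UU ((4 : ℝ) ^ (-(q + m))) (blk a b F0) (blk b (xor a b) F1) (blk (xor a b) a F2)) -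
            LS (m + 1) (leaf q) F0 F1 F2)) +
        ∑ a : Bool, ∑ b : Bool, ER m K (blk a b F0) (blk b (xor a b) F1) (blk (xor a b) a F2) := by
      simp only [Finset.sum_add_distrib]
      congr 1
      have : ∀ a : Bool, (∑ b : Bool, ∑ q ∈ Finset.Ico (-(K : ℤ)) K, (8 : ℝ) ^ q * (12 *
        ((4 : ℝ) ^ m * UU ((4 : ℝ) ^ (-(q + m))) (blk a b F0) (blk b (xor a b) F1)
          (blk (xor a b) a F2) - LS m (leaf q) (blk a b F0) (blk b (xor a b) F1)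
          (blk (xor a b) a F2)))) = ∑ q ∈ Finset.Ico (-(K : ℤ)) K, ∑ b : Bool, (8 : ℝ) ^ q * (12 *
        ((4 : ℝ) ^ m * UU ((4 : ℝ) ^ (-(q + m))) (blk a b F0) (blk b (xor a b) F1)
          (blk (xor a b) a F2) - LS m (leaf q) (blk a b F0) (blk b (xor a b) F1)
          (blk (xor a b) a F2))) := fun a => Finset.sum_comm
      rw [Finset.sum_congr rfl (fun a _ => this a), Finset.sum_comm]
      refine Finset.sum_congr rfl fun q _ => ?_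
      rw [LS_cons]
      simp only [Finset.mul_sum, Finset.sum_sub_distrib, mul_sub]
    have hstep : ∀ q : ℤ, (1 / 2 : ℝ) ^ (m + 1) * (6 * ((8 : ℝ) ^ (q + ((m + 1 : ℕ) : ℤ)) *
        (ph (ZZ (V m)) F0 F2 ((4 : ℝ) ^ (-(q + ((m + 1 : ℕ) : ℤ)))) +
          ph (ZZ (V m)) F1 F0 ((4 : ℝ) ^ (-(q + ((m + 1 : ℕ) : ℤ)))) +
          ph (ZZ (V m)) F2 F1 ((4 : ℝ) ^ (-(q + ((m + 1 : ℕ) : ℤ))))))) +
        (8 : ℝ) ^ q * (12 * ((4 : ℝ) ^ m * (∑ a : Bool, ∑ b : Bool,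
            UU ((4 : ℝ) ^ (-(q + m))) (blk a b F0) (blk b (xor a b) F1) (blk (xor a b) a F2)) -
            LS (m + 1) (leaf q) F0 F1 F2)) ≤
        (8 : ℝ) ^ q * (12 * ((4 : ℝ) ^ (m + 1) * UU ((4 : ℝ) ^ (-(q + (m + 1 : ℕ)))) F0 F1 F2 -
          LS (m + 1) (leaf q) F0 F1 F2)) := by
      intro q
      have ht : (0 : ℝ) < (4 : ℝ) ^ (-(q + ((m + 1 : ℕ) : ℤ))) := by positivity
      have hU := UU_step F0 F1 F2 ht
      have e4 : 4 * (4 : ℝ) ^ (-(q + ((m + 1 : ℕ) : ℤ))) = (4 : ℝ) ^ (-(q + (m : ℤ))) := by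
        have : (-(q + (m : ℤ))) = 1 + (-(q + ((m + 1 : ℕ) : ℤ))) := by push_cast; ring
        rw [this, zpow_add₀ (by norm_num : (4 : ℝ) ≠ 0), zpow_one]
      rw [e4] at hU
      have e8 : (1 / 2 : ℝ) ^ (m + 1) * (8 : ℝ) ^ (q + ((m + 1 : ℕ) : ℤ)) =
          (8 : ℝ) ^ q * (4 : ℝ) ^ (m + 1) := by
        rw [zpow_add₀ (by norm_num : (8 : ℝ) ≠ 0), zpow_natCast]
        rw [show (8 : ℝ) ^ (m + 1) = (2 : ℝ) ^ (m + 1) * (4 : ℝ) ^ (m + 1) by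
          rw [← mul_pow]; norm_num]
        rw [one_div, inv_pow]
        have : (2 : ℝ) ^ (m + 1) ≠ 0 := by positivity
        field_simp
      set P := ph (ZZ (V m)) F0 F2 ((4 : ℝ) ^ (-(q + ((m + 1 : ℕ) : ℤ)))) +
          ph (ZZ (V m)) F1 F0 ((4 : ℝ) ^ (-(q + ((m + 1 : ℕ) : ℤ)))) +
          ph (ZZ (V m)) F2 F1 ((4 : ℝ) ^ (-(q + ((m + 1 : ℕ) : ℤ)))) with hP
      set SU := ∑ a : Bool, ∑ b : Bool,
            UU ((4 : ℝ) ^ (-(q + m))) (blk a b F0) (blk b (xor a b) F1) (blk (xor a b) a F2) with hSU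
      set U1 := UU ((4 : ℝ) ^ (-(q + ((m + 1 : ℕ) : ℤ)))) F0 F1 F2 with hU1
      have h8 : (0 : ℝ) < (8 : ℝ) ^ q := by positivity
      have h4 : (0 : ℝ) < (4 : ℝ) ^ (m + 1) := by positivity
      have e1 : (1 / 2 : ℝ) ^ (m + 1) * (6 * ((8 : ℝ) ^ (q + ((m + 1 : ℕ) : ℤ)) * P)) =
          (8 : ℝ) ^ q * (12 * ((4 : ℝ) ^ (m + 1) * (1 / 2 * P))) := by
        calc _ = ((1 / 2 : ℝ) ^ (m + 1) * (8 : ℝ) ^ (q + ((m + 1 : ℕ) : ℤ))) * (6 * P) := by ring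
          _ = _ := by rw [e8]; ring
      rw [e1]
      have e5 : (4 : ℝ) ^ m * SU = (4 : ℝ) ^ (m + 1) * (1 / 4 * SU) := by
        rw [pow_succ]; ring
      rw [e5, ← mul_add]
      refine mul_le_mul_of_nonneg_left ?_ h8.le
      have hU2 : 1 / 4 * SU + 1 / 2 * P ≤ U1 := hU
      have := mul_le_mul_of_nonneg_left hU2 h4.le
      linarith [this]
    rw [TV_cons]
    calc (1 / 2 : ℝ) ^ (m + 1) * |NN (ZZ (V m)) F0 F1 F2| +
          ∑ a : Bool, ∑ b : Bool, TV m (blk a b F0) (blk b (xor a b) F1) (blk (xor a b) a F2)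
        ≤ (1 / 2 : ℝ) ^ (m + 1) * (6 * ∑ q ∈ Finset.Ico (-(K : ℤ)) K,
            (8 : ℝ) ^ (q + ((m + 1 : ℕ) : ℤ)) *
            (ph (ZZ (V m)) F0 F2 ((4 : ℝ) ^ (-(q + ((m + 1 : ℕ) : ℤ)))) +
              ph (ZZ (V m)) F1 F0 ((4 : ℝ) ^ (-(q + ((m + 1 : ℕ) : ℤ)))) +
              ph (ZZ (V m)) F2 F1 ((4 : ℝ) ^ (-(q + ((m + 1 : ℕ) : ℤ))))) +
            er (ZZ (V m)) F0 F1 F2 (((m + 1 : ℕ) : ℤ) - K) (((m + 1 : ℕ) : ℤ) + K)) +
          (∑ q ∈ Finset.Ico (-(K : ℤ)) K, (8 : ℝ) ^ q * (12 *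
            ((4 : ℝ) ^ m * (∑ a : Bool, ∑ b : Bool,
              UU ((4 : ℝ) ^ (-(q + m))) (blk a b F0) (blk b (xor a b) F1) (blk (xor a b) a F2)) -
              LS (m + 1) (leaf q) F0 F1 F2)) +
          ∑ a : Bool, ∑ b : Bool,
            ER m K (blk a b F0) (blk b (xor a b) F1) (blk (xor a b) a F2)) := by
          refine add_le_add (mul_le_mul_of_nonneg_left hb (by positivity)) ?_
          rw [← hsw]
          exact hih
      _ = (∑ q ∈ Finset.Ico (-(K : ℤ)) K, ((1 / 2 : ℝ) ^ (m + 1) *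
            (6 * ((8 : ℝ) ^ (q + ((m + 1 : ℕ) : ℤ)) *
            (ph (ZZ (V m)) F0 F2 ((4 : ℝ) ^ (-(q + ((m + 1 : ℕ) : ℤ)))) +
              ph (ZZ (V m)) F1 F0 ((4 : ℝ) ^ (-(q + ((m + 1 : ℕ) : ℤ)))) +
              ph (ZZ (V m)) F2 F1 ((4 : ℝ) ^ (-(q + ((m + 1 : ℕ) : ℤ))))))) +
            (8 : ℝ) ^ q * (12 * ((4 : ℝ) ^ m * (∑ a : Bool, ∑ b : Bool,
              UU ((4 : ℝ) ^ (-(q + m))) (blk a b F0) (blk b (xor a b) F1) (blk (xor a b) a F2)) -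
              LS (m + 1) (leaf q) F0 F1 F2)))) +
          ER (m + 1) K F0 F1 F2 := by
          rw [ER, Finset.sum_add_distrib, mul_add, Finset.mul_sum, Finset.mul_sum]
          ring
      _ ≤ _ := by
          refine add_le_add (Finset.sum_le_sum fun q _ => ?_) le_rfl
          exact hstep q

end Tri
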