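import Vale.Agent.Tri.Approx

/-!
# P075 / Tri / Final: the final theorem
-/

namespace Tri

open MeasureTheory Matrix

/-! ## support and summability -/

theorem LI_eq_zero {F0 F1 F2 : ℝ × ℝ → ℝ} {k : ℤ}
    (s0 : ∀ p : ℝ × ℝ, F0 p ≠ 0 → p.1 < (2 : ℝ) ^ k ∧ p.2 < (2 : ℝ) ^ k)
    (j n0 n1 n2 : ℕ) (h : 2 ^ j ≤ n0 ∨ 2 ^ j ≤ n1) :
    LI F0 F1 F2 (k - j) n0 n1 n2 = 0 := by
  have key : ∀ n : ℕ, 2 ^ j ≤ n → ∀ x ∈ DI (k - j) n, (2 : ℝ) ^ k ≤ x := by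
    intro n hn x hx
    have h1 : (2 : ℝ) ^ (k - j) * n ≤ x := hx.1
    have h2 : (2 : ℝ) ^ k = (2 : ℝ) ^ (k - j) * 2 ^ j := by
      rw [zpow_sub₀ (by norm_num), zpow_natCast]
      field_simp
    have h3 : ((2 ^ j : ℕ) : ℝ) ≤ n := by exact_mod_cast hn
    push_cast at h3
    rw [h2]
    refine le_trans ?_ h1
    exact mul_le_mul_of_nonneg_left h3 (by positivity)
  unfold LI
  rw [setIntegral_eq_zero_of_forall_eq_zero, mul_zero]
  rintro ⟨x, y, z⟩ ⟨hx, hy, _⟩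
  have hF : F0 (x, y) = 0 := by
    by_contra hne
    have h1 := s0 (x, y) hne
    rcases h with h | h
    · exact absurd (key n0 h x hx) (not_le.2 h1.1)
    · exact absurd (key n1 h y hy) (not_le.2 h1.2)
  simp only [hF, zero_mul]

/-- the index set `AA` is parametrised by the first two indices -/
def eAA : ℕ × ℕ ≃ AA where
  toFun p := ⟨(p.1, p.2, p.1 ^^^ p.2), by
    show p.1 ^^^ p.2 ^^^ (p.1 ^^^ p.2) = 0
    exact Nat.xor_self _⟩
  invFun n := (n.1.1, n.1.2.1)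
  left_inv p := rfl
  right_inv n := by
    obtain ⟨⟨a, b, c⟩, h⟩ := n
    have h' : a ^^^ b ^^^ c = 0 := h
    have : a ^^^ b = c := Nat.xor_eq_zero_iff.1 h'
    subst this
    rfl

theorem AA_sum {F0 F1 F2 : ℝ × ℝ → ℝ} {k : ℤ}
    (s0 : ∀ p : ℝ × ℝ, F0 p ≠ 0 → p.1 < (2 : ℝ) ^ k ∧ p.2 < (2 : ℝ) ^ k) (j : ℕ) :
    HasSum (fun n : AA => |LI F0 F1 F2 (k - j) n.1.1 n.1.2.1 n.1.2.2|)
      (∑ n0 ∈ Finset.range (2 ^ j), ∑ n1 ∈ Finset.range (2 ^ j),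
        |LI F0 F1 F2 (k - j) n0 n1 (n0 ^^^ n1)|) := by
  rw [← Finset.sum_product']
  rw [← eAA.hasSum_iff]
  refine hasSum_sum_of_ne_finset_zero ?_
  rintro ⟨a, b⟩ hab
  have h : 2 ^ j ≤ a ∨ 2 ^ j ≤ b := by
    by_contra hcon
    push Not at hcon
    exact hab (by simp [hcon.1, hcon.2])
  show |LI F0 F1 F2 (k - j) a b (a ^^^ b)| = 0
  rw [LI_eq_zero s0 j a b _ h, abs_zero]

theorem exists_supp_bound {F : ℝ × ℝ → ℝ} (c : HasCompactSupport F) :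
    ∃ n : ℕ, ∀ p : ℝ × ℝ, F p ≠ 0 → p.1 < (2 : ℝ) ^ n ∧ p.2 < (2 : ℝ) ^ n := by
  obtain ⟨R, hR⟩ := c.isCompact.isBounded.subset_closedBall 0
  obtain ⟨n, hn⟩ := pow_unbounded_of_one_lt R (by norm_num : (1 : ℝ) < 2)
  refine ⟨n, fun p hp => ?_⟩
  have h1 : p ∈ Metric.closedBall (0 : ℝ × ℝ) R := hR (subset_tsupport F hp)
  rw [mem_closedBall_zero_iff] at h1
  have h2 : ‖p.1‖ ≤ ‖p‖ := norm_fst_le p
  have h3 : ‖p.2‖ ≤ ‖p‖ := norm_snd_le p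
  have h4 := le_abs_self p.1
  have h5 := le_abs_self p.2
  simp only [Real.norm_eq_abs] at h2 h3
  constructor <;> linarith

theorem integrable_cube {F : ℝ × ℝ → ℝ} (h : Measurable F) {B : ℝ} (b : ∀ p, |F p| ≤ B)
    (c : HasCompactSupport F) : Integrable fun p => |F p| ^ 3 := by
  have hK : volume (tsupport F) < ⊤ := c.isCompact.measure_lt_top
  have hon : IntegrableOn (fun p => |F p| ^ 3) (tsupport F) := by
    refine Measure.integrableOn_of_bounded (M := B ^ 3) hK.ne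
      ((h.norm.pow_const 3).aestronglyMeasurable) ?_
    refine ae_of_all _ fun p => ?_
    rw [Real.norm_eq_abs, abs_of_nonneg (by positivity)]
    exact pow_le_pow_left₀ (abs_nonneg _) (b p) 3
  refine (integrableOn_iff_integrable_of_support_subset ?_).1 hon
  intro p hp
  apply subset_tsupport F
  intro h0
  exact hp (by simp [h0])

theorem DI_zero_subset (k : ℤ) : DI k 0 ⊆ Set.Ici (0 : ℝ) := by
  intro x hx
  have : (2 : ℝ) ^ k * ((0 : ℕ) : ℝ) ≤ x := hx.1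
  simpa using this

theorem cube_mono {F : ℝ × ℝ → ℝ} (h : Measurable F) {B : ℝ} (b : ∀ p, |F p| ≤ B)
    (c : HasCompactSupport F) (k : ℤ) :
    ∫ p in DI k 0 ×ˢ DI k 0, |F p| ^ 3 ≤ ∫ p in Set.Ici 0 ×ˢ Set.Ici 0, |F p| ^ 3 := by
  refine setIntegral_mono_set (integrable_cube h b c).integrableOn
    (ae_of_all _ fun p => by positivity) ?_
  exact (Set.prod_mono (DI_zero_subset k) (DI_zero_subset k)).eventuallyLE

/-- for bounded, compactly supported, measurable functions: absolute summability over all scales and all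
triples (`S` any finite set of scales), sum-of-cubes form. Choose `k ≥ max S` with the supports in
`(-∞, 2^k)^2`, `d > k - min S`; `A_k ≃ ℕ × ℕ` by `(n0, n1) ↦ (n0, n1, n0 ^^^ n1)`. -/
theorem sum_bound {F0 F1 F2 : ℝ × ℝ → ℝ} (h0 : Measurable F0) (h1 : Measurable F1)
    (h2 : Measurable F2) {B : ℝ} (b0 : ∀ p, |F0 p| ≤ B) (b1 : ∀ p, |F1 p| ≤ B)
    (b2 : ∀ p, |F2 p| ≤ B) (c0 : HasCompactSupport F0) (c1 : HasCompactSupport F1)
    (c2 : HasCompactSupport F2) (S : Finset ℤ) :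
    (∀ k, Summable fun n : AA => |LI F0 F1 F2 k n.1.1 n.1.2.1 n.1.2.2|) ∧
    ∑ k ∈ S, ∑' n : AA, |LI F0 F1 F2 k n.1.1 n.1.2.1 n.1.2.2| ≤
      288 * ((∫ p in Set.Ici 0 ×ˢ Set.Ici 0, |F0 p| ^ 3) + (∫ p in Set.Ici 0 ×ˢ Set.Ici 0, |F1 p| ^ 3) +
        ∫ p in Set.Ici 0 ×ˢ Set.Ici 0, |F2 p| ^ 3) := by
  obtain ⟨n1, hn1⟩ := exists_supp_bound c0
  -- the support bound for every larger scale
  have supp : ∀ k : ℤ, (n1 : ℤ) ≤ k →
      ∀ p : ℝ × ℝ, F0 p ≠ 0 → p.1 < (2 : ℝ) ^ k ∧ p.2 < (2 : ℝ) ^ k := by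
    intro k hk p hp
    have h := hn1 p hp
    have h' : (2 : ℝ) ^ n1 ≤ (2 : ℝ) ^ k := by
      rw [← zpow_natCast]
      exact zpow_le_zpow_right₀ (by norm_num) hk
    exact ⟨h.1.trans_le h', h.2.trans_le h'⟩
  -- for a scale `s ≤ k`
  have key : ∀ k : ℤ, (n1 : ℤ) ≤ k → ∀ s : ℤ, s ≤ k →
      HasSum (fun n : AA => |LI F0 F1 F2 s n.1.1 n.1.2.1 n.1.2.2|)
      (∑ n0 ∈ Finset.range (2 ^ (k - s).toNat), ∑ n1 ∈ Finset.range (2 ^ (k - s).toNat),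
        |LI F0 F1 F2 (k - (k - s).toNat) n0 n1 (n0 ^^^ n1)|) := by
    intro k hk s hs
    have h := AA_sum (F1 := F1) (F2 := F2) (supp k hk) (k - s).toNat
    have hcast : k - ((k - s).toNat : ℤ) = s := by
      rw [Int.toNat_of_nonneg (by omega)]
      ring
    rw [hcast] at h ⊢
    exact h
  refine ⟨fun s => ?_, ?_⟩
  · exact (key (max n1 s) (le_max_left _ _) s (le_max_right _ _)).summable
  · obtain ⟨N, hN⟩ : ∃ N : ℕ, ∀ s ∈ S, s ≤ (N : ℤ) := by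
      refine ⟨∑ s ∈ S, s.natAbs, fun s hs => ?_⟩
      have h1 : s.natAbs ≤ ∑ s ∈ S, s.natAbs :=
        Finset.single_le_sum (f := fun s : ℤ => s.natAbs) (fun _ _ => Nat.zero_le _) hs
      omega
    obtain ⟨k, hk⟩ : ∃ k : ℤ, k = max (n1 : ℤ) (N : ℤ) := ⟨_, rfl⟩
    have hk1 : (n1 : ℤ) ≤ k := by rw [hk]; exact le_max_left _ _
    have hkS : ∀ s ∈ S, s ≤ k := fun s hs => (hN s hs).trans (by rw [hk]; exact le_max_right _ _)
    obtain ⟨d, hd⟩ : ∃ d : ℕ, ∀ s ∈ S, (k - s).toNat < d := by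
      refine ⟨∑ s ∈ S, (k - s).toNat + 1, fun s hs => ?_⟩
      have h1 : (k - s).toNat ≤ ∑ s ∈ S, (k - s).toNat :=
        Finset.single_le_sum (f := fun s : ℤ => (k - s).toNat) (fun _ _ => Nat.zero_le _) hs
      omega
    calc ∑ s ∈ S, ∑' n : AA, |LI F0 F1 F2 s n.1.1 n.1.2.1 n.1.2.2|
        = ∑ s ∈ S, (fun j : ℕ => ∑ n0 ∈ Finset.range (2 ^ j), ∑ n1 ∈ Finset.range (2 ^ j),
            |LI F0 F1 F2 (k - j) n0 n1 (n0 ^^^ n1)|) (k - s).toNat := by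
          refine Finset.sum_congr rfl fun s hs => ?_
          exact (key k hk1 s (hkS s hs)).tsum_eq
      _ = ∑ j ∈ S.image (fun s => (k - s).toNat), (fun j : ℕ =>
            ∑ n0 ∈ Finset.range (2 ^ j), ∑ n1 ∈ Finset.range (2 ^ j),
            |LI F0 F1 F2 (k - j) n0 n1 (n0 ^^^ n1)|) j := by
          have hinj : Set.InjOn (fun s : ℤ => (k - s).toNat) (S : Set ℤ) := by
            intro a ha b hb hab
            have h1 := hkS a ha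
            have h2 := hkS b hb
            simp only at hab
            omega
          rw [Finset.sum_image hinj]
      _ ≤ ∑ j ∈ Finset.range d, (fun j : ℕ =>
            ∑ n0 ∈ Finset.range (2 ^ j), ∑ n1 ∈ Finset.range (2 ^ j),
            |LI F0 F1 F2 (k - j) n0 n1 (n0 ^^^ n1)|) j := by
          refine Finset.sum_le_sum_of_subset_of_nonneg ?_ ?_
          · intro j hj
            obtain ⟨s, hs, rfl⟩ := Finset.mem_image.1 hj
            exact Finset.mem_range.2 (hd s hs)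
          · intro j _ _
            exact Finset.sum_nonneg fun _ _ => Finset.sum_nonneg fun _ _ => abs_nonneg _
      _ ≤ 288 * ((∫ p in DI k 0 ×ˢ DI k 0, |F0 p| ^ 3) +
            (∫ p in DI k 0 ×ˢ DI k 0, |F1 p| ^ 3) + ∫ p in DI k 0 ×ˢ DI k 0, |F2 p| ^ 3) :=
          bdd_bound d k h0 h1 h2 b0 b1 b2
      _ ≤ _ := by
          have e0 := cube_mono h0 b0 c0 k
          have e1 := cube_mono h1 b1 c1 k
          have e2 := cube_mono h2 b2 c2 k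
          linarith

/-! ## homogeneity -/

theorem LI_smul (l0 l1 l2 : ℝ) (F0 F1 F2 : ℝ × ℝ → ℝ) (k : ℤ) (n0 n1 n2 : ℕ) :
    LI (fun p => l0 * F0 p) (fun p => l1 * F1 p) (fun p => l2 * F2 p) k n0 n1 n2 =
      l0 * l1 * l2 * LI F0 F1 F2 k n0 n1 n2 := by
  unfold LI
  have : ∀ x : ℝ × ℝ × ℝ, l0 * F0 (x.1, x.2.1) * (l1 * F1 (x.2.1, x.2.2)) *
      (l2 * F2 (x.2.2, x.1)) * (haar k n0 x.1 * haar k n1 x.2.1 * haar k n2 x.2.2) =
      (l0 * l1 * l2) * (F0 (x.1, x.2.1) * F1 (x.2.1, x.2.2) * F2 (x.2.2, x.1) *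
        (haar k n0 x.1 * haar k n1 x.2.1 * haar k n2 x.2.2)) := by
    intro x
    ring
  simp only [this]
  rw [integral_const_mul]
  ring

theorem cube_smul {l : ℝ} (hl : 0 < l) (F : ℝ × ℝ → ℝ) :
    ∫ p in Set.Ici 0 ×ˢ Set.Ici 0, |l * F p| ^ 3 =
      l ^ 3 * ∫ p in Set.Ici 0 ×ˢ Set.Ici 0, |F p| ^ 3 := by
  rw [← integral_const_mul]
  congr 1
  ext p
  rw [abs_mul, mul_pow, abs_of_pos hl]

/-- homogeneity: replace `F_v` by `λ_v F_v`, `λ_0 λ_1 λ_2 = 1` -/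
theorem sum_bound_prod {F0 F1 F2 : ℝ × ℝ → ℝ} (h0 : Measurable F0) (h1 : Measurable F1)
    (h2 : Measurable F2) {B : ℝ} (b0 : ∀ p, |F0 p| ≤ B) (b1 : ∀ p, |F1 p| ≤ B)
    (b2 : ∀ p, |F2 p| ≤ B) (c0 : HasCompactSupport F0) (c1 : HasCompactSupport F1)
    (c2 : HasCompactSupport F2) (S : Finset ℤ) :
    ∑ k ∈ S, ∑' n : AA, |LI F0 F1 F2 k n.1.1 n.1.2.1 n.1.2.2| ≤
      864 * ((∫ p in Set.Ici 0 ×ˢ Set.Ici 0, |F0 p| ^ 3) ^ (1 / 3 : ℝ) *
        (∫ p in Set.Ici 0 ×ˢ Set.Ici 0, |F1 p| ^ 3) ^ (1 / 3 : ℝ) *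
        (∫ p in Set.Ici 0 ×ˢ Set.Ici 0, |F2 p| ^ 3) ^ (1 / 3 : ℝ)) := by
  have hB : 0 ≤ B := (abs_nonneg _).trans (b0 (0, 0))
  -- the scaled inequality
  have scaled : ∀ l0 l1 l2 : ℝ, 0 < l0 → 0 < l1 → 0 < l2 → l0 * l1 * l2 = 1 →
      ∑ k ∈ S, ∑' n : AA, |LI F0 F1 F2 k n.1.1 n.1.2.1 n.1.2.2| ≤
      288 * (l0 ^ 3 * (∫ p in Set.Ici 0 ×ˢ Set.Ici 0, |F0 p| ^ 3) +
        l1 ^ 3 * (∫ p in Set.Ici 0 ×ˢ Set.Ici 0, |F1 p| ^ 3) +
        l2 ^ 3 * ∫ p in Set.Ici 0 ×ˢ Set.Ici 0, |F2 p| ^ 3) := by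
    intro l0 l1 l2 p0 p1 p2 hl
    have hb : ∀ (l : ℝ) (F : ℝ × ℝ → ℝ), 0 < l → l ≤ l0 + l1 + l2 → (∀ p, |F p| ≤ B) →
        ∀ p, |l * F p| ≤ (l0 + l1 + l2) * B := by
      intro l F hl0 hl1 hF p
      rw [abs_mul, abs_of_pos hl0]
      exact mul_le_mul hl1 (hF p) (abs_nonneg _) (by positivity)
    have h := (sum_bound (F0 := fun p => l0 * F0 p) (F1 := fun p => l1 * F1 p)
      (F2 := fun p => l2 * F2 p) (h0.const_mul l0) (h1.const_mul l1) (h2.const_mul l2)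
      (hb l0 F0 p0 (by linarith) b0) (hb l1 F1 p1 (by linarith) b1)
      (hb l2 F2 p2 (by linarith) b2) (c0.mul_left) (c1.mul_left) (c2.mul_left) S).2
    simp only [LI_smul, hl, one_mul] at h
    rw [cube_smul p0, cube_smul p1, cube_smul p2] at h
    exact h
  set I0 := ∫ p in Set.Ici 0 ×ˢ Set.Ici 0, |F0 p| ^ 3 with hI0
  set I1 := ∫ p in Set.Ici 0 ×ˢ Set.Ici 0, |F1 p| ^ 3 with hI1
  set I2 := ∫ p in Set.Ici 0 ×ˢ Set.Ici 0, |F2 p| ^ 3 with hI2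
  have i0 : 0 ≤ I0 := integral_nonneg fun p => by positivity
  have i1 : 0 ≤ I1 := integral_nonneg fun p => by positivity
  have i2 : 0 ≤ I2 := integral_nonneg fun p => by positivity
  set a0 := I0 ^ (1 / 3 : ℝ) with ha0
  set a1 := I1 ^ (1 / 3 : ℝ) with ha1
  set a2 := I2 ^ (1 / 3 : ℝ) with ha2
  have n0 : 0 ≤ a0 := Real.rpow_nonneg i0 _
  have n1 : 0 ≤ a1 := Real.rpow_nonneg i1 _
  have n2 : 0 ≤ a2 := Real.rpow_nonneg i2 _
  have cub : ∀ I : ℝ, 0 ≤ I → (I ^ (1 / 3 : ℝ)) ^ 3 = I := by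
    intro I hI
    rw [← Real.rpow_natCast, ← Real.rpow_mul hI]
    norm_num
  have k0 : I0 = a0 ^ 3 := (cub I0 i0).symm
  have k1 : I1 = a1 ^ 3 := (cub I1 i1).symm
  have k2 : I2 = a2 ^ 3 := (cub I2 i2).symm
  set X := ∑ k ∈ S, ∑' n : AA, |LI F0 F1 F2 k n.1.1 n.1.2.1 n.1.2.2| with hX
  -- the bound with `a_v + e`
  have step : ∀ e : ℝ, 0 < e → X ≤ 864 * ((a0 + e) * (a1 + e) * (a2 + e)) := by
    intro e he
    have q0 : 0 < a0 + e := by linarith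
    have q1 : 0 < a1 + e := by linarith
    have q2 : 0 < a2 + e := by linarith
    set P := (a0 + e) * (a1 + e) * (a2 + e) with hP
    have hPpos : 0 < P := by positivity
    set r := P ^ (1 / 3 : ℝ) with hr
    have hrpos : 0 < r := Real.rpow_pos_of_pos hPpos _
    have hr3 : r ^ 3 = P := cub P hPpos.le
    have h := scaled (r / (a0 + e)) (r / (a1 + e)) (r / (a2 + e)) (by positivity) (by positivity)
      (by positivity) (by
        have : r / (a0 + e) * (r / (a1 + e)) * (r / (a2 + e)) = r ^ 3 / P := by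
          rw [hP]
          field_simp
        rw [this, hr3, div_self hPpos.ne'])
    have term : ∀ a : ℝ, 0 ≤ a → (r / (a + e)) ^ 3 * a ^ 3 ≤ P := by
      intro a ha
      have hq : 0 < a + e := by linarith
      rw [div_pow, hr3]
      have h1 : a ^ 3 ≤ (a + e) ^ 3 := pow_le_pow_left₀ ha (by linarith) 3
      calc P / (a + e) ^ 3 * a ^ 3 ≤ P / (a + e) ^ 3 * (a + e) ^ 3 := by gcongr
        _ = P := by field_simp
    rw [k0, k1, k2] at h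
    have t0 := term a0 n0
    have t1 := term a1 n1
    have t2 := term a2 n2
    linarith
  -- the limit `e → 0`
  have hlim : Filter.Tendsto (fun e : ℝ => 864 * ((a0 + e) * (a1 + e) * (a2 + e)))
      (nhdsWithin 0 (Set.Ioi 0)) (nhds (864 * (a0 * a1 * a2))) := by
    have hc : Continuous fun e : ℝ => 864 * ((a0 + e) * (a1 + e) * (a2 + e)) := by fun_prop
    have h := hc.tendsto 0
    simp only [add_zero] at h
    exact h.mono_left nhdsWithin_le_nhds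
  refine ge_of_tendsto hlim ?_
  filter_upwards [self_mem_nhdsWithin] with e he
  exact step e he

/-- Q2 -/
theorem main (S : Finset ℤ) (ε : ℤ → ℝ) (hε : ∀ k, |ε k| ≤ 1) {F0 F1 F2 : ℝ × ℝ → ℝ}
    (h0 : Measurable F0) (h1 : Measurable F1)
    (h2 : Measurable F2) {B : ℝ} (b0 : ∀ p, |F0 p| ≤ B) (b1 : ∀ p, |F1 p| ≤ B)
    (b2 : ∀ p, |F2 p| ≤ B) (c0 : HasCompactSupport F0) (c1 : HasCompactSupport F1)
    (c2 : HasCompactSupport F2) :
    |Lam S ε F0 F1 F2| ≤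
      864 * ((∫ p in Set.Ici 0 ×ˢ Set.Ici 0, |F0 p| ^ 3) ^ (1 / 3 : ℝ) *
        (∫ p in Set.Ici 0 ×ˢ Set.Ici 0, |F1 p| ^ 3) ^ (1 / 3 : ℝ) *
        (∫ p in Set.Ici 0 ×ˢ Set.Ici 0, |F2 p| ^ 3) ^ (1 / 3 : ℝ)) := by
  refine le_trans ?_ (sum_bound_prod h0 h1 h2 b0 b1 b2 c0 c1 c2 S)
  have hs := (sum_bound h0 h1 h2 b0 b1 b2 c0 c1 c2 S).1
  unfold Lam
  refine (Finset.abs_sum_le_sum_abs _ _).trans (Finset.sum_le_sum fun k _ => ?_)
  rw [abs_mul]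
  have h3 : |∑' n : AA, LI F0 F1 F2 k n.1.1 n.1.2.1 n.1.2.2| ≤
      ∑' n : AA, |LI F0 F1 F2 k n.1.1 n.1.2.1 n.1.2.2| := by
    have := norm_tsum_le_tsum_norm (f := fun n : AA => LI F0 F1 F2 k n.1.1 n.1.2.1 n.1.2.2)
      (by simpa only [Real.norm_eq_abs] using hs k)
    simpa only [Real.norm_eq_abs] using this
  calc |ε k| * |∑' n : AA, LI F0 F1 F2 k n.1.1 n.1.2.1 n.1.2.2|
      ≤ 1 * ∑' n : AA, |LI F0 F1 F2 k n.1.1 n.1.2.1 n.1.2.2| :=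
        mul_le_mul (hε k) h3 (abs_nonneg _) zero_le_one
    _ = _ := one_mul _

end Tri
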