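import Mathlib

/-!
# P075 / Tri / Form: the dyadic triangular form of Q2 (definitions of the final statement)
-/

namespace Tri

open MeasureTheory

/-- the dyadic interval `[2^k n, 2^k (n+1))` -/
def DI (k : ℤ) (n : ℕ) : Set ℝ := Set.Ico ((2 : ℝ) ^ k * n) ((2 : ℝ) ^ k * (n + 1))

/-- the left half `[2^k n, 2^k (n + 1/2))` -/
def DL (k : ℤ) (n : ℕ) : Set ℝ := Set.Ico ((2 : ℝ) ^ k * n) ((2 : ℝ) ^ k * (n + 1 / 2))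

/-- the right half `[2^k (n + 1/2), 2^k (n + 1))` -/
def DR (k : ℤ) (n : ℕ) : Set ℝ := Set.Ico ((2 : ℝ) ^ k * (n + 1 / 2)) ((2 : ℝ) ^ k * (n + 1))

/-- `h_I = 1_{left} - 1_{right}` -/
noncomputable def haar (k : ℤ) (n : ℕ) (x : ℝ) : ℝ :=
  (DL k n).indicator (fun _ => (1 : ℝ)) x - (DR k n).indicator (fun _ => (1 : ℝ)) x

/-- `L_I (F_0, F_1, F_2)` for the triple `I` of dyadic intervals of length `2^k` with indices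
`n0, n1, n2`; the integration variable is `x = (x_0, x_1, x_2)` -/
noncomputable def LI (F0 F1 F2 : ℝ × ℝ → ℝ) (k : ℤ) (n0 n1 n2 : ℕ) : ℝ :=
  (2 : ℝ) ^ (-k) * ∫ x : ℝ × ℝ × ℝ in DI k n0 ×ˢ DI k n1 ×ˢ DI k n2,
    F0 (x.1, x.2.1) * F1 (x.2.1, x.2.2) * F2 (x.2.2, x.1) *
      (haar k n0 x.1 * haar k n1 x.2.1 * haar k n2 x.2.2)

/-- the index triples with `n_0 ⊕ n_1 ⊕ n_2 = 0` (bitwise exclusive or) -/
def AA : Set (ℕ × ℕ × ℕ) := {n | n.1 ^^^ n.2.1 ^^^ n.2.2 = 0}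

/-- the dyadic triangular form `Λ^d_{S,ε}` -/
noncomputable def Lam (S : Finset ℤ) (ε : ℤ → ℝ) (F0 F1 F2 : ℝ × ℝ → ℝ) : ℝ :=
  ∑ k ∈ S, ε k * ∑' n : AA, LI F0 F1 F2 k n.1.1 n.1.2.1 n.1.2.2

end Tri
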