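import Vale.Agent.Tri.Defs

/-!
# P075 / Tri / LA: log det and resolvent inequalities for positive semidefinite real matrices
-/

namespace Tri

set_option linter.unusedSectionVars false

open Matrix

variable {n r : Type*} [Fintype n] [DecidableEq n] [Fintype r] [DecidableEq r]

/-- `Π λ_i ≤ exp (Σ (λ_i - 1))`: `IsHermitian.det_eq_prod_eigenvalues`, `trace_eq_sum_eigenvalues`,
`Real.log_le_sub_one_of_pos` -/
theorem logdet_le_trace {T : Matrix n n ℝ} (hT : T.PosDef) :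
    Real.log T.det ≤ T.trace - Fintype.card n := by
  have hdet := hT.isHermitian.det_eq_prod_eigenvalues
  have htr := hT.isHermitian.trace_eq_sum_eigenvalues
  simp only [RCLike.ofReal_real_eq_id, id] at hdet htr
  rw [hdet, htr, Real.log_prod (fun i _ => (hT.eigenvalues_pos i).ne')]
  have h : ∑ i, Real.log (hT.isHermitian.eigenvalues i) ≤
      ∑ i, (hT.isHermitian.eigenvalues i - 1) :=
    Finset.sum_le_sum fun i _ => Real.log_le_sub_one_of_pos (hT.eigenvalues_pos i)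
  refine h.trans (le_of_eq ?_)
  simp [Finset.sum_sub_distrib, Finset.card_univ]

theorem psd_factor {A : Matrix n n ℝ} (hA : A.PosSemidef) : ∃ B : Matrix n n ℝ, A = Bᵀ * B := by
  open scoped MatrixOrder in
  obtain ⟨B, hB⟩ := CStarAlgebra.nonneg_iff_eq_star_mul_self.mp hA.nonneg
  exact ⟨B, by rw [hB, star_eq_conjTranspose, conjTranspose_eq_transpose_of_trivial]⟩

theorem psd_mul_transpose (B : Matrix n r ℝ) : (B * Bᵀ).PosSemidef := by
  have := posSemidef_self_mul_conjTranspose B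
  rwa [conjTranspose_eq_transpose_of_trivial] at this

theorem psd_transpose_mul (B : Matrix n r ℝ) : (Bᵀ * B).PosSemidef := by
  have := posSemidef_conjTranspose_mul_self B
  rwa [conjTranspose_eq_transpose_of_trivial] at this

theorem psd_conj {A : Matrix n n ℝ} (hA : A.PosSemidef) (B : Matrix r n ℝ) :
    (B * A * Bᵀ).PosSemidef := by
  have := hA.mul_mul_conjTranspose_same B
  rwa [conjTranspose_eq_transpose_of_trivial] at this

theorem psd_symm {A : Matrix n n ℝ} (hA : A.PosSemidef) : Aᵀ = A := by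
  have := hA.isHermitian.eq
  rwa [conjTranspose_eq_transpose_of_trivial] at this

theorem pd_det {A : Matrix n n ℝ} (hA : A.PosDef) : IsUnit A.det := by
  rw [isUnit_iff_ne_zero]
  exact hA.det_pos.ne'

/-- tangent inequality (concavity of log det). Write `Y = Bᵀ B` with `B` invertible
(`Matrix.posDef_iff_eq_conjTranspose_mul_self` or the like), apply `logdet_le_trace` to
`B⁻ᵀ X B⁻¹`. -/
theorem logdet_tangent {X Y : Matrix n n ℝ} (hX : X.PosDef) (hY : Y.PosDef) :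
    Real.log X.det ≤ Real.log Y.det + (Y⁻¹ * (X - Y)).trace := by
  obtain ⟨B, hB⟩ := psd_factor hY.posSemidef
  have hYd : Y.det = B.det ^ 2 := by rw [hB, det_mul, det_transpose]; ring
  have hBd : B.det ≠ 0 := by
    intro h
    have := hY.det_pos
    rw [hYd, h] at this
    simp at this
  have hBu : IsUnit B.det := isUnit_iff_ne_zero.2 hBd
  have hBun : IsUnit B := (Matrix.isUnit_iff_isUnit_det B).2 hBu
  have hiB : B⁻¹ * B = 1 := nonsing_inv_mul B hBu
  have hBi : B * B⁻¹ = 1 := mul_nonsing_inv B hBu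
  have hinj : Function.Injective (B⁻¹).mulVec :=
    Matrix.mulVec_injective_iff_isUnit.2 (isUnit_nonsing_inv_iff.2 hBun)
  have hT : ((B⁻¹)ᵀ * X * B⁻¹).PosDef := by
    have := hX.conjTranspose_mul_mul_same hinj
    rwa [conjTranspose_eq_transpose_of_trivial] at this
  have h := logdet_le_trace hT
  have hd : ((B⁻¹)ᵀ * X * B⁻¹).det = X.det / Y.det := by
    rw [det_mul, det_mul, det_transpose, hYd, det_nonsing_inv, Ring.inverse_eq_inv']
    field_simp
  rw [hd, Real.log_div hX.det_pos.ne' hY.det_pos.ne'] at h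
  have hYi : Y⁻¹ = B⁻¹ * (B⁻¹)ᵀ := by
    rw [hB, Matrix.mul_inv_rev, transpose_nonsing_inv]
  have htr : ((B⁻¹)ᵀ * X * B⁻¹).trace = (Y⁻¹ * X).trace := by
    rw [hYi, trace_mul_comm, ← Matrix.mul_assoc]
  have hYY : Y⁻¹ * Y = 1 := nonsing_inv_mul Y (pd_det hY)
  rw [Matrix.mul_sub, trace_sub, hYY, trace_one, ← htr]
  linarith

theorem posDef_one_add {A : Matrix n n ℝ} (hA : A.PosSemidef) : (1 + A).PosDef :=
  PosDef.one.add_posSemidef hA

/-- midpoint concavity: `1 + A + B = ((1 + 2A) + (1 + 2B)) / 2` and the tangent inequality at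
`1 + A + B` twice -/
theorem LL_add_ge {A B : Matrix n n ℝ} (hA : A.PosSemidef) (hB : B.PosSemidef) :
    (1 / 2 : ℝ) * (LL ((2 : ℝ) • A) + LL ((2 : ℝ) • B)) ≤ LL (A + B) := by
  have h2 : (0 : ℝ) ≤ 2 := by norm_num
  have hY := posDef_one_add (hA.add hB)
  have h1 := logdet_tangent (posDef_one_add (hA.smul h2)) hY
  have h3 := logdet_tangent (posDef_one_add (hB.smul h2)) hY
  have e1 : 1 + (2 : ℝ) • A - (1 + (A + B)) = A - B := by rw [two_smul]; abel
  have e2 : 1 + (2 : ℝ) • B - (1 + (A + B)) = -(A - B) := by rw [two_smul]; abel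
  rw [e1] at h1
  rw [e2, Matrix.mul_neg, trace_neg] at h3
  unfold LL
  linarith

/-- `logdet_le_trace` for `1 + A` -/
theorem LL_le_trace {A : Matrix n n ℝ} (hA : A.PosSemidef) : LL A ≤ A.trace := by
  have := logdet_le_trace (posDef_one_add hA)
  rw [trace_add, trace_one] at this
  unfold LL
  linarith

/-- `gg A = 1 - (1+A)⁻¹` -/
theorem gg_eq {A : Matrix n n ℝ} (hA : A.PosSemidef) : gg A = 1 - (1 + A)⁻¹ := by
  have h := mul_nonsing_inv (1 + A) (pd_det (posDef_one_add hA))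
  unfold gg
  rw [Matrix.add_mul, Matrix.one_mul, add_comm] at h
  exact eq_sub_of_add_eq h

/-- push-through identity -/
theorem push_through (C : Matrix n r ℝ) :
    C * (1 + Cᵀ * C)⁻¹ * Cᵀ = gg (C * Cᵀ) := by
  have h1 : IsUnit (1 + Cᵀ * C).det := pd_det (posDef_one_add (psd_transpose_mul C))
  have h2 : IsUnit (1 + C * Cᵀ).det := pd_det (posDef_one_add (psd_mul_transpose C))
  have h3 : (1 + Cᵀ * C)⁻¹ * Cᵀ = Cᵀ * (1 + C * Cᵀ)⁻¹ := by
    have e : Cᵀ * (1 + C * Cᵀ) = (1 + Cᵀ * C) * Cᵀ := by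
      simp only [Matrix.mul_add, Matrix.add_mul, Matrix.mul_one, Matrix.one_mul, Matrix.mul_assoc]
    calc (1 + Cᵀ * C)⁻¹ * Cᵀ
        = (1 + Cᵀ * C)⁻¹ * (Cᵀ * (1 + C * Cᵀ)) * (1 + C * Cᵀ)⁻¹ := by
          rw [Matrix.mul_assoc, Matrix.mul_assoc, mul_nonsing_inv _ h2, Matrix.mul_one]
      _ = Cᵀ * (1 + C * Cᵀ)⁻¹ := by
          rw [e, ← Matrix.mul_assoc, nonsing_inv_mul _ h1, Matrix.one_mul]
  rw [Matrix.mul_assoc, h3, ← Matrix.mul_assoc]
  rfl

/-- GAIN. With `α = (1+A)⁻¹`: `det (1 + A + C Cᵀ) = det (1+A) det (1 + Cᵀ α C)`,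
`det (1 + C Cᵀ) = det (1 + Cᵀ C)` (`Matrix.det_one_add_mul_comm`); `logdet_tangent` with
`X = 1 + Cᵀ α C`, `Y = 1 + Cᵀ C`: difference `≤ tr ((1+CᵀC)⁻¹ Cᵀ (α - 1) C) = - tr (gg A * gg (C Cᵀ))`
since `α - 1 = - gg A` and `C (1 + Cᵀ C)⁻¹ Cᵀ = gg (C Cᵀ)`. -/
theorem LL_gain {A : Matrix n n ℝ} (hA : A.PosSemidef) (C : Matrix n r ℝ) :
    LL (A + C * Cᵀ) + (gg A * gg (C * Cᵀ)).trace ≤ LL A + LL (C * Cᵀ) := by
  have hP := posDef_one_add hA
  have hα := hP.inv
  have hX : (1 + Cᵀ * (1 + A)⁻¹ * C).PosDef := by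
    have := psd_conj hα.posSemidef Cᵀ
    rw [transpose_transpose] at this
    exact posDef_one_add this
  have hY : (1 + Cᵀ * C).PosDef := posDef_one_add (psd_transpose_mul C)
  have h := logdet_tangent hX hY
  have e1 : (1 + (A + C * Cᵀ)).det = (1 + A).det * (1 + Cᵀ * (1 + A)⁻¹ * C).det := by
    rw [← add_assoc, det_add_mul C Cᵀ (pd_det hP)]
  have e2 : (1 + C * Cᵀ).det = (1 + Cᵀ * C).det := det_one_add_mul_comm C Cᵀ
  have e3 : ((1 + Cᵀ * C)⁻¹ * (1 + Cᵀ * (1 + A)⁻¹ * C - (1 + Cᵀ * C))).trace =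
      -(gg A * gg (C * Cᵀ)).trace := by
    have e4 : 1 + Cᵀ * (1 + A)⁻¹ * C - (1 + Cᵀ * C) = -(Cᵀ * gg A * C) := by
      rw [gg_eq hA, Matrix.mul_sub, Matrix.sub_mul, Matrix.mul_one]
      abel
    rw [e4, Matrix.mul_neg, trace_neg, ← push_through C]
    congr 1
    calc ((1 + Cᵀ * C)⁻¹ * (Cᵀ * gg A * C)).trace
        = (((1 + Cᵀ * C)⁻¹ * Cᵀ) * (gg A * C)).trace := by simp only [Matrix.mul_assoc]
      _ = ((gg A * C) * ((1 + Cᵀ * C)⁻¹ * Cᵀ)).trace := trace_mul_comm _ _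
      _ = (gg A * (C * (1 + Cᵀ * C)⁻¹ * Cᵀ)).trace := by simp only [Matrix.mul_assoc]
  rw [e3] at h
  unfold LL
  rw [e1, e2, Real.log_mul hP.det_pos.ne' hX.det_pos.ne']
  linarith

theorem gg_posSemidef {A : Matrix n n ℝ} (hA : A.PosSemidef) : (gg A).PosSemidef := by
  have hP := posDef_one_add hA
  have hu := pd_det hP
  have h1 : ((1 + A)⁻¹ * (A + A * Aᵀ) * ((1 + A)⁻¹)ᵀ).PosSemidef :=
    psd_conj (hA.add (psd_mul_transpose A)) _
  have hs : ((1 + A)⁻¹)ᵀ = (1 + A)⁻¹ := psd_symm hP.inv.posSemidef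
  rw [hs, psd_symm hA] at h1
  have e : gg A = (1 + A)⁻¹ * (A + A * A) * (1 + A)⁻¹ := by
    have e1 : A + A * A = (1 + A) * A := by rw [Matrix.add_mul, Matrix.one_mul]
    rw [e1, ← Matrix.mul_assoc, nonsing_inv_mul _ hu, Matrix.one_mul]
    rfl
  rw [e]
  exact h1

/-- `gg` is operator monotone: `(1+B)⁻¹ ≤ (1+A)⁻¹` for `A ≤ B` -/
theorem gg_mono {A B : Matrix n n ℝ} (hA : A.PosSemidef) (hAB : (B - A).PosSemidef) :
    (gg B - gg A).PosSemidef := by
  have hB : B.PosSemidef := by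
    have := hA.add hAB
    rwa [add_sub_cancel] at this
  have hP := posDef_one_add hA
  have hQ := posDef_one_add hB
  have hPu := pd_det hP
  have hQu := pd_det hQ
  have hD : ((B - A) + (B - A) * (1 + A)⁻¹ * (B - A)ᵀ).PosSemidef :=
    hAB.add (psd_conj hP.inv.posSemidef _)
  have h1 := psd_conj hD (1 + B)⁻¹
  have hs : ((1 + B)⁻¹)ᵀ = (1 + B)⁻¹ := psd_symm hQ.inv.posSemidef
  rw [hs, psd_symm hAB] at h1
  have e : gg B - gg A = (1 + B)⁻¹ * ((B - A) + (B - A) * (1 + A)⁻¹ * (B - A)) * (1 + B)⁻¹ := by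
    rw [gg_eq hA, gg_eq hB]
    have e1 : (B - A) + (B - A) * (1 + A)⁻¹ * (B - A) = (B - A) * (1 + A)⁻¹ * (1 + B) := by
      have : (1 + B : Matrix n n ℝ) = (1 + A) + (B - A) := by abel
      rw [this, Matrix.mul_add, Matrix.mul_assoc (B - A) _ (1 + A), nonsing_inv_mul _ hPu,
        Matrix.mul_one]
    rw [e1, ← Matrix.mul_assoc, Matrix.mul_assoc _ (1 + B) _, mul_nonsing_inv _ hQu,
      Matrix.mul_one]
    have e2 : (B - A : Matrix n n ℝ) = (1 + B) - (1 + A) := by abel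
    rw [e2, Matrix.sub_mul, mul_nonsing_inv _ hPu, Matrix.mul_sub, ← Matrix.mul_assoc,
      nonsing_inv_mul _ hQu, Matrix.one_mul, Matrix.mul_one]
    abel
  rw [e]
  exact h1

theorem trace_mul_psd {P Q : Matrix n n ℝ} (hP : P.PosSemidef) (hQ : Q.PosSemidef) :
    0 ≤ (P * Q).trace := by
  obtain ⟨B, hB⟩ := psd_factor hP
  rw [hB, Matrix.mul_assoc, trace_mul_comm]
  exact (psd_conj hQ B).trace_nonneg

theorem trace_nonneg' {X Y H : Matrix n n ℝ} (hH : Hᵀ = H)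
    (hX : X.PosSemidef) (hY : Y.PosSemidef) : 0 ≤ (X * H * Y * H).trace := by
  have h1 : (H * Y * H).PosSemidef := by
    have := psd_conj hY H
    rwa [hH] at this
  have := trace_mul_psd hX h1
  simpa only [Matrix.mul_assoc] using this

/-- `tr (X H Y H) ≤ tr (X' H Y' H)` for `0 ≤ X ≤ X'`, `0 ≤ Y ≤ Y'`, `H` symmetric -/
theorem trace_mono {X X' Y Y' H : Matrix n n ℝ} (hH : Hᵀ = H)
    (hX : X.PosSemidef) (hXX : (X' - X).PosSemidef)
    (hY : Y.PosSemidef) (hYY : (Y' - Y).PosSemidef) :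
    (X * H * Y * H).trace ≤ (X' * H * Y' * H).trace := by
  have hX' : X'.PosSemidef := by
    have := hX.add hXX
    rwa [add_sub_cancel] at this
  have h1 := trace_nonneg' hH hXX hY
  have h2 := trace_nonneg' hH hX' hYY
  simp only [Matrix.sub_mul, Matrix.mul_sub, trace_sub] at h1 h2
  linarith

end Tri
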