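import Vale.Agent.Tri.StepDefs

/-!
# P075 / Tri / StepA: cells, integrals of step functions
-/

namespace Tri

open MeasureTheory Matrix

theorem cI_lt : ∀ (m : ℕ) (i : V m), cI m i < 2 ^ m
  | 0, _ => by simp [cI]
  | m + 1, (a, i) => by
    have h := cI_lt m i
    have e : cI (m + 1) (a, i) = (if a then 2 ^ m else 0) + cI m i := rfl
    rw [e, pow_succ]
    split_ifs <;> omega

theorem cI_inj : ∀ (m : ℕ), Function.Injective (cI m)
  | 0 => fun _ _ _ => rfl
  | m + 1 => by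
    rintro ⟨a, i⟩ ⟨b, j⟩ h
    have hi := cI_lt m i
    have hj := cI_lt m j
    have e1 : cI (m + 1) (a, i) = (if a then 2 ^ m else 0) + cI m i := rfl
    have e2 : cI (m + 1) (b, j) = (if b then 2 ^ m else 0) + cI m j := rfl
    rw [e1, e2] at h
    have hab : a = b := by
      cases a <;> cases b <;> simp at h ⊢ <;> omega
    subst hab
    have : cI m i = cI m j := by omega
    rw [cI_inj m this]

theorem two_zpow_pos (e : ℤ) : (0 : ℝ) < (2 : ℝ) ^ e := zpow_pos (by norm_num) e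

theorem measurableSet_DI (k : ℤ) (n : ℕ) : MeasurableSet (DI k n) := measurableSet_Ico

theorem volume_DI (k : ℤ) (n : ℕ) : volume (DI k n) = ENNReal.ofReal ((2 : ℝ) ^ k) := by
  unfold DI
  rw [Real.volume_Ico]
  congr 1
  ring

theorem mem_DI_iff (k : ℤ) (n : ℕ) (x : ℝ) :
    x ∈ DI k n ↔ (2 : ℝ) ^ k * n ≤ x ∧ x < (2 : ℝ) ^ k * (n + 1) := Iff.rfl

/-- the two halves -/
theorem DI_split (k : ℤ) (n : ℕ) : DI k n = DI (k - 1) (2 * n) ∪ DI (k - 1) (2 * n + 1) := by
  have h2 : (2 : ℝ) ^ k = 2 * (2 : ℝ) ^ (k - 1) := by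
    rw [zpow_sub_one₀ (by norm_num)]; ring
  ext x
  simp only [Set.mem_union, mem_DI_iff, h2]
  push_cast
  constructor
  · rintro ⟨h3, h4⟩
    rcases lt_or_ge x ((2 : ℝ) ^ (k - 1) * (2 * n + 1)) with h5 | h5
    · exact Or.inl ⟨by linarith, h5⟩
    · exact Or.inr ⟨h5, by linarith⟩
  · have := two_zpow_pos (k - 1)
    rintro (⟨h3, h4⟩ | ⟨h3, h4⟩)
    · exact ⟨by linarith, by linarith⟩
    · exact ⟨by linarith, by linarith⟩

/-- the index of the cell containing a point is unique -/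
theorem DI_index_unique {k : ℤ} {n n' : ℕ} {x : ℝ} (h : x ∈ DI k n) (h' : x ∈ DI k n') :
    n = n' := by
  have h2 := two_zpow_pos k
  rw [mem_DI_iff] at h h'
  have h3 : (n : ℝ) < n' + 1 := lt_of_mul_lt_mul_left (h.1.trans_lt h'.2) h2.le
  have h4 : (n' : ℝ) < n + 1 := lt_of_mul_lt_mul_left (h'.1.trans_lt h.2) h2.le
  have h5 : n < n' + 1 := by exact_mod_cast h3
  have h6 : n' < n + 1 := by exact_mod_cast h4
  omega

theorem cell_index (m : ℕ) (n : ℕ) (a : Bool) (i : V m) :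
    n * 2 ^ (m + 1) + cI (m + 1) (a, i) = (2 * n + a.toNat) * 2 ^ m + cI m i := by
  have e1 : cI (m + 1) (a, i) = (if a then 2 ^ m else 0) + cI m i := rfl
  rw [e1, pow_succ]
  cases a <;> simp <;> ring

theorem exp_sub (k : ℤ) (m : ℕ) : k - ((m + 1 : ℕ) : ℤ) = k - 1 - m := by push_cast; ring

/-- the cells cover -/
theorem DI_eq_iUnion : ∀ (m : ℕ) (k : ℤ) (n : ℕ),
    DI k n = ⋃ i : V m, DI (k - m) (n * 2 ^ m + cI m i)
  | 0, k, n => by
    ext x
    simp only [Set.mem_iUnion]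
    constructor
    · intro h
      refine ⟨(), ?_⟩
      simpa [cI] using h
    · rintro ⟨i, h⟩
      simpa [cI] using h
  | m + 1, k, n => by
    have h1 := DI_eq_iUnion m (k - 1) (2 * n)
    have h2 := DI_eq_iUnion m (k - 1) (2 * n + 1)
    rw [DI_split, h1, h2]
    ext x
    simp only [Set.mem_union, Set.mem_iUnion]
    constructor
    · rintro (⟨i, h⟩ | ⟨i, h⟩)
      · refine ⟨(false, i), ?_⟩
        rw [exp_sub, cell_index]
        simpa using h
      · refine ⟨(true, i), ?_⟩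
        rw [exp_sub, cell_index]
        simpa using h
    · rintro ⟨⟨a, i⟩, h⟩
      rw [exp_sub, cell_index] at h
      cases a
      · exact Or.inl ⟨i, by simpa using h⟩
      · exact Or.inr ⟨i, by simpa using h⟩

theorem cells_disjoint (m : ℕ) (k : ℤ) (n : ℕ) :
    Pairwise (Function.onFun Disjoint fun i : V m => DI (k - m) (n * 2 ^ m + cI m i)) := by
  intro i j hij
  rw [Function.onFun, Set.disjoint_left]
  intro x hx hx'
  have := DI_index_unique hx hx'
  exact hij (cI_inj m (by omega))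

/-- integral over a finite disjoint union of cells on which the function is constant -/
theorem integral_cells {α : Type*} [MeasurableSpace α] {μ : Measure α} {ι : Type*} [Fintype ι]
    {s : ι → Set α} (hs : ∀ i, MeasurableSet (s i)) (hd : Pairwise (Function.onFun Disjoint s))
    (hf : ∀ i, μ (s i) ≠ ⊤) {f : α → ℝ} {c : ι → ℝ} (hc : ∀ i, ∀ x ∈ s i, f x = c i) :
    ∫ x in ⋃ i, s i, f x ∂μ = ∑ i, μ.real (s i) * c i := by
  rw [integral_iUnion_fintype hs hd]
  · refine Finset.sum_congr rfl fun i _ => ?_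
    rw [setIntegral_congr_fun (hs i) (g := fun _ => c i) (fun x hx => hc i x hx),
      setIntegral_const, smul_eq_mul]
  · intro i
    refine IntegrableOn.congr_fun (f := fun _ => c i) (integrableOn_const (hf i)) ?_ (hs i)
    intro x hx
    exact (hc i x hx).symm

theorem left_mem_DI (e : ℤ) (l : ℕ) : (2 : ℝ) ^ e * l ∈ DI e l := by
  rw [mem_DI_iff]
  have := two_zpow_pos e
  exact ⟨le_rfl, by nlinarith⟩

theorem blk_mat (m : ℕ) (k : ℤ) (F : ℝ × ℝ → ℝ) (n n' : ℕ) (a b : Bool) :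
    blk a b (mat (m + 1) k F n n') = mat m (k - 1) F (2 * n + a.toNat) (2 * n' + b.toNat) := by
  funext i j
  show F ((2 : ℝ) ^ (k - ((m + 1 : ℕ) : ℤ)) * ((n * 2 ^ (m + 1) + cI (m + 1) (a, i) : ℕ) : ℝ),
    (2 : ℝ) ^ (k - ((m + 1 : ℕ) : ℤ)) * ((n' * 2 ^ (m + 1) + cI (m + 1) (b, j) : ℕ) : ℝ)) = _
  rw [exp_sub, cell_index, cell_index]
  rfl

theorem volume_real_DI (k : ℤ) (n : ℕ) : volume.real (DI k n) = (2 : ℝ) ^ k := by
  rw [measureReal_def, volume_DI, ENNReal.toReal_ofReal (two_zpow_pos k).le]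

theorem volume_DI_ne_top (k : ℤ) (n : ℕ) : volume (DI k n) ≠ ⊤ := by
  rw [volume_DI]; exact ENNReal.ofReal_ne_top

/-- one-dimensional: split `DI k n = DI (k-1) (2n) ∪ DI (k-1) (2n+1)`, induction on `m` -/
theorem integral_step (m : ℕ) (k : ℤ) (n : ℕ) (g : ℝ → ℝ)
    (hg : ∀ l : ℕ, ∀ x ∈ DI (k - m) l, g x = g ((2 : ℝ) ^ (k - m) * l)) :
    ∫ x in DI k n, g x = (2 : ℝ) ^ (k - m) *
      ∑ i : V m, g ((2 : ℝ) ^ (k - m) * ((n * 2 ^ m + cI m i : ℕ) : ℝ)) := by
  rw [DI_eq_iUnion m k n, integral_cells (fun i => measurableSet_DI _ _) (cells_disjoint m k n)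
    (fun i => volume_DI_ne_top _ _) (fun i x hx => hg _ x hx), Finset.mul_sum]
  refine Finset.sum_congr rfl fun i _ => ?_
  rw [volume_real_DI]

theorem prod_cells (m : ℕ) (k : ℤ) (n n' : ℕ) :
    DI k n ×ˢ DI k n' = ⋃ p : V m × V m, DI (k - m) (n * 2 ^ m + cI m p.1) ×ˢ
      DI (k - m) (n' * 2 ^ m + cI m p.2) := by
  rw [DI_eq_iUnion m k n, DI_eq_iUnion m k n']
  ext x
  simp only [Set.mem_prod, Set.mem_iUnion, Prod.exists]
  constructor
  · rintro ⟨⟨i, hi⟩, ⟨j, hj⟩⟩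
    exact ⟨i, j, hi, hj⟩
  · rintro ⟨i, j, hi, hj⟩
    exact ⟨⟨i, hi⟩, ⟨j, hj⟩⟩

/-- two-dimensional -/
theorem integral_cube_step (m : ℕ) (k : ℤ) {F : ℝ × ℝ → ℝ} (hF : IsStep (k - m) F) (n n' : ℕ) :
    ∫ p in DI k n ×ˢ DI k n', |F p| ^ 3 = (2 : ℝ) ^ (k - m) * (2 : ℝ) ^ (k - m) *
      ∑ i, ∑ j, |mat m k F n n' i j| ^ 3 := by
  have key := integral_cells (μ := (volume : Measure (ℝ × ℝ)))
    (s := fun p : V m × V m => DI (k - m) (n * 2 ^ m + cI m p.1) ×ˢ
      DI (k - m) (n' * 2 ^ m + cI m p.2)) (f := fun p => |F p| ^ 3)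
    (c := fun p : V m × V m => |mat m k F n n' p.1 p.2| ^ 3)
    (fun p => (measurableSet_DI _ _).prod (measurableSet_DI _ _))
    (by
      rintro ⟨i, j⟩ ⟨i', j'⟩ hij
      rw [Function.onFun, Set.disjoint_left]
      rintro ⟨x, y⟩ hx hx'
      have h1 := DI_index_unique hx.1 hx'.1
      have h2 := DI_index_unique hx.2 hx'.2
      simp only at h1 h2
      exact hij (Prod.ext (cI_inj m (by simp only; omega)) (cI_inj m (by simp only; omega))))
    (by
      intro p
      rw [Measure.volume_eq_prod, Measure.prod_prod, volume_DI, volume_DI]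
      exact ENNReal.mul_ne_top ENNReal.ofReal_ne_top ENNReal.ofReal_ne_top)
    (by
      rintro ⟨i, j⟩ ⟨x, y⟩ hx
      have := hF _ _ x hx.1 y hx.2
      simp only
      rw [this]
      rfl)
  rw [← prod_cells m k n n'] at key
  rw [key, Fintype.sum_prod_type, Finset.mul_sum]
  refine Finset.sum_congr rfl fun i _ => ?_
  rw [Finset.mul_sum]
  refine Finset.sum_congr rfl fun j _ => ?_
  rw [measureReal_def, Measure.volume_eq_prod, Measure.prod_prod, volume_DI, volume_DI,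
    ENNReal.toReal_mul, ENNReal.toReal_ofReal (two_zpow_pos _).le]

end Tri
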