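import Vale.Agent.Tri.StepA

/-!
# P075 / Tri / StepB: the local form on step functions
-/

namespace Tri

open MeasureTheory Matrix

theorem DL_eq (k : ℤ) (n : ℕ) : DL k n = DI (k - 1) (2 * n) := by
  have h2 : (2 : ℝ) ^ k = 2 * (2 : ℝ) ^ (k - 1) := by
    rw [zpow_sub_one₀ (by norm_num)]; ring
  unfold DL DI
  rw [h2]
  congr 1
  · push_cast; ring
  · push_cast; ring

theorem DR_eq (k : ℤ) (n : ℕ) : DR k n = DI (k - 1) (2 * n + 1) := by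
  have h2 : (2 : ℝ) ^ k = 2 * (2 : ℝ) ^ (k - 1) := by
    rw [zpow_sub_one₀ (by norm_num)]; ring
  unfold DR DI
  rw [h2]
  congr 1
  · push_cast; ring
  · push_cast; ring

theorem cell_subset (m : ℕ) (k : ℤ) (n : ℕ) (a : Bool) (i : V m) :
    DI (k - ((m + 1 : ℕ) : ℤ)) (n * 2 ^ (m + 1) + cI (m + 1) (a, i)) ⊆
      DI (k - 1) (2 * n + a.toNat) := by
  rw [exp_sub, cell_index, DI_eq_iUnion m (k - 1) (2 * n + a.toNat)]
  exact Set.subset_iUnion (fun i : V m => DI (k - 1 - m) ((2 * n + a.toNat) * 2 ^ m + cI m i)) i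

theorem haar_cell (m : ℕ) (k : ℤ) (n : ℕ) (a : Bool) (i : V m) {x : ℝ}
    (hx : x ∈ DI (k - ((m + 1 : ℕ) : ℤ)) (n * 2 ^ (m + 1) + cI (m + 1) (a, i))) :
    haar k n x = sg a := by
  have h1 := cell_subset m k n a i hx
  unfold haar
  rw [DL_eq, DR_eq]
  cases a
  · have h2 : x ∈ DI (k - 1) (2 * n) := by simpa using h1
    have h3 : x ∉ DI (k - 1) (2 * n + 1) := by
      intro h
      have := DI_index_unique h2 h
      omega
    rw [Set.indicator_of_mem h2, Set.indicator_of_notMem h3]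
    simp [sg]
  · have h2 : x ∈ DI (k - 1) (2 * n + 1) := by simpa using h1
    have h3 : x ∉ DI (k - 1) (2 * n) := by
      intro h
      have := DI_index_unique h2 h
      omega
    rw [Set.indicator_of_mem h2, Set.indicator_of_notMem h3]
    simp [sg]

theorem NN_ZZ {W : Type*} [Fintype W] [DecidableEq W]
    (F0 F1 F2 : Matrix (Bool × W) (Bool × W) ℝ) :
    NN (ZZ W) F0 F1 F2 = ∑ i, ∑ j, ∑ l,
      F0 i j * F1 j l * F2 l i * (sg i.1 * sg j.1 * sg l.1) := by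
  have e : ZZ W * F0 * ZZ W * F1 * ZZ W * F2 = (ZZ W * F0) * (ZZ W * F1) * (ZZ W * F2) := by
    simp only [Matrix.mul_assoc]
  unfold NN
  rw [e]
  simp only [Matrix.trace, Matrix.diag, Matrix.mul_apply (M := ZZ W * F0 * (ZZ W * F1)),
    Matrix.mul_apply (M := ZZ W * F0)]
  unfold ZZ
  simp only [Matrix.diagonal_mul]
  refine Finset.sum_congr rfl fun i _ => ?_
  rw [Finset.sum_congr rfl fun l _ => Finset.sum_mul _ _ _, Finset.sum_comm]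
  refine Finset.sum_congr rfl fun j _ => Finset.sum_congr rfl fun l _ => ?_
  ring

/-- three-dimensional, with the Haar functions -/
theorem LI_step (m : ℕ) (k : ℤ) {F0 F1 F2 : ℝ × ℝ → ℝ}
    (h0 : IsStep (k - (m + 1 : ℕ)) F0) (h1 : IsStep (k - (m + 1 : ℕ)) F1)
    (h2 : IsStep (k - (m + 1 : ℕ)) F2) (n0 n1 n2 : ℕ) :
    LI F0 F1 F2 k n0 n1 n2 = (2 : ℝ) ^ (k - (m + 1 : ℕ)) * (2 : ℝ) ^ (k - (m + 1 : ℕ)) *
      ((1 / 2 : ℝ) ^ (m + 1) * NN (ZZ (V m)) (mat (m + 1) k F0 n0 n1) (mat (m + 1) k F1 n1 n2)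
        (mat (m + 1) k F2 n2 n0)) := by
  have hcover : DI k n0 ×ˢ DI k n1 ×ˢ DI k n2 =
      ⋃ p : V (m + 1) × V (m + 1) × V (m + 1),
        DI (k - ((m + 1 : ℕ) : ℤ)) (n0 * 2 ^ (m + 1) + cI (m + 1) p.1) ×ˢ
        DI (k - ((m + 1 : ℕ) : ℤ)) (n1 * 2 ^ (m + 1) + cI (m + 1) p.2.1) ×ˢ
        DI (k - ((m + 1 : ℕ) : ℤ)) (n2 * 2 ^ (m + 1) + cI (m + 1) p.2.2) := by
    rw [DI_eq_iUnion (m + 1) k n0, DI_eq_iUnion (m + 1) k n1, DI_eq_iUnion (m + 1) k n2]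
    ext x
    simp only [Set.mem_prod, Set.mem_iUnion, Prod.exists]
    constructor
    · rintro ⟨⟨i, hi⟩, ⟨j, hj⟩, ⟨l, hl⟩⟩
      exact ⟨i, j, l, hi, hj, hl⟩
    · rintro ⟨i, j, l, hi, hj, hl⟩
      exact ⟨⟨i, hi⟩, ⟨j, hj⟩, ⟨l, hl⟩⟩
  have key := integral_cells (μ := (volume : Measure (ℝ × ℝ × ℝ)))
    (s := fun p : V (m + 1) × V (m + 1) × V (m + 1) =>
        DI (k - ((m + 1 : ℕ) : ℤ)) (n0 * 2 ^ (m + 1) + cI (m + 1) p.1) ×ˢ
        DI (k - ((m + 1 : ℕ) : ℤ)) (n1 * 2 ^ (m + 1) + cI (m + 1) p.2.1) ×ˢ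
        DI (k - ((m + 1 : ℕ) : ℤ)) (n2 * 2 ^ (m + 1) + cI (m + 1) p.2.2))
    (f := fun x => F0 (x.1, x.2.1) * F1 (x.2.1, x.2.2) * F2 (x.2.2, x.1) *
      (haar k n0 x.1 * haar k n1 x.2.1 * haar k n2 x.2.2))
    (c := fun p : V (m + 1) × V (m + 1) × V (m + 1) =>
      mat (m + 1) k F0 n0 n1 p.1 p.2.1 * mat (m + 1) k F1 n1 n2 p.2.1 p.2.2 *
        mat (m + 1) k F2 n2 n0 p.2.2 p.1 * (sg p.1.1 * sg p.2.1.1 * sg p.2.2.1))
    (fun p => (measurableSet_DI _ _).prod ((measurableSet_DI _ _).prod (measurableSet_DI _ _)))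
    (by
      rintro ⟨i, j, l⟩ ⟨i', j', l'⟩ hij
      rw [Function.onFun, Set.disjoint_left]
      rintro ⟨x, y, z⟩ hx hx'
      have h1 := DI_index_unique hx.1 hx'.1
      have h2 := DI_index_unique hx.2.1 hx'.2.1
      have h3 := DI_index_unique hx.2.2 hx'.2.2
      simp only at h1 h2 h3
      exact hij (Prod.ext (cI_inj (m + 1) (by simp only; omega))
        (Prod.ext (cI_inj (m + 1) (by simp only; omega)) (cI_inj (m + 1) (by simp only; omega)))))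
    (by
      intro p
      rw [Measure.volume_eq_prod, Measure.prod_prod, Measure.volume_eq_prod, Measure.prod_prod,
        volume_DI, volume_DI, volume_DI]
      exact ENNReal.mul_ne_top ENNReal.ofReal_ne_top
        (ENNReal.mul_ne_top ENNReal.ofReal_ne_top ENNReal.ofReal_ne_top))
    (by
      rintro ⟨⟨a, i⟩, ⟨b, j⟩, ⟨c, l⟩⟩ ⟨x, y, z⟩ hx
      have e0 := h0 _ _ x hx.1 y hx.2.1
      have e1 := h1 _ _ y hx.2.1 z hx.2.2
      have e2 := h2 _ _ z hx.2.2 x hx.1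
      have g0 := haar_cell m k n0 a i hx.1
      have g1 := haar_cell m k n1 b j hx.2.1
      have g2 := haar_cell m k n2 c l hx.2.2
      simp only at e0 e1 e2 g0 g1 g2 ⊢
      rw [e0, e1, e2, g0, g1, g2]
      rfl)
  rw [← hcover] at key
  unfold LI
  rw [key]
  have hvol : ∀ p : V (m + 1) × V (m + 1) × V (m + 1), (volume : Measure (ℝ × ℝ × ℝ)).real
      (DI (k - ((m + 1 : ℕ) : ℤ)) (n0 * 2 ^ (m + 1) + cI (m + 1) p.1) ×ˢ
        DI (k - ((m + 1 : ℕ) : ℤ)) (n1 * 2 ^ (m + 1) + cI (m + 1) p.2.1) ×ˢ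
        DI (k - ((m + 1 : ℕ) : ℤ)) (n2 * 2 ^ (m + 1) + cI (m + 1) p.2.2)) =
      (2 : ℝ) ^ (k - ((m + 1 : ℕ) : ℤ)) * ((2 : ℝ) ^ (k - ((m + 1 : ℕ) : ℤ)) *
        (2 : ℝ) ^ (k - ((m + 1 : ℕ) : ℤ))) := by
    intro p
    rw [measureReal_def, Measure.volume_eq_prod, Measure.prod_prod, Measure.volume_eq_prod,
      Measure.prod_prod, volume_DI, volume_DI, volume_DI, ENNReal.toReal_mul, ENNReal.toReal_mul,
      ENNReal.toReal_ofReal (two_zpow_pos _).le]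
  simp only [hvol]
  rw [← Finset.mul_sum, Fintype.sum_prod_type]
  simp only [Fintype.sum_prod_type (f := fun x : V (m + 1) × V (m + 1) => _)]
  have hNN := NN_ZZ (W := V m) (mat (m + 1) k F0 n0 n1) (mat (m + 1) k F1 n1 n2)
    (mat (m + 1) k F2 n2 n0)
  rw [hNN]
  have hpow : (2 : ℝ) ^ (-k) * (2 : ℝ) ^ (k - ((m + 1 : ℕ) : ℤ)) = (1 / 2 : ℝ) ^ (m + 1) := by
    rw [← zpow_add₀ (by norm_num), one_div, inv_pow, ← zpow_natCast, ← _root_.zpow_neg]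
    congr 1
    ring
  rw [← hpow]
  have hS : (∑ x : V (m + 1), ∑ y : V (m + 1), ∑ z : V (m + 1),
      mat (m + 1) k F0 n0 n1 x y * mat (m + 1) k F1 n1 n2 y z * mat (m + 1) k F2 n2 n0 z x *
        (sg x.1 * sg y.1 * sg z.1)) =
      ∑ i : Bool × V m, ∑ j : Bool × V m, ∑ l : Bool × V m,
        mat (m + 1) k F0 n0 n1 i j * mat (m + 1) k F1 n1 n2 j l * mat (m + 1) k F2 n2 n0 l i *
        (sg i.1 * sg j.1 * sg l.1) := rfl
  rw [← hS]
  ring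

end Tri
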