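import Vale.Agent.Tri.StepA
import Vale.Agent.Tri.StepB

/-!
# P075 / Tri / StepC: tree sums
-/

namespace Tri

open MeasureTheory Matrix

lemma sum_range_two_mul (N : ℕ) (f : ℕ → ℝ) :
    ∑ n ∈ Finset.range (2 * N), f n = ∑ n ∈ Finset.range N, ∑ a : Bool, f (2 * n + a.toNat) := by
  induction N with
  | zero => simp
  | succ N ih =>
    rw [show 2 * (N + 1) = 2 * N + 1 + 1 by ring, Finset.sum_range_succ, Finset.sum_range_succ, ih,
      Finset.sum_range_succ]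
    simp
    ring

lemma sum_range_pow (p : ℕ) (f : ℕ → ℝ) :
    ∑ n ∈ Finset.range (2 ^ (p + 1)), f n =
      ∑ n ∈ Finset.range (2 ^ p), ∑ a : Bool, f (2 * n + a.toNat) := by
  rw [pow_succ, mul_comm, sum_range_two_mul]

lemma RR_eq_aux (φ : ℤ → ℕ → ℕ → ℝ) (d : ℕ) : ∀ (k : ℤ) (p : ℕ),
    ∑ n0 ∈ Finset.range (2 ^ p), ∑ n1 ∈ Finset.range (2 ^ p), RR φ d k n0 n1 =
      ∑ j ∈ Finset.range d, ∑ n0 ∈ Finset.range (2 ^ (p + j)),
        ∑ n1 ∈ Finset.range (2 ^ (p + j)), φ (k - j) n0 n1 := by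
  induction d with
  | zero => intro k p; simp [RR_nil]
  | succ d ih =>
    intro k p
    rw [Finset.sum_range_succ']
    simp only [RR_cons, Finset.sum_add_distrib]
    have h1 : ∑ n0 ∈ Finset.range (2 ^ p), ∑ n1 ∈ Finset.range (2 ^ p),
        ∑ a : Bool, ∑ b : Bool, RR φ d (k - 1) (2 * n0 + a.toNat) (2 * n1 + b.toNat) =
        ∑ n0 ∈ Finset.range (2 ^ (p + 1)), ∑ n1 ∈ Finset.range (2 ^ (p + 1)),
          RR φ d (k - 1) n0 n1 := by
      rw [sum_range_pow]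
      apply Finset.sum_congr rfl
      intro n0 _
      rw [Finset.sum_comm]
      apply Finset.sum_congr rfl
      intro a _
      rw [sum_range_pow]
    rw [h1, ih (k - 1) (p + 1), add_comm]
    simp only [Nat.cast_zero, sub_zero, add_zero, Nat.cast_add, Nat.cast_one]
    congr 1
    apply Finset.sum_congr rfl
    intro j _
    rw [show p + 1 + j = p + (j + 1) by ring, show k - 1 - (j : ℤ) = k - (j + 1) by ring]

theorem RR_eq (φ : ℤ → ℕ → ℕ → ℝ) (d : ℕ) (k : ℤ) :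
    RR φ d k 0 0 = ∑ j ∈ Finset.range d, ∑ n0 ∈ Finset.range (2 ^ j), ∑ n1 ∈ Finset.range (2 ^ j),
      φ (k - j) n0 n1 := by
  have := RR_eq_aux φ d k 0
  simpa using this

theorem xor_children (n0 n1 : ℕ) (a b : Bool) :
    (2 * n0 + a.toNat) ^^^ (2 * n1 + b.toNat) = 2 * (n0 ^^^ n1) + (xor a b).toNat := by
  have h1 : ∀ (n : ℕ) (a : Bool), 2 * n + a.toNat = Nat.bit a n := by
    intro n a
    cases a <;> simp [Nat.bit]
  rw [h1, h1, h1, Nat.xor_bit]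

theorem RR_TV (d : ℕ) (k : ℤ) {F0 F1 F2 : ℝ × ℝ → ℝ}
    (h0 : IsStep (k - d) F0) (h1 : IsStep (k - d) F1) (h2 : IsStep (k - d) F2) (n0 n1 : ℕ) :
    RR (fun k n0 n1 => |LI F0 F1 F2 k n0 n1 (n0 ^^^ n1)|) d k n0 n1 =
      (2 : ℝ) ^ (k - d) * (2 : ℝ) ^ (k - d) *
        TV d (mat d k F0 n0 n1) (mat d k F1 n1 (n0 ^^^ n1)) (mat d k F2 (n0 ^^^ n1) n0) := by
  induction d generalizing k n0 n1 with
  | zero => simp [RR_nil, TV_nil]
  | succ d ih =>
    have e : k - 1 - (d : ℤ) = k - ((d + 1 : ℕ) : ℤ) := by push_cast; ring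
    have h0' : IsStep (k - 1 - d) F0 := by rw [e]; exact h0
    have h1' : IsStep (k - 1 - d) F1 := by rw [e]; exact h1
    have h2' : IsStep (k - 1 - d) F2 := by rw [e]; exact h2
    have hc : ∀ a b : Bool, RR (fun k n0 n1 => |LI F0 F1 F2 k n0 n1 (n0 ^^^ n1)|) d (k - 1)
        (2 * n0 + a.toNat) (2 * n1 + b.toNat) =
        (2 : ℝ) ^ (k - ((d + 1 : ℕ) : ℤ)) * (2 : ℝ) ^ (k - ((d + 1 : ℕ) : ℤ)) *
          TV d (blk a b (mat (d + 1) k F0 n0 n1)) (blk b (xor a b) (mat (d + 1) k F1 n1 (n0 ^^^ n1)))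
            (blk (xor a b) a (mat (d + 1) k F2 (n0 ^^^ n1) n0)) := by
      intro a b
      rw [ih (k - 1) h0' h1' h2' (2 * n0 + a.toNat) (2 * n1 + b.toNat), xor_children, e,
        blk_mat, blk_mat, blk_mat]
    simp only [RR_cons, TV_cons, hc]
    rw [LI_step d k h0 h1 h2, mul_add, Finset.mul_sum]
    congr 1
    · generalize NN (ZZ (V d)) _ _ _ = x
      have hp : (0 : ℝ) < (2 : ℝ) ^ (k - ((d + 1 : ℕ) : ℤ)) := by positivity
      have hq : (0 : ℝ) < (1 / 2 : ℝ) ^ (d + 1) := by positivity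
      rw [abs_mul, abs_mul, abs_mul, abs_of_pos hp, abs_of_pos hq]
    · apply Finset.sum_congr rfl
      intro a _
      rw [Finset.mul_sum]

end Tri
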