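import Vale.Agent.Tri.Form
import Vale.Agent.Tri.Defs

/-!
# P075 / Tri / StepDefs: definitions for step functions
-/

namespace Tri

open MeasureTheory Matrix

/-- index of a cell -/
def cI : (m : ℕ) → V m → ℕ
  | 0, _ => 0
  | m + 1, x => (if x.1 then 2 ^ m else 0) + cI m x.2

/-- `F` is constant on dyadic squares of side `2^e` in `[0,∞)^2` -/
def IsStep (e : ℤ) (F : ℝ × ℝ → ℝ) : Prop :=
  ∀ n n' : ℕ, ∀ x ∈ DI e n, ∀ y ∈ DI e n', F (x, y) = F ((2 : ℝ) ^ e * n, (2 : ℝ) ^ e * n')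

/-- samples of `F` on the cells of `DI k n × DI k n'` -/
noncomputable def mat (m : ℕ) (k : ℤ) (F : ℝ × ℝ → ℝ) (n n' : ℕ) : Matrix (V m) (V m) ℝ :=
  fun i j => F ((2 : ℝ) ^ (k - m) * ((n * 2 ^ m + cI m i : ℕ) : ℝ),
    (2 : ℝ) ^ (k - m) * ((n' * 2 ^ m + cI m j : ℕ) : ℝ))

/-- tree sums -/
noncomputable def RR (φ : ℤ → ℕ → ℕ → ℝ) : ℕ → ℤ → ℕ → ℕ → ℝ
  | 0, _, _, _ => 0
  | d + 1, k, n0, n1 => φ k n0 n1 +
      ∑ a : Bool, ∑ b : Bool, RR φ d (k - 1) (2 * n0 + a.toNat) (2 * n1 + b.toNat)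

theorem cI_nil (x : V 0) : cI 0 x = 0 := rfl

theorem cI_cons (m : ℕ) (x : V (m + 1)) :
    cI (m + 1) x = (if x.1 then 2 ^ m else 0) + cI m x.2 := rfl

theorem RR_nil (φ : ℤ → ℕ → ℕ → ℝ) (k : ℤ) (n0 n1 : ℕ) : RR φ 0 k n0 n1 = 0 := rfl

theorem RR_cons (φ : ℤ → ℕ → ℕ → ℝ) (d : ℕ) (k : ℤ) (n0 n1 : ℕ) :
    RR φ (d + 1) k n0 n1 = φ k n0 n1 +
      ∑ a : Bool, ∑ b : Bool, RR φ d (k - 1) (2 * n0 + a.toNat) (2 * n1 + b.toNat) := rfl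

end Tri
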