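import Vale.Agent.Tri.Step
import Vale.Agent.Tri.Disc

/-!
# P075 / Tri / StepThm: the bound for step functions
-/

namespace Tri

open MeasureTheory Matrix

/-- `RR_eq`, `RR_TV`, `TV_le`, `integral_cube_step` -/
theorem step_bound (d : ℕ) (k : ℤ) {F0 F1 F2 : ℝ × ℝ → ℝ}
    (h0 : IsStep (k - d) F0) (h1 : IsStep (k - d) F1) (h2 : IsStep (k - d) F2) :
    ∑ j ∈ Finset.range d, ∑ n0 ∈ Finset.range (2 ^ j), ∑ n1 ∈ Finset.range (2 ^ j),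
      |LI F0 F1 F2 (k - j) n0 n1 (n0 ^^^ n1)| ≤
      288 * ((∫ p in DI k 0 ×ˢ DI k 0, |F0 p| ^ 3) + (∫ p in DI k 0 ×ˢ DI k 0, |F1 p| ^ 3) +
        ∫ p in DI k 0 ×ˢ DI k 0, |F2 p| ^ 3) := by
  have e1 := RR_eq (fun k n0 n1 => |LI F0 F1 F2 k n0 n1 (n0 ^^^ n1)|) d k
  have e2 := RR_TV d k h0 h1 h2 0 0
  rw [Nat.xor_self] at e2
  have e3 := TV_le d (mat d k F0 0 0) (mat d k F1 0 0) (mat d k F2 0 0)
  have c0 := integral_cube_step d k h0 0 0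
  have c1 := integral_cube_step d k h1 0 0
  have c2 := integral_cube_step d k h2 0 0
  rw [← e1, e2, c0, c1, c2]
  have hp : (0 : ℝ) ≤ (2 : ℝ) ^ (k - d) * (2 : ℝ) ^ (k - d) := by positivity
  calc _ ≤ (2 : ℝ) ^ (k - d) * (2 : ℝ) ^ (k - d) *
        (288 * ((∑ i, ∑ j, |mat d k F0 0 0 i j| ^ 3) + (∑ i, ∑ j, |mat d k F1 0 0 i j| ^ 3) +
          ∑ i, ∑ j, |mat d k F2 0 0 i j| ^ 3)) := mul_le_mul_of_nonneg_left e3 hp
    _ = _ := by ring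

end Tri
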