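import Vale.Agent.Tri.LA

/-!
# P075 / Tri / TB0: the error terms of the telescoping
-/

namespace Tri

open Matrix

variable {n : Type*} [Fintype n] [DecidableEq n]

/-- the error terms -/
noncomputable def er (H F0 F1 F2 : Matrix n n ℝ) (a b : ℤ) : ℝ :=
  |NN H (trunc ((4 : ℝ) ^ (-a)) F0) (trunc ((4 : ℝ) ^ (-a)) F1) (trunc ((4 : ℝ) ^ (-a)) F2)| +
  |NN H F0 F1 F2 -
    NN H (trunc ((4 : ℝ) ^ (-b)) F0) (trunc ((4 : ℝ) ^ (-b)) F1) (trunc ((4 : ℝ) ^ (-b)) F2)|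

end Tri
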