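import Vale.Agent.Tri.LA

/-!
# P075 / Tri / TBA: truncations `F (1 + t Fᵀ F)⁻¹`
-/

namespace Tri

set_option linter.unusedSectionVars false

open Matrix

variable {n : Type*} [Fintype n] [DecidableEq n]

theorem res_pd (F : Matrix n n ℝ) {s : ℝ} (hs : 0 ≤ s) : (1 + s • (Fᵀ * F)).PosDef :=
  posDef_one_add ((psd_transpose_mul F).smul hs)

theorem res_symm (F : Matrix n n ℝ) {s : ℝ} (hs : 0 ≤ s) :
    ((1 + s • (Fᵀ * F))⁻¹)ᵀ = (1 + s • (Fᵀ * F))⁻¹ := psd_symm (res_pd F hs).inv.posSemidef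

theorem gg_smul_eq (F : Matrix n n ℝ) {s : ℝ} (hs : 0 < s) :
    s⁻¹ • gg (s • (F * Fᵀ)) = F * (1 + s • (Fᵀ * F))⁻¹ * Fᵀ := by
  have h := push_through (Real.sqrt s • F)
  have e1 : (Real.sqrt s • F)ᵀ * (Real.sqrt s • F) = s • (Fᵀ * F) := by
    rw [transpose_smul, Matrix.smul_mul, Matrix.mul_smul, smul_smul, Real.mul_self_sqrt hs.le]
  have e2 : (Real.sqrt s • F) * (Real.sqrt s • F)ᵀ = s • (F * Fᵀ) := by
    rw [transpose_smul, Matrix.smul_mul, Matrix.mul_smul, smul_smul, Real.mul_self_sqrt hs.le]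
  rw [e1, e2] at h
  rw [← h, transpose_smul, Matrix.smul_mul, Matrix.smul_mul, Matrix.mul_smul, smul_smul,
    smul_smul, mul_assoc, Real.mul_self_sqrt hs.le, inv_mul_cancel₀ hs.ne', one_smul]

theorem trunc_mul_transpose_le (F : Matrix n n ℝ) {s : ℝ} (hs : 0 < s) :
    (s⁻¹ • gg (s • (F * Fᵀ)) - trunc s F * (trunc s F)ᵀ).PosSemidef := by
  have hP := res_pd F hs.le
  have hu := pd_det hP
  have hsy := res_symm F hs.le
  have h1 := psd_conj (psd_conj ((psd_transpose_mul F).smul hs.le) (1 + s • (Fᵀ * F))⁻¹) F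
  rw [hsy] at h1
  have e : s⁻¹ • gg (s • (F * Fᵀ)) - trunc s F * (trunc s F)ᵀ =
      F * ((1 + s • (Fᵀ * F))⁻¹ * (s • (Fᵀ * F)) * (1 + s • (Fᵀ * F))⁻¹) * Fᵀ := by
    rw [gg_smul_eq F hs]
    unfold trunc
    rw [transpose_mul, hsy]
    have e1 : (1 + s • (Fᵀ * F))⁻¹ * (s • (Fᵀ * F)) * (1 + s • (Fᵀ * F))⁻¹ =
        (1 + s • (Fᵀ * F))⁻¹ - (1 + s • (Fᵀ * F))⁻¹ * (1 + s • (Fᵀ * F))⁻¹ := by
      have e2 : s • (Fᵀ * F) = (1 + s • (Fᵀ * F)) - 1 := by abel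
      calc (1 + s • (Fᵀ * F))⁻¹ * (s • (Fᵀ * F)) * (1 + s • (Fᵀ * F))⁻¹
          = (1 + s • (Fᵀ * F))⁻¹ * ((1 + s • (Fᵀ * F)) - 1) * (1 + s • (Fᵀ * F))⁻¹ := by
            congr 2
        _ = _ := by
            rw [Matrix.mul_sub, Matrix.sub_mul, nonsing_inv_mul _ hu, Matrix.mul_one,
              Matrix.one_mul]
    rw [e1, Matrix.mul_sub, Matrix.sub_mul]
    simp only [Matrix.mul_assoc]
  rw [e]
  exact h1

theorem transpose_mul_trunc_le (F : Matrix n n ℝ) {s : ℝ} (hs : 0 < s) :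
    (s⁻¹ • gg (s • (Fᵀ * F)) - (trunc s F)ᵀ * trunc s F).PosSemidef := by
  have hP := res_pd F hs.le
  have hu := pd_det hP
  have hsy := res_symm F hs.le
  have h1 := (psd_mul_transpose ((1 + s • (Fᵀ * F))⁻¹ * (Fᵀ * F))).smul hs.le
  rw [transpose_mul, hsy, transpose_mul, transpose_transpose] at h1
  have e : s⁻¹ • gg (s • (Fᵀ * F)) - (trunc s F)ᵀ * trunc s F =
      s • ((1 + s • (Fᵀ * F))⁻¹ * (Fᵀ * F) * (Fᵀ * F * (1 + s • (Fᵀ * F))⁻¹)) := by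
    unfold gg trunc
    rw [transpose_mul, hsy, Matrix.smul_mul, smul_smul, inv_mul_cancel₀ hs.ne', one_smul]
    have e1 : Fᵀ * F * (1 + s • (Fᵀ * F))⁻¹ =
        (1 + s • (Fᵀ * F))⁻¹ * ((1 + s • (Fᵀ * F)) * (Fᵀ * F * (1 + s • (Fᵀ * F))⁻¹)) := by
      rw [← Matrix.mul_assoc, nonsing_inv_mul _ hu, Matrix.one_mul]
    rw [sub_eq_iff_eq_add]
    conv_lhs => rw [e1]
    rw [Matrix.add_mul, Matrix.one_mul, Matrix.mul_add, Matrix.smul_mul, Matrix.mul_smul]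
    simp only [Matrix.mul_assoc]
    abel
  rw [e]
  exact h1

theorem trunc_sub (F : Matrix n n ℝ) {t : ℝ} (ht : 0 < t) :
    trunc (t / 4) F - trunc t F = (3 / 4 : ℝ) • (trunc (t / 4) F * gg (t • (Fᵀ * F))) := by
  have hP := res_pd F ht.le
  have hP4 := res_pd F (by positivity : (0 : ℝ) ≤ t / 4)
  have hu := pd_det hP
  have hu4 := pd_det hP4
  unfold trunc gg
  have e1 : (1 + (t / 4) • (Fᵀ * F))⁻¹ - (1 + t • (Fᵀ * F))⁻¹ =
      (1 + (t / 4) • (Fᵀ * F))⁻¹ * ((1 + t • (Fᵀ * F)) - (1 + (t / 4) • (Fᵀ * F))) *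
        (1 + t • (Fᵀ * F))⁻¹ := by
    rw [Matrix.mul_sub, Matrix.sub_mul, nonsing_inv_mul _ hu4, Matrix.one_mul,
      Matrix.mul_assoc, mul_nonsing_inv _ hu, Matrix.mul_one]
  have e2 : (1 + t • (Fᵀ * F)) - (1 + (t / 4) • (Fᵀ * F)) = (3 / 4 : ℝ) • (t • (Fᵀ * F)) := by
    rw [add_sub_add_left_eq_sub, ← sub_smul, smul_smul]
    congr 1
    ring
  rw [← Matrix.mul_sub, e1, e2]
  simp only [Matrix.mul_smul, Matrix.smul_mul, Matrix.mul_assoc]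

end Tri
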