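import Vale.Agent.Tri.TB0
import Vale.Agent.Tri.TBA

/-!
# P075 / Tri / TBC: the truncations converge
-/

namespace Tri

set_option linter.unusedSectionVars false

open Matrix Filter Topology

variable {n : Type*} [Fintype n] [DecidableEq n]

theorem continuous_NN (H : Matrix n n ℝ) :
    Continuous fun p : Matrix n n ℝ × Matrix n n ℝ × Matrix n n ℝ => NN H p.1 p.2.1 p.2.2 := by
  unfold NN
  fun_prop

theorem trunc_continuousAt (F : Matrix n n ℝ) : ContinuousAt (fun s : ℝ => trunc s F) 0 := by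
  have hc : Continuous fun s : ℝ => (1 + s • (Fᵀ * F) : Matrix n n ℝ) := by fun_prop
  have h0 : (1 + (0 : ℝ) • (Fᵀ * F)).det ≠ 0 := by simp
  have h1 : ContinuousAt (fun s : ℝ => (1 + s • (Fᵀ * F) : Matrix n n ℝ)⁻¹) 0 := by
    have e : (fun s : ℝ => (1 + s • (Fᵀ * F) : Matrix n n ℝ)⁻¹) =
        fun s : ℝ => ((1 + s • (Fᵀ * F) : Matrix n n ℝ).det)⁻¹ •
          (1 + s • (Fᵀ * F) : Matrix n n ℝ).adjugate := by
      funext s
      rw [Matrix.inv_def, Ring.inverse_eq_inv']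
    rw [e]
    exact (hc.matrix_det.continuousAt.inv₀ h0).smul hc.matrix_adjugate.continuousAt
  unfold trunc
  exact continuousAt_const.mul h1

theorem trunc_zero (F : Matrix n n ℝ) : trunc 0 F = F := by
  unfold trunc
  simp

theorem entry_sq_le (A : Matrix n n ℝ) (i j : n) : A i j ^ 2 ≤ (A * Aᵀ).trace := by
  have h1 : A i j ^ 2 ≤ ∑ k, A i k * A i k := by
    have := Finset.single_le_sum (f := fun k => A i k * A i k)
      (fun k _ => mul_self_nonneg _) (Finset.mem_univ j)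
    simpa [sq] using this
  have h2 : ∑ k, A i k * A i k ≤ ∑ l, ∑ k, A l k * A l k :=
    Finset.single_le_sum (f := fun l => ∑ k, A l k * A l k)
      (fun l _ => Finset.sum_nonneg fun k _ => mul_self_nonneg _) (Finset.mem_univ i)
  have h3 : (A * Aᵀ).trace = ∑ l, ∑ k, A l k * A l k := by
    simp [Matrix.trace, Matrix.mul_apply]
  rw [h3]
  exact h1.trans h2

theorem trunc_trace_le (F : Matrix n n ℝ) {s : ℝ} (hs : 0 < s) :
    (trunc s F * (trunc s F)ᵀ).trace ≤ s⁻¹ * Fintype.card n := by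
  have h1 := (trunc_mul_transpose_le F hs).trace_nonneg
  have hA : (s • (F * Fᵀ)).PosSemidef := (psd_mul_transpose F).smul hs.le
  have h2 : (gg (s • (F * Fᵀ))).trace ≤ Fintype.card n := by
    rw [gg_eq hA, trace_sub, trace_one]
    have := (posDef_one_add hA).inv.posSemidef.trace_nonneg
    linarith
  rw [trace_sub, trace_smul, smul_eq_mul] at h1
  have h3 : s⁻¹ * (gg (s • (F * Fᵀ))).trace ≤ s⁻¹ * Fintype.card n :=
    mul_le_mul_of_nonneg_left h2 (inv_pos.2 hs).le
  linarith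

theorem trunc_tendsto_zero (F : Matrix n n ℝ) {u : ℕ → ℝ} (hu : Tendsto u atTop atTop) :
    Tendsto (fun K => trunc (u K) F) atTop (𝓝 0) := by
  refine tendsto_pi_nhds.2 fun i => tendsto_pi_nhds.2 fun j => ?_
  have h1 : Tendsto (fun K => (u K)⁻¹ * (Fintype.card n : ℝ)) atTop (𝓝 0) := by
    have := (tendsto_inv_atTop_zero.comp hu).mul_const (Fintype.card n : ℝ)
    simpa using this
  have h2 : Tendsto (fun K => (trunc (u K) F i j) ^ 2) atTop (𝓝 0) := by
    refine squeeze_zero' (Eventually.of_forall fun K => sq_nonneg _) ?_ h1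
    filter_upwards [hu.eventually_gt_atTop 0] with K hK
    exact (entry_sq_le _ i j).trans (trunc_trace_le F hK)
  have h3 : Tendsto (fun K => |trunc (u K) F i j|) atTop (𝓝 0) := by
    have := h2.sqrt
    simpa [Real.sqrt_sq_eq_abs] using this
  exact (tendsto_zero_iff_abs_tendsto_zero _).2 h3

/-- the error terms -/
theorem er_tendsto_aux (H F0 F1 F2 : Matrix n n ℝ) (j : ℤ) :
    Tendsto (fun K : ℕ =>
      |NN H (trunc ((4 : ℝ) ^ (-(j - K))) F0) (trunc ((4 : ℝ) ^ (-(j - K))) F1)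
        (trunc ((4 : ℝ) ^ (-(j - K))) F2)| +
      |NN H F0 F1 F2 -
        NN H (trunc ((4 : ℝ) ^ (-(j + K))) F0) (trunc ((4 : ℝ) ^ (-(j + K))) F1)
          (trunc ((4 : ℝ) ^ (-(j + K))) F2)|) atTop (𝓝 0) := by
  have hu : Tendsto (fun K : ℕ => (4 : ℝ) ^ (-(j - (K : ℤ)))) atTop atTop := by
    have e : (fun K : ℕ => (4 : ℝ) ^ (-(j - (K : ℤ)))) = fun K : ℕ => (4 : ℝ) ^ (-j) * 4 ^ K := by
      funext K
      rw [neg_sub, sub_eq_add_neg, add_comm, zpow_add₀ (by norm_num), zpow_natCast]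
    rw [e]
    exact (tendsto_pow_atTop_atTop_of_one_lt (by norm_num)).const_mul_atTop (by positivity)
  have hv : Tendsto (fun K : ℕ => (4 : ℝ) ^ (-(j + (K : ℤ)))) atTop (𝓝 0) := by
    have e : (fun K : ℕ => (4 : ℝ) ^ (-(j + (K : ℤ)))) =
        fun K : ℕ => (4 : ℝ) ^ (-j) * (1 / 4 : ℝ) ^ K := by
      funext K
      rw [neg_add, zpow_add₀ (by norm_num), _root_.zpow_neg _ (K : ℤ), zpow_natCast, one_div, inv_pow]
    rw [e]
    have := (tendsto_pow_atTop_nhds_zero_of_lt_one (by norm_num : (0 : ℝ) ≤ 1 / 4)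
      (by norm_num)).const_mul ((4 : ℝ) ^ (-j))
    simpa using this
  have hT : ∀ F : Matrix n n ℝ,
      Tendsto (fun K : ℕ => trunc ((4 : ℝ) ^ (-(j + (K : ℤ)))) F) atTop (𝓝 F) := by
    intro F
    have := (trunc_continuousAt F).tendsto.comp hv
    rwa [trunc_zero] at this
  have h1 := (continuous_NN H).tendsto (0, 0, 0) |>.comp
    ((trunc_tendsto_zero F0 hu).prodMk_nhds
      ((trunc_tendsto_zero F1 hu).prodMk_nhds (trunc_tendsto_zero F2 hu)))
  have h2 := (continuous_NN H).tendsto (F0, F1, F2) |>.comp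
    ((hT F0).prodMk_nhds ((hT F1).prodMk_nhds (hT F2)))
  have h0 : NN H 0 0 0 = 0 := by simp [NN]
  have h3 := h1.abs
  have h4 := (tendsto_const_nhds (x := NN H F0 F1 F2)).sub h2 |>.abs
  have h5 := h3.add h4
  simpa [h0, Function.comp_def] using h5

/-- `trunc s F → F` as `s → 0` and `trunc s F → 0` as `s → ∞` -/
theorem er_tendsto (H F0 F1 F2 : Matrix n n ℝ) (j : ℤ) :
    Filter.Tendsto (fun K : ℕ => er H F0 F1 F2 (j - K) (j + K)) Filter.atTop (nhds 0) :=
  er_tendsto_aux H F0 F1 F2 j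

end Tri
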