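import Vale.Agent.Tri.TB0
import Vale.Agent.Tri.TBA

namespace Tri

open Matrix

variable {n : Type*} [Fintype n] [DecidableEq n]

lemma psd_smul {A : Matrix n n ℝ} (hA : A.PosSemidef) {s : ℝ} (hs : 0 ≤ s) :
    (s • A).PosSemidef := hA.smul hs

/-- `s⁻¹ gg (s P) ≤ (4/t) gg (t P)` for `t/4 ≤ s ≤ t` -/
lemma gg_scale {P : Matrix n n ℝ} (hP : P.PosSemidef) {t s : ℝ} (ht : 0 < t) (hs : t / 4 ≤ s)
    (hs' : s ≤ t) : ((4 / t) • gg (t • P) - s⁻¹ • gg (s • P)).PosSemidef := by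
  have hs0 : 0 < s := by linarith
  have h1 : (gg (t • P) - gg (s • P)).PosSemidef := by
    apply gg_mono (psd_smul hP hs0.le)
    rw [← sub_smul]
    exact psd_smul hP (by linarith)
  have h2 : (gg (t • P)).PosSemidef := gg_posSemidef (psd_smul hP ht.le)
  have h3 : s⁻¹ ≤ 4 / t := by
    rw [inv_eq_one_div, div_le_div_iff₀ hs0 ht]; linarith
  have h4 : (4 / t) • gg (t • P) - s⁻¹ • gg (s • P) =
      (4 / t - s⁻¹) • gg (t • P) + s⁻¹ • (gg (t • P) - gg (s • P)) := by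
    rw [sub_smul, smul_sub]; abel
  rw [h4]
  exact (psd_smul h2 (by linarith)).add (psd_smul h1 (inv_nonneg.mpr hs0.le))

lemma trunc_scale (F : Matrix n n ℝ) {t s : ℝ} (ht : 0 < t) (hs : t / 4 ≤ s) (hs' : s ≤ t) :
    ((4 / t) • gg (t • (F * Fᵀ)) - trunc s F * (trunc s F)ᵀ).PosSemidef := by
  have hs0 : 0 < s := by linarith
  have := (gg_scale (psd_mul_transpose F) ht hs hs').add (trunc_mul_transpose_le F hs0)
  rwa [sub_add_sub_cancel] at this

lemma trunc_scale' (F : Matrix n n ℝ) {t s : ℝ} (ht : 0 < t) (hs : t / 4 ≤ s) (hs' : s ≤ t) :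
    ((4 / t) • gg (t • (Fᵀ * F)) - (trunc s F)ᵀ * trunc s F).PosSemidef := by
  have hs0 : 0 < s := by linarith
  have := (gg_scale (psd_transpose_mul F) ht hs hs').add (transpose_mul_trunc_le F hs0)
  rwa [sub_add_sub_cancel] at this

/-- `gg A * gg A ≤ gg A` -/
lemma gg_sq_le {A : Matrix n n ℝ} (hA : A.PosSemidef) : (gg A - gg A * gg A).PosSemidef := by
  have hu : IsUnit (1 + A) := (posDef_one_add hA).isUnit
  have hdet : IsUnit (1 + A).det := (Matrix.isUnit_iff_isUnit_det _).mp hu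
  have h1 : (1 + A)⁻¹ * (1 + A) = 1 := Matrix.nonsing_inv_mul _ hdet
  have h1' : (1 + A) * (1 + A)⁻¹ = 1 := Matrix.mul_nonsing_inv _ hdet
  have h2 : gg A - gg A * gg A = (1 + A)⁻¹ * A * (1 + A)⁻¹ := by
    rw [gg_eq hA]
    set R := (1 + A)⁻¹
    have h3 : R * A = 1 - R := by
      have : R * (1 + A) = R + R * A := by rw [mul_add, mul_one]
      rw [h1] at this
      rw [this]; abel
    rw [h3]
    noncomm_ring
  rw [h2]
  have h3 : ((1 + A)⁻¹)ᴴ = (1 + A)⁻¹ := (posDef_one_add hA).isHermitian.inv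
  have h4 := hA.mul_mul_conjTranspose_same (1 + A)⁻¹
  rwa [h3] at h4

lemma trace_mul_transpose_nonneg (F : Matrix n n ℝ) : 0 ≤ (F * Fᵀ).trace :=
  (psd_mul_transpose F).trace_nonneg

lemma gg_transpose {A : Matrix n n ℝ} (hA : A.PosSemidef) : (gg A)ᵀ = gg A := by
  have := (gg_posSemidef hA).isHermitian
  rwa [Matrix.IsHermitian, conjTranspose_eq_transpose_of_trivial] at this

/-- AM-GM for the trace form -/
lemma abs_trace_le {X Y H : Matrix n n ℝ} (hH : Hᵀ = H) (hHH : H * H = 1) {c : ℝ} (hc : 0 < c) :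
    |(X * H * Y).trace| ≤ c / 2 * (X * Xᵀ).trace + 1 / (2 * c) * (Yᵀ * Y).trace := by
  have h1 : ∀ ε : ℝ, ε ^ 2 = 1 → ε * (X * H * Y).trace ≤
      c / 2 * (X * Xᵀ).trace + 1 / (2 * c) * (Yᵀ * Y).trace := by
    intro ε hε
    have h2 := trace_mul_transpose_nonneg (c • (X * H) - ε • Yᵀ)
    have h3 : (c • (X * H) - ε • Yᵀ) * (c • (X * H) - ε • Yᵀ)ᵀ =
        (c * c) • (X * Xᵀ) - (c * ε) • (X * H * Y) - (c * ε) • (Yᵀ * (H * Xᵀ)) +
          (ε * ε) • (Yᵀ * Y) := by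
      rw [transpose_sub, transpose_smul, transpose_smul, transpose_mul, hH, transpose_transpose,
        sub_mul, mul_sub, mul_sub, smul_mul_smul_comm, smul_mul_smul_comm, smul_mul_smul_comm,
        smul_mul_smul_comm]
      have : X * H * (H * Xᵀ) = X * Xᵀ := by
        rw [mul_assoc, ← mul_assoc H, hHH, one_mul]
      rw [this, mul_comm ε c]
      abel
    have h4 : (Yᵀ * (H * Xᵀ)).trace = (X * H * Y).trace := by
      rw [← trace_transpose (X * H * Y)]
      rw [transpose_mul, transpose_mul, hH]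
    rw [h3, trace_add, trace_sub, trace_sub, trace_smul, trace_smul, trace_smul, trace_smul, h4]
      at h2
    simp only [smul_eq_mul] at h2
    have hεε : ε * ε = 1 := by rw [← sq]; exact hε
    rw [hεε] at h2
    have h5 : 1 / (2 * c) * (c * c * (X * Xᵀ).trace - c * ε * (X * H * Y).trace -
        c * ε * (X * H * Y).trace + 1 * (Yᵀ * Y).trace) =
        c / 2 * (X * Xᵀ).trace + 1 / (2 * c) * (Yᵀ * Y).trace - ε * (X * H * Y).trace := by
      field_simp
      ring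
    have h6 : 0 ≤ 1 / (2 * c) * (c * c * (X * Xᵀ).trace - c * ε * (X * H * Y).trace -
        c * ε * (X * H * Y).trace + 1 * (Yᵀ * Y).trace) := mul_nonneg (by positivity) h2
    linarith
  rw [abs_le]
  have h7 := h1 1 (by norm_num)
  have h8 := h1 (-1) (by norm_num)
  constructor <;> linarith

/-- the basic estimate; `c = 2^k` where `t = 4^{-k}` -/
theorem NN_basic {H : Matrix n n ℝ} (hH : Hᵀ = H) (hHH : H * H = 1) (F0 F1 F2 : Matrix n n ℝ)
    {t s s' c : ℝ} (ht : 0 < t) (hs : t / 4 ≤ s) (hs' : s ≤ t) (hr : t / 4 ≤ s') (hr' : s' ≤ t)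
    (hc : 0 < c) (hct : c ^ 2 * t = 1) :
    |NN H (trunc s F0) (trunc s' F1) (trunc (t / 4) F2 - trunc t F2)| ≤
      3 * c ^ 3 * (ph H F0 F2 t + ph H F2 F1 t) := by
  rw [trunc_sub F2 ht]
  set A := trunc (t / 4) F2 with hA
  set G := gg (t • (F2ᵀ * F2)) with hG
  set T := trunc s F0 with hT
  set R := trunc s' F1 with hR
  have hGt : Gᵀ = G := gg_transpose (psd_smul (psd_transpose_mul F2) ht.le)
  have h1 : NN H T R ((3 / 4 : ℝ) • (A * G)) = (3 / 4) * ((G * H * T) * H * (R * H * A)).trace := by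
    unfold NN
    rw [mul_smul_comm, trace_smul, smul_eq_mul]
    congr 1
    rw [← mul_assoc, trace_mul_comm]
    simp only [mul_assoc]
  have h2 := abs_trace_le (X := G * H * T) (Y := R * H * A) hH hHH (c := 2 * c) (by positivity)
  have h3 : ((G * H * T) * (G * H * T)ᵀ).trace ≤ (4 / t) * ph H F0 F2 t := by
    have h4 : ((G * H * T) * (G * H * T)ᵀ).trace = ((G * G) * H * (T * Tᵀ) * H).trace := by
      rw [transpose_mul, transpose_mul, hH, hGt]
      rw [show G * H * T * (Tᵀ * (H * G)) = (G * H * T * Tᵀ * H) * G by simp only [mul_assoc]]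
      rw [trace_mul_comm]
      simp only [mul_assoc]
    rw [h4]
    have h5 : ((G * G) * H * (T * Tᵀ) * H).trace ≤
        (G * H * ((4 / t) • gg (t • (F0 * F0ᵀ))) * H).trace := by
      apply trace_mono hH
      · have := psd_mul_transpose G
        rwa [hGt] at this
      · exact gg_sq_le (psd_smul (psd_transpose_mul F2) ht.le)
      · exact psd_mul_transpose T
      · exact trunc_scale F0 ht hs hs'
    refine h5.trans (le_of_eq ?_)
    rw [mul_smul_comm, smul_mul_assoc, trace_smul, smul_eq_mul]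
    rfl
  have h6 : ((R * H * A)ᵀ * (R * H * A)).trace ≤ (4 / t) ^ 2 * ph H F2 F1 t := by
    have h7 : ((R * H * A)ᵀ * (R * H * A)).trace = ((Rᵀ * R) * H * (A * Aᵀ) * H).trace := by
      rw [transpose_mul, transpose_mul, hH]
      rw [show Aᵀ * (H * Rᵀ) * (R * H * A) = (Aᵀ * H) * (Rᵀ * R * H * A) by simp only [mul_assoc]]
      rw [trace_mul_comm]
      simp only [mul_assoc]
    rw [h7]
    have h8 : ((Rᵀ * R) * H * (A * Aᵀ) * H).trace ≤
        (((4 / t) • gg (t • (F1ᵀ * F1))) * H * ((4 / t) • gg (t • (F2 * F2ᵀ))) * H).trace := by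
      apply trace_mono hH
      · exact psd_transpose_mul R
      · exact trunc_scale' F1 ht hr hr'
      · exact psd_mul_transpose A
      · exact trunc_scale F2 ht le_rfl (by linarith)
    refine h8.trans (le_of_eq ?_)
    rw [mul_smul_comm, smul_mul_assoc, smul_mul_assoc, smul_mul_assoc, smul_mul_assoc, trace_smul,
      trace_smul, smul_eq_mul, smul_eq_mul]
    unfold ph
    ring
  rw [h1, abs_mul, abs_of_pos (by norm_num : (0 : ℝ) < 3 / 4)]
  have h9 : 4 / t = 4 * c ^ 2 := by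
    field_simp
    linarith
  rw [h9] at h3 h6
  calc 3 / 4 * |(G * H * T * H * (R * H * A)).trace|
      ≤ 3 / 4 * (2 * c / 2 * ((G * H * T) * (G * H * T)ᵀ).trace +
        1 / (2 * (2 * c)) * ((R * H * A)ᵀ * (R * H * A)).trace) := by gcongr
    _ ≤ 3 / 4 * (2 * c / 2 * (4 * c ^ 2 * ph H F0 F2 t) +
        1 / (2 * (2 * c)) * ((4 * c ^ 2) ^ 2 * ph H F2 F1 t)) := by gcongr
    _ = 3 * c ^ 3 * (ph H F0 F2 t + ph H F2 F1 t) := by
        field_simp
        ring

theorem NN_cyc (H F0 F1 F2 : Matrix n n ℝ) : NN H F0 F1 F2 = NN H F1 F2 F0 := by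
  unfold NN
  rw [show H * F0 * H * F1 * H * F2 = (H * F0) * (H * F1 * H * F2) by simp only [mul_assoc],
    trace_mul_comm]
  simp only [mul_assoc]

/-- the three telescoping terms -/
theorem NN_tele {H : Matrix n n ℝ} (hH : Hᵀ = H) (hHH : H * H = 1) (F0 F1 F2 : Matrix n n ℝ)
    (k : ℤ) :
    |NN H (trunc ((4 : ℝ) ^ (-(k + 1))) F0) (trunc ((4 : ℝ) ^ (-(k + 1))) F1)
        (trunc ((4 : ℝ) ^ (-(k + 1))) F2) -
      NN H (trunc ((4 : ℝ) ^ (-k)) F0) (trunc ((4 : ℝ) ^ (-k)) F1)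
        (trunc ((4 : ℝ) ^ (-k)) F2)| ≤
      6 * (8 : ℝ) ^ k * (ph H F0 F2 ((4 : ℝ) ^ (-k)) + ph H F1 F0 ((4 : ℝ) ^ (-k)) +
        ph H F2 F1 ((4 : ℝ) ^ (-k))) := by
  set t : ℝ := (4 : ℝ) ^ (-k) with ht
  have ht0 : 0 < t := by positivity
  have ht4 : (4 : ℝ) ^ (-(k + 1)) = t / 4 := by
    rw [neg_add, zpow_add₀ (by norm_num), ← ht]
    norm_num
    ring
  rw [ht4]
  set c : ℝ := (2 : ℝ) ^ k with hc
  have hc0 : 0 < c := by positivity
  have hct : c ^ 2 * t = 1 := by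
    have h4 : (4 : ℝ) ^ k = c * c := by rw [hc, ← mul_zpow]; norm_num
    rw [ht, _root_.zpow_neg, h4]
    field_simp
  have hc3 : (8 : ℝ) ^ k = c ^ 3 := by
    have : (8 : ℝ) ^ k = c * c * c := by rw [hc, ← mul_zpow, ← mul_zpow]; norm_num
    rw [this]; ring
  rw [hc3]
  have hle : t / 4 ≤ t := by linarith
  have e1 := NN_basic hH hHH F0 F1 F2 ht0 le_rfl hle le_rfl hle hc0 hct (s := t / 4) (s' := t / 4)
  have e2 := NN_basic hH hHH F2 F0 F1 ht0 hle le_rfl le_rfl hle hc0 hct (s := t) (s' := t / 4)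
  have e3 := NN_basic hH hHH F1 F2 F0 ht0 hle le_rfl hle le_rfl hc0 hct (s := t) (s' := t)
  have h1 : NN H (trunc (t / 4) F0) (trunc (t / 4) F1) (trunc (t / 4) F2) -
      NN H (trunc t F0) (trunc t F1) (trunc t F2) =
      NN H (trunc (t / 4) F0) (trunc (t / 4) F1) (trunc (t / 4) F2 - trunc t F2) +
      NN H (trunc t F2) (trunc (t / 4) F0) (trunc (t / 4) F1 - trunc t F1) +
      NN H (trunc t F1) (trunc t F2) (trunc (t / 4) F0 - trunc t F0) := by
    rw [← NN_cyc H (trunc (t / 4) F0) (trunc (t / 4) F1 - trunc t F1) (trunc t F2)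
      |>.trans (NN_cyc _ _ _ _),
      ← NN_cyc H (trunc (t / 4) F0 - trunc t F0) (trunc t F1) (trunc t F2)]
    unfold NN
    simp only [mul_sub, sub_mul, trace_sub]
    ring
  rw [h1]
  refine (abs_add_three _ _ _).trans ?_
  linarith

lemma sum_Ico_int (f : ℤ → ℝ) (a : ℤ) (m : ℕ) :
    ∑ q ∈ Finset.Ico a (a + m), f q = ∑ i ∈ Finset.range m, f (a + i) := by
  symm
  apply Finset.sum_bij (fun (i : ℕ) _ => a + (i : ℤ))
  · intro i hi
    rw [Finset.mem_range] at hi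
    rw [Finset.mem_Ico]
    omega
  · intro i _ j _ h
    omega
  · intro q hq
    rw [Finset.mem_Ico] at hq
    refine ⟨(q - a).toNat, ?_, ?_⟩
    · rw [Finset.mem_range]; omega
    · omega
  · intro i _
    rfl

lemma sum_Ico_tele (g : ℤ → ℝ) (a : ℤ) (m : ℕ) :
    ∑ q ∈ Finset.Ico a (a + m), (g (q + 1) - g q) = g (a + m) - g a := by
  rw [sum_Ico_int]
  have := Finset.sum_range_sub (fun i : ℕ => g (a + i)) m
  simp only [Nat.cast_add, Nat.cast_one, Nat.cast_zero, add_zero] at this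
  rw [← this]
  apply Finset.sum_congr rfl
  intro i _
  rw [add_assoc]

/-- telescoping over `k = j - K, …, j + K - 1`; written with `q = k - j ∈ [-K, K)` -/
theorem NN_bound {H : Matrix n n ℝ} (hH : Hᵀ = H) (hHH : H * H = 1) (F0 F1 F2 : Matrix n n ℝ)
    (j : ℤ) (K : ℕ) :
    |NN H F0 F1 F2| ≤
      6 * ∑ q ∈ Finset.Ico (-(K : ℤ)) K, (8 : ℝ) ^ (q + j) *
        (ph H F0 F2 ((4 : ℝ) ^ (-(q + j))) + ph H F1 F0 ((4 : ℝ) ^ (-(q + j))) +
          ph H F2 F1 ((4 : ℝ) ^ (-(q + j)))) +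
      er H F0 F1 F2 (j - K) (j + K) := by
  set g : ℤ → ℝ := fun k => NN H (trunc ((4 : ℝ) ^ (-k)) F0) (trunc ((4 : ℝ) ^ (-k)) F1)
    (trunc ((4 : ℝ) ^ (-k)) F2) with hg
  have h1 : ∑ q ∈ Finset.Ico (-(K : ℤ)) K, (g (q + j + 1) - g (q + j)) =
      g (j + K) - g (j - K) := by
    have := sum_Ico_tele (fun q => g (q + j)) (-(K : ℤ)) (2 * K)
    rw [show -(K : ℤ) + ((2 * K : ℕ) : ℤ) = K by push_cast; ring] at this
    rw [show j + (K : ℤ) = K + j by ring, show j - (K : ℤ) = -K + j by ring, ← this]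
    apply Finset.sum_congr rfl
    intro q _
    rw [show q + 1 + j = q + j + 1 by ring]
  have h2 : NN H F0 F1 F2 = (NN H F0 F1 F2 - g (j + K)) + g (j - K) +
      ∑ q ∈ Finset.Ico (-(K : ℤ)) K, (g (q + j + 1) - g (q + j)) := by
    rw [h1]; ring
  have h3 : |∑ q ∈ Finset.Ico (-(K : ℤ)) K, (g (q + j + 1) - g (q + j))| ≤
      6 * ∑ q ∈ Finset.Ico (-(K : ℤ)) K, (8 : ℝ) ^ (q + j) *
        (ph H F0 F2 ((4 : ℝ) ^ (-(q + j))) + ph H F1 F0 ((4 : ℝ) ^ (-(q + j))) +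
          ph H F2 F1 ((4 : ℝ) ^ (-(q + j)))) := by
    refine (Finset.abs_sum_le_sum_abs _ _).trans ?_
    rw [Finset.mul_sum]
    apply Finset.sum_le_sum
    intro q _
    rw [← mul_assoc]
    exact NN_tele hH hHH F0 F1 F2 (q + j)
  rw [h2]
  refine (abs_add_three _ _ _).trans ?_
  have h4 : er H F0 F1 F2 (j - K) (j + K) = |g (j - K)| + |NN H F0 F1 F2 - g (j + K)| := rfl
  rw [h4]
  linarith

end Tri
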